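import Vale.Agent.P315.Defs

/-! Adjacency lists as input and maximum matchings as output of the word RAM. -/

namespace Vale.Agent.P305

/-- `adj` is a family of adjacency lists of `G`: list number `u` enumerates the neighbours of the
vertex `u` without repetition, in any order. -/
def Lists {n : ℕ} (G : SimpleGraph (Fin n)) (adj : List (List ℕ)) : Prop :=
  adj.length = n ∧ ∀ u : Fin n, (adj.getD u []).Nodup ∧
    ∀ v : ℕ, v ∈ adj.getD u [] ↔ ∃ h : v < n, G.Adj u ⟨v, h⟩

/-- The table `f` describes a maximum matching `M` of `G`: `f u = v + 1` exactly if `uv` is an edge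
of `M`, and no matching of `G` has more edges than `M`. -/
def MaxMatching {n : ℕ} (G : SimpleGraph (Fin n)) (f : ℕ → ℕ) : Prop :=
  ∃ M : G.Subgraph, M.IsMatching ∧ (∀ u v : Fin n, M.Adj u v ↔ f u = v + 1) ∧
    ∀ M' : G.Subgraph, M'.IsMatching → M'.edgeSet.ncard ≤ M.edgeSet.ncard

end Vale.Agent.P305
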