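import Vale.Agent.P315.Comp
import Vale.Agent.P315.Gen
import Vale.Agent.P305.Defs

/-!
The algebraic matching algorithm: definitions and the statements of the steps of the proof.

Arrays: `0, 1, 2` input, `3` output, `4` scratch, `5` never written, `6` parameters
(`0 : n`, `1 : p`, `2 : k ^ g`, `3 : n * n`, `4 : lb`, `5 : g`, `6 : 2 ^ lb`), `7` arguments of the
product (`0 : j`, `1 : μ`), `8` block numbers, `9, 10, 11` powers of `k`, `k * k`, `rk`,
`12, 13, 14` tables `row`, `col`, `zi`, `15` inverses, `16` adjacency matrix, `17` random digits,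
`18` offsets, `19` sieve, `20, 21, 22` factors and product, `23, 24, 25` scratch of the product,
`30 + 3 d`, `31 + 3 d`, `32 + 3 d` input, output and augmented matrix of level `d`.
-/

open Finset

namespace Vale.Agent.P305

open Vale.Agent.P315

/-- Matrices indexed by natural numbers. -/
abbrev Mx (R : Type) : Type := ℕ → ℕ → R

section ring
variable {R : Type} [CommRing R]

/-- The Tutte matrix with the entries `x`. -/
def tm (n : ℕ) (ad : ℕ → ℕ → Bool) (x : ℕ → R) : Mx R := fun i j =>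
  if i < j ∧ ad i j = true then x (i * n + j)
  else if j < i ∧ ad j i = true then -x (j * n + i) else 0

/-- The weight of the loop at `i`. -/
def dm (n : ℕ) (x : ℕ → R) (i : ℕ) : R := x (i * n + i)

/-- The Tutte matrix with loops at the vertices `i ≥ h`. -/
def mh (n : ℕ) (ad : ℕ → ℕ → Bool) (x : ℕ → R) (h : ℕ) : Mx R := fun i j =>
  tm n ad x i j + if i = j ∧ h ≤ i then dm n x i else 0

/-- The block matrix `[[0, -1], [1, M]]`, `M = mh n ad x 0`. -/
def big (n : ℕ) (ad : ℕ → ℕ → Bool) (x : ℕ → R) : Mx R := fun i j =>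
  if i < n then (if j = i + n then -1 else 0)
  else if j < n then (if i = j + n then 1 else 0) else mh n ad x 0 (i - n) (j - n)

/-- The block matrix `[[M, 1, 1], [-1, 0, 0], [-1, 0, 0]]`, `M = mh n ad x 0`. -/
def ini (n : ℕ) (ad : ℕ → ℕ → Bool) (x : ℕ → R) : Mx R := fun i j =>
  if i < n then (if j < n then mh n ad x 0 i j else if j < 3 * n ∧ j % n = i then 1 else 0)
  else if i < 3 * n ∧ j < n ∧ i % n = j then -1 else 0

/-- The principal submatrix on `A` is nonsingular. -/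
def NS (A : Finset ℕ) (M : Mx R) : Prop := (Matrix.of fun i j : A => M i j).det ≠ 0

open Classical in
/-- The vertices below `h` whose loop is deleted. -/
noncomputable def bid (n : ℕ) (ad : ℕ → ℕ → Bool) (x : ℕ → R) : ℕ → Finset ℕ
  | 0 => ∅
  | h + 1 => if NS (bid n ad x h ∪ Ico h n) (mh n ad x (h + 1)) then insert h (bid n ad x h)
      else bid n ad x h

/-- `N` is the inverse of the principal submatrix of `M` on `A`, extended by zero. -/
def GInv (A : Finset ℕ) (M N : Mx R) : Prop :=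
  (∀ i j, i ∉ A ∨ j ∉ A → N i j = 0) ∧
    ∀ i ∈ A, ∀ j ∈ A, ∑ l ∈ A, M i l * N l j = if i = j then 1 else 0

/-- The update of one step. -/
def upd (N : Mx R) (u v : ℕ) (α y : R) : Mx R := fun i j =>
  N i j - (N i u * α * N u j - N i u * y * N v j + N i v * y * N u j)

/-- The update `N - N E X Eᵀ N`, where `E` selects the indices `w 0, …, w (m - 1)`. -/
def kupd (N : Mx R) (w : ℕ → ℕ) (m : ℕ) (X : Mx R) : Mx R := fun i j =>
  N i j - ∑ a ∈ range m, ∑ b ∈ range m, N i (w a) * X a b * N (w b) j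

/-- The block matrix `[[N0, 1], [1, 0]]` with blocks of size `m`. -/
def aug (m : ℕ) (N0 : Mx R) : Mx R := fun i j =>
  if i < m ∧ j < m then N0 i j else if (i < m ∧ j = i + m) ∨ (j < m ∧ i = j + m) then 1 else 0

/-- A linear map applied to each of `j` digits, the most significant one first. -/
def yat (Pi Po : ℕ) (co : ℕ → ℕ → R) : ℕ → (ℕ → R) → ℕ → R
  | 0, x, _ => x 0
  | j + 1, x, z => yat Pi Po co j
      (fun l => ∑ τ ∈ range Pi, co (z / Po ^ j) τ * x (τ * Pi ^ j + l)) (z % Po ^ j)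

end ring

/-- The generic entries. -/
noncomputable def xs (F : Type) [Field F] (n z : ℕ) : MvPolynomial (Fin (n * n)) F :=
  if h : z < n * n then MvPolynomial.X ⟨z, h⟩ else 0

/-- `f` is a perfect matching of `B`. -/
def Mate (ad : ℕ → ℕ → Bool) (B : Finset ℕ) (f : ℕ → ℕ) : Prop :=
  ∀ i, (i ∈ B → ∃ j ∈ B, f i = j + 1 ∧ f j = i + 1 ∧ i ≠ j ∧ (ad i j = true ∨ ad j i = true)) ∧
    (i ∉ B → f i = 0)

section field
variable {F : Type} [Field F]

/-- The good event. -/
def Good (n : ℕ) (ad : ℕ → ℕ → Bool) (x : ℕ → F) : Prop :=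
  (∀ h < n, NS (Ico (h + 1) (2 * n)) (big n ad x)) ∧ bid n ad x n = bid n ad (xs F n) n

open Classical in
/-- The diagonal part of the kernel of a step. -/
noncomputable def al (n : ℕ) (x : ℕ → F) (u v : ℕ) (a : F) : F :=
  if u = v ∧ u < n then a⁻¹
  else if u = v ∧ u < 2 * n then
    (if dm n x (u - n) * a = 1 then dm n x (u - n) else dm n x (u - n) * (dm n x (u - n) * a - 1)⁻¹)
  else 0

/-- The step matches an edge. -/
def Hit (n : ℕ) (ad : ℕ → ℕ → Bool) (x : ℕ → F) (u v : ℕ) (a : F) : Prop :=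
  2 * n ≤ u ∧ u < v ∧ v < 3 * n ∧ tm n ad x (u - 2 * n) (v - 2 * n) ≠ 0 ∧ a ≠ 0

open Classical in
/-- The skew part of the kernel of a step. -/
noncomputable def wy (n : ℕ) (ad : ℕ → ℕ → Bool) (x : ℕ → F) (u v : ℕ) (a : F) : F :=
  if Hit n ad x u v a then a⁻¹
  else if 2 * n ≤ u ∧ u < v ∧ v < 3 * n then tm n ad x (u - 2 * n) (v - 2 * n) else 0

open Classical in
/-- One step of the sequential algorithm. -/
noncomputable def stp (n : ℕ) (ad : ℕ → ℕ → Bool) (x : ℕ → F) (s : Mx F × (ℕ → ℕ)) (z : ℕ × ℕ) :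
    Mx F × (ℕ → ℕ) :=
  (upd s.1 z.1 z.2 (al n x z.1 z.2 (s.1 z.1 z.2)) (wy n ad x z.1 z.2 (s.1 z.1 z.2)),
    if Hit n ad x z.1 z.2 (s.1 z.1 z.2) then
      Function.update (Function.update s.2 (z.1 - 2 * n) (z.2 - 2 * n + 1)) (z.2 - 2 * n)
        (z.1 - 2 * n + 1)
    else s.2)

/-- The sequential algorithm on a list of pairs. -/
noncomputable def rn (n : ℕ) (ad : ℕ → ℕ → Bool) (x : ℕ → F) (s : Mx F × (ℕ → ℕ))
    (l : List (ℕ × ℕ)) : Mx F × (ℕ → ℕ) := l.foldl (stp n ad x) s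

/-- The second and third copies of the vertices carry the inverse of `M` on `A`. -/
def St2 (n : ℕ) (N : Mx F) (A : Finset ℕ) (M : Mx F) : Prop :=
  ∃ N' : Mx F, GInv A M N' ∧
    ∀ i j, n ≤ i → i < 3 * n → n ≤ j → j < 3 * n → N i j = N' (i % n) (j % n)

end field

/-- The order in which the pairs of the block `(r, c)` of level `d` are treated. -/
def ord (q : ℕ) : ℕ → ℕ → ℕ → List (ℕ × ℕ)
  | 0, r, c => [(r, c)]
  | d + 1, r, c => (List.range (q * q)).flatMap fun j => ord q d (r * q + j / q) (c * q + j % q)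

/-- The pairs at which something can happen. -/
def Act (n : ℕ) (z : ℕ × ℕ) : Prop :=
  (z.1 = z.2 ∧ z.1 < 2 * n) ∨ (2 * n ≤ z.1 ∧ z.1 < z.2 ∧ z.2 < 3 * n)

instance (n : ℕ) (z : ℕ × ℕ) : Decidable (Act n z) := by unfold Act; infer_instance

/-- The indices of the block `(r, c)` of size `s`. -/
def wm (s r c i : ℕ) : ℕ := if i < s then r * s + i else c * s + (i - s)

/-- The positions of the child `j` of size `s` inside its parent of size `q * s`. -/
def em (s q j i : ℕ) : ℕ := if i < s then j / q * s + i else q * s + (j % q * s + (i - s))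

/-- The row with the digits in odd position. -/
def row (k z : ℕ) : ℕ :=
  if h : z = 0 ∨ k < 2 then 0 else z % (k * k) / k + k * row k (z / (k * k))
  decreasing_by exact Nat.div_lt_self (by omega) (by nlinarith [not_or.1 h, not_lt.1 (not_or.1 h).2])

/-- The column with the digits in even position. -/
def col (k z : ℕ) : ℕ :=
  if h : z = 0 ∨ k < 2 then 0 else z % (k * k) % k + k * col k (z / (k * k))
  decreasing_by exact Nat.div_lt_self (by omega) (by nlinarith [not_or.1 h, not_lt.1 (not_or.1 h).2])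

/-- The digits spread out. -/
def zi (k i : ℕ) : ℕ :=
  if h : i = 0 ∨ k < 2 then 0 else i % k + k * k * zi k (i / k)
  decreasing_by exact Nat.div_lt_self (by omega) (by omega)

theorem row_zero (k : ℕ) : row k 0 = 0 := by rw [row]; simp

theorem col_zero (k : ℕ) : col k 0 = 0 := by rw [col]; simp

theorem zi_zero (k : ℕ) : zi k 0 = 0 := by rw [zi]; simp

theorem row_eq {k : ℕ} (hk : 2 ≤ k) (z : ℕ) :
    row k z = z % (k * k) / k + k * row k (z / (k * k)) := by
  rcases Nat.eq_zero_or_pos z with rfl | h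
  · simp [row_zero]
  · rw [row, dif_neg (by omega)]

theorem col_eq {k : ℕ} (hk : 2 ≤ k) (z : ℕ) :
    col k z = z % (k * k) % k + k * col k (z / (k * k)) := by
  rcases Nat.eq_zero_or_pos z with rfl | h
  · simp [col_zero]
  · rw [col, dif_neg (by omega)]

theorem zi_eq {k : ℕ} (hk : 2 ≤ k) (i : ℕ) : zi k i = i % k + k * k * zi k (i / k) := by
  rcases Nat.eq_zero_or_pos i with rfl | h
  · simp [zi_zero]
  · rw [zi, dif_neg (by omega)]

/-- A bilinear algorithm with integer coefficients. -/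
structure Bil : Type where
  k : ℕ
  rk : ℕ
  D : ℕ
  α : ℕ → ℕ → ℤ
  β : ℕ → ℕ → ℤ
  γ : ℕ → ℕ → ℤ

/-- The algorithm computes `D` times the product of `k × k` matrices. -/
structure Bil.Ok (b : Bil) : Prop where
  k4 : 4 ≤ b.k
  kk : b.k * b.k ≤ b.rk
  D0 : 0 < b.D
  eq : ∀ σ < b.k * b.k, ∀ τ < b.k * b.k, ∀ υ < b.k * b.k,
    ∑ s ∈ range b.rk, b.γ σ s * b.α s τ * b.β s υ =
      if τ / b.k = σ / b.k ∧ υ % b.k = σ % b.k ∧ τ % b.k = υ / b.k then (b.D : ℤ) else 0

/-- Array `a` holds the `t × t` corner of `A`, row by row. -/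
def Rep (p : ℕ) (m : Mem) (a t : ℕ) (A : Mx (ZMod p)) : Prop :=
  ∀ i < t, ∀ j < t, m a (i * t + j) < p ∧ (m a (i * t + j) : ZMod p) = A i j

/-- The tables. -/
structure Tab (k rk p J : ℕ) (m : Mem) : Prop where
  hp : m 6 1 = p
  pk : ∀ i ≤ J, m 9 i = k ^ i
  pK : ∀ i ≤ J, m 10 i = (k * k) ^ i
  pr : ∀ i ≤ J, m 11 i = rk ^ i
  row : ∀ z < (k * k) ^ J, m 12 z = row k z
  col : ∀ z < (k * k) ^ J, m 13 z = col k z
  zi : ∀ i < k ^ J, m 14 i = zi k i
  inv : ∀ a < p, m 15 a < p ∧ (m 15 a : ZMod p) = (a : ZMod p)⁻¹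

/-- The data. -/
structure Dat (k p n g : ℕ) (ad : ℕ → ℕ → Bool) (x : ℕ → ZMod p) (m : Mem) : Prop where
  hn : m 6 0 = n
  hq : m 6 2 = k ^ g
  hg : m 6 5 = g
  adj : ∀ i < n, ∀ j < n, (m 16 (i * n + j) ≠ 0 ↔ ad i j = true)
  dig : ∀ z < n * n, m 17 z < p ∧ (m 17 z : ZMod p) = x z

theorem Tab.same {k rk p J : ℕ} {m m' : Mem} (h : Tab k rk p J m)
    (hs : ∀ a, a = 6 ∨ (9 ≤ a ∧ a ≤ 15) → m' a = m a) : Tab k rk p J m' := by
  obtain ⟨h1, h2, h3, h4, h5, h6, h7, h8⟩ := h
  constructor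
  all_goals rw [hs _ (by omega)]
  all_goals assumption

theorem Dat.same {k p n g : ℕ} {ad : ℕ → ℕ → Bool} {x : ℕ → ZMod p} {m m' : Mem}
    (h : Dat k p n g ad x m) (hs : ∀ a, a = 6 ∨ a = 16 ∨ a = 17 → m' a = m a) :
    Dat k p n g ad x m' := by
  obtain ⟨h1, h2, h3, h4, h5⟩ := h
  constructor
  all_goals rw [hs _ (by omega)]
  all_goals assumption

/-- What a node of level `d` leaves unchanged. -/
def Fr (d : ℕ) (m m' : Mem) : Prop :=
  (∀ a, a ≠ 3 → a ≠ 7 → a ≠ 8 → a < 20 ∨ 33 + 3 * d ≤ a → m' a = m a) ∧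
    ∀ i, 2 * d ≤ i → m' 8 i = m 8 i

/-- The number of digits per level. -/
def gg (k L n : ℕ) : ℕ := Nat.clog (k ^ L) (3 * n)

/-- The number of bits of a random digit. -/
def lb (D n : ℕ) : ℕ := Nat.clog 2 (12 * (n * n) + D + 2)

/-- A bound for all running times and values. -/
def tt (k rk D L n : ℕ) : ℕ :=
  (gg k L n * L + 2) * (k ^ gg k L n) ^ 2 * rk ^ (gg k L n * L + 1) + (lb D n + 2) * (4 * 2 ^ lb D n)

end Vale.Agent.P305
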