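import Vale.Agent.P305.Alg

/-! Basic facts on nonsingular principal submatrices, and filling a square matrix. -/

open Finset

namespace Vale.Agent.P305

open Vale.Agent.P315

theorem ns_map {R S : Type} [CommRing R] [CommRing S] (f : R →+* S) {A : Finset ℕ} {M : Mx R}
    {M' : Mx S} (h : ∀ i ∈ A, ∀ j ∈ A, M' i j = f (M i j)) :
    (Matrix.of fun i j : A => M' i j).det = f (Matrix.of fun i j : A => M i j).det := by
  rw [RingHom.map_det]
  refine congrArg Matrix.det ?_
  ext i j
  exact h i i.2 j j.2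

theorem NS.of_map {R S : Type} [CommRing R] [CommRing S] (f : R →+* S) {A : Finset ℕ} {M : Mx R}
    {M' : Mx S} (h : ∀ i ∈ A, ∀ j ∈ A, M' i j = f (M i j)) (hM : NS A M') : NS A M := by
  intro h0
  apply hM
  rw [ns_map f h, h0, map_zero]

theorem NS.map {R S : Type} [CommRing R] [CommRing S] (f : R →+* S) (hf : Function.Injective f)
    {A : Finset ℕ} {M : Mx R} {M' : Mx S} (h : ∀ i ∈ A, ∀ j ∈ A, M' i j = f (M i j))
    (hM : NS A M) : NS A M' := by
  intro h0
  rw [ns_map f h] at h0
  exact hM (hf (h0.trans (map_zero f).symm))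

theorem NS.congr {R : Type} [CommRing R] {A : Finset ℕ} {M M' : Mx R}
    (h : ∀ i ∈ A, ∀ j ∈ A, M' i j = M i j) (hM : NS A M) : NS A M' :=
  NS.map (RingHom.id R) Function.injective_id h hM

theorem ns_iff {R : Type} [CommRing R] [IsDomain R] (A : Finset ℕ) (M : Mx R) :
    NS A M ↔ ∀ v : ℕ → R, (∀ i ∈ A, ∑ l ∈ A, M i l * v l = 0) → ∀ l ∈ A, v l = 0 := by
  classical
  unfold NS
  rw [Ne, ← Matrix.exists_mulVec_eq_zero_iff]
  constructor
  · intro h v hv l hl
    by_contra hne
    refine h ⟨fun i : A => v i, fun h0 => hne (congrFun h0 ⟨l, hl⟩), ?_⟩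
    funext i
    have := hv i i.2
    rw [← Finset.sum_coe_sort A] at this
    exact this
  · rintro h ⟨v, hv0, hv⟩
    apply hv0
    funext l
    have := h (fun i => if hi : i ∈ A then v ⟨i, hi⟩ else 0) (fun i hi => by
      have h1 := congrFun hv ⟨i, hi⟩
      rw [← Finset.sum_coe_sort A]
      refine Eq.trans (sum_congr rfl fun l _ => ?_) h1
      simp [l.2]) l l.2
    simpa [l.2] using this

theorem GInv.congr {R : Type} [CommRing R] {A : Finset ℕ} {M M' N : Mx R} (h : GInv A M N)
    (hM : ∀ i ∈ A, ∀ j ∈ A, M' i j = M i j) : GInv A M' N :=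
  ⟨h.1, fun i hi j hj => (sum_congr rfl fun l hl => by rw [hM i hi l hl]).trans (h.2 i hi j hj)⟩

theorem GInv.mul {R : Type} [CommRing R] {A : Finset ℕ} {M N : Mx R} (h : GInv A M N) :
    (Matrix.of fun i j : A => M i j) * (Matrix.of fun i j : A => N i j) = 1 := by
  ext i j
  have := h.2 i i.2 j j.2
  rw [← Finset.sum_coe_sort A] at this
  rw [Matrix.mul_apply, Matrix.one_apply]
  simp only [Subtype.ext_iff]
  exact this

theorem GInv.left {R : Type} [CommRing R] {A : Finset ℕ} {M N : Mx R} (h : GInv A M N) :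
    ∀ i ∈ A, ∀ j ∈ A, ∑ l ∈ A, N i l * M l j = if i = j then 1 else 0 := by
  intro i hi j hj
  have h0 : (Matrix.of fun i j : A => N i j) * (Matrix.of fun i j : A => M i j) = 1 :=
    mul_eq_one_comm.1 h.mul
  have h1 := congrFun (congrFun h0 ⟨i, hi⟩) ⟨j, hj⟩
  rw [Matrix.mul_apply, Matrix.one_apply] at h1
  simp only [Subtype.ext_iff] at h1
  rw [← Finset.sum_coe_sort A]
  exact h1

theorem GInv.ns {F : Type} [Field F] {A : Finset ℕ} {M N : Mx F} (h : GInv A M N) : NS A M := by
  intro h0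
  have := congrArg Matrix.det h.mul
  rw [Matrix.det_mul, h0, zero_mul, Matrix.det_one] at this
  exact zero_ne_one this

theorem NS.ginv {F : Type} [Field F] {A : Finset ℕ} {M : Mx F} (h : NS A M) : ∃ N, GInv A M N := by
  classical
  refine ⟨fun i j => if hi : i ∈ A then if hj : j ∈ A then
    (Matrix.of fun i j : A => M i j)⁻¹ ⟨i, hi⟩ ⟨j, hj⟩ else 0 else 0, fun i j hij => ?_,
    fun i hi j hj => ?_⟩
  · rcases hij with hi | hj
    · simp [hi]
    · simp [hj]
  · have h1 := congrFun (congrFun (Matrix.mul_nonsing_inv _ (Ne.isUnit h)) ⟨i, hi⟩) ⟨j, hj⟩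
    rw [Matrix.mul_apply, Matrix.one_apply] at h1
    simp only [Subtype.ext_iff] at h1
    rw [← Finset.sum_coe_sort A, ← h1]
    refine sum_congr rfl fun l _ => ?_
    simp [l.2, hj]

theorem tm_skew {R : Type} [CommRing R] (n : ℕ) (ad : ℕ → ℕ → Bool) (x : ℕ → R) (i j : ℕ) :
    tm n ad x i j = -tm n ad x j i := by
  unfold tm
  split_ifs <;> first | omega | simp

theorem tm_map {R S : Type} [CommRing R] [CommRing S] (f : R →+* S) (n : ℕ) (ad : ℕ → ℕ → Bool)
    (x : ℕ → R) (i j : ℕ) : tm n ad (fun z => f (x z)) i j = f (tm n ad x i j) := by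
  unfold tm
  split_ifs <;> simp

theorem mh_map {R S : Type} [CommRing R] [CommRing S] (f : R →+* S) (n : ℕ) (ad : ℕ → ℕ → Bool)
    (x : ℕ → R) (h i j : ℕ) : mh n ad (fun z => f (x z)) h i j = f (mh n ad x h i j) := by
  unfold mh dm
  rw [tm_map, map_add]
  split_ifs <;> simp

theorem big_map {R S : Type} [CommRing R] [CommRing S] (f : R →+* S) (n : ℕ) (ad : ℕ → ℕ → Bool)
    (x : ℕ → R) (i j : ℕ) : big n ad (fun z => f (x z)) i j = f (big n ad x i j) := by
  unfold big
  rw [mh_map]
  split_ifs <;> simp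

theorem bid_sub {R : Type} [CommRing R] (n : ℕ) (ad : ℕ → ℕ → Bool) (x : ℕ → R) (h : ℕ) :
    bid n ad x h ⊆ range h := by
  induction h with
  | zero => simp [bid]
  | succ h ih =>
    rw [bid, range_add_one]
    split_ifs
    · exact insert_subset_insert _ ih
    · exact ih.trans (subset_insert _ _)

theorem rn_append {F : Type} [Field F] (n : ℕ) (ad : ℕ → ℕ → Bool) (x : ℕ → F)
    (s : Mx F × (ℕ → ℕ)) (l l' : List (ℕ × ℕ)) :
    rn n ad x s (l ++ l') = rn n ad x (rn n ad x s l) l' := List.foldl_append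

theorem idx_lt {t i j : ℕ} (hi : i < t) (hj : j < t) : i * t + j < t * t := by nlinarith

theorem idx_div {t i j : ℕ} (hj : j < t) : (i * t + j) / t = i := by
  rw [Nat.mul_comm, Nat.mul_add_div (by omega), Nat.div_eq_of_lt hj, add_zero]

theorem idx_mod {t i j : ℕ} (hj : j < t) : (i * t + j) % t = j := by
  rw [Nat.mul_comm, Nat.mul_add_mod, Nat.mod_eq_of_lt hj]

/-- Filling a square matrix: the entry `(i, j)` is computed by `f` with `i` in variable `0` and `j`
in variable `1`; it may read the old entries of array `a` from position `(i, j)` on. -/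
theorem fill2 (a : ℕ) (ha : a ≠ 5) {t f : Env → Mem → ℕ} (ht : Cx t) (hf : Cx f) :
    ∃ c : Cmd, ∀ (V S : ℕ) (e : Env) (m : Mem) (T : ℕ) (tb : ℕ → ℕ → ℕ),
      (∀ m', Same [a] m m' → t e m' = T) → T * T ≤ V → (∀ i < T, ∀ j < T, tb i j ≤ V) →
      (∀ i < T, ∀ j < T, ∀ m', Same [a] m m' → (∀ z, i * T + j ≤ z → m' a z = m a z) →
        f (cons i (cons j e)) m' = tb i j) →
      Tri V S c e m (1 + 2 * (T * T)) fun m' =>
        Same [a] m m' ∧ ∀ i < T, ∀ j < T, m' a (i * T + j) = tb i j := by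
  have h1 : Cx fun e m => f (cons (e 0 / t (tail e) m) (cons (e 0 % t (tail e) m) (tail e))) m := by
    have h2 : Cx fun e m => f (fun j => e (skip 2 j)) m := hf.ren (skip 2)
    have h3 := (h2.app ((Cx.var 1).div ht.tail.tail)).app ((Cx.var 0).mod ht.tail)
    refine h3.congr fun e m => congrArg (fun z => f z m) ?_
    funext j
    rcases j with _ | _ | j <;> rfl
  obtain ⟨c, hc⟩ := fill a ha (ht.mul ht) (Cx.const 0) h1
  refine ⟨c, fun V S e m T tb hT hV hb hf' => ?_⟩
  have e0 : t e m = T := hT m (Same.refl _ _)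
  have key := hc V S e m (fun z => tb (z / T) (z % T)) (by rwa [e0]) (fun z hz => by
    rw [e0] at hz
    have hT0 : 0 < T := Nat.pos_of_ne_zero fun h => by simp [h] at hz
    exact hb _ (Nat.div_lt_of_lt_mul hz) _ (Nat.mod_lt _ hT0)) (fun z hz m' hm' => by
    rw [e0] at hz
    have hT0 : 0 < T := Nat.pos_of_ne_zero fun h => by simp [h] at hz
    refine ⟨rfl, ?_⟩
    have e1 : t (tail (cons z e)) m' = T := hT m' hm'.1
    show f (cons (z / t (tail (cons z e)) m') (cons (z % t (tail (cons z e)) m') e)) m' = _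
    rw [e1]
    refine hf' _ (Nat.div_lt_of_lt_mul hz) _ (Nat.mod_lt _ hT0) m' hm'.1 fun y hy => ?_
    refine hm'.2.2 y (Or.inr ?_)
    have := Nat.div_add_mod' z T
    omega)
  rw [e0] at key
  refine key.mono le_rfl fun m' hm' => ⟨hm'.1, fun i hi j hj => ?_⟩
  have := hm'.2.1 _ (idx_lt hi hj)
  rw [zero_add] at this
  simp only [idx_div hj, idx_mod hj] at this
  exact this

/-- A finite table is computable. -/
theorem cx_table (K : ℕ) (tbl : ℕ → ℕ) {f : Env → Mem → ℕ} (hf : Cx f) :
    Cx fun e m => if f e m < K then tbl (f e m) else 0 := by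
  induction K with
  | zero => exact (Cx.const 0).congr fun _ _ => by simp
  | succ K ih =>
    refine (Cx.ite (CxP.eq hf (Cx.const K)) (Cx.const (tbl K)) ih).congr fun e m => ?_
    by_cases h : f e m = K
    · simp [h]
    · by_cases h' : f e m < K
      · rw [if_neg h, if_pos h', if_pos (by omega)]
      · rw [if_neg h, if_neg h', if_neg (by omega)]

/-- A sum of constant length is computable. -/
theorem cx_sum (K : ℕ) {F : ℕ → Env → Mem → ℕ} (hF : ∀ τ < K, Cx (F τ)) :
    Cx fun e m => ∑ τ ∈ range K, F τ e m := by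
  induction K with
  | zero => exact (Cx.const 0).congr fun _ _ => by simp
  | succ K ih =>
    exact ((ih fun τ h => hF τ (by omega)).add (hF K (by omega))).congr fun e m => by
      rw [sum_range_succ]

end Vale.Agent.P305
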