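import Vale.Agent.P305.Spec

open Finset

namespace Vale.Agent.P305

open Vale.Agent.P315

theorem p_card : CardS := by
  classical
  intro n G M h
  have e : M.verts.toFinset.card = ∑ b ∈ M.edgeSet.toFinset,
      (M.verts.toFinset.filter fun v => v ∈ b).card := by
    simp only [card_filter]
    rw [sum_comm, card_eq_sum_ones]
    refine sum_congr rfl fun v hv => ?_
    obtain ⟨w, hw, hu⟩ := h (Set.mem_toFinset.1 hv)
    rw [sum_eq_single_of_mem s(v, w) (Set.mem_toFinset.2 hw), if_pos (Sym2.mem_mk_left v w)]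
    intro b hb hne
    refine if_neg fun hvb => hne ?_
    obtain ⟨u, rfl⟩ := hvb
    rw [hu u (Set.mem_toFinset (s := M.edgeSet) |>.1 hb)]
  rw [Set.ncard_eq_toFinset_card', Set.ncard_eq_toFinset_card', e, mul_comm, ← smul_eq_mul,
    ← sum_const]
  refine sum_congr rfl fun b hb => ?_
  induction b using Sym2.ind with
  | _ u v =>
    have ha : M.Adj u v := Set.mem_toFinset (s := M.edgeSet) |>.1 hb
    rw [← card_pair ha.ne]
    refine congrArg _ (Finset.ext fun x => ?_)
    rw [mem_filter, Set.mem_toFinset, Sym2.mem_iff, mem_insert, mem_singleton]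
    refine ⟨fun k => k.2, fun k => ⟨?_, k⟩⟩
    rcases k with rfl | rfl
    · exact ha.fst_mem
    · exact ha.snd_mem

theorem p_graph2 (h1 : CardS) : Graph2 := by
  intro n G ad had B f hB hM
  have key : ∀ u v : ℕ, f u = v + 1 → u ∈ B ∧ f v = u + 1 ∧ (ad u v = true ∨ ad v u = true) := by
    intro u v h
    have hu : u ∈ B := by
      by_contra k
      have := (hM u).2 k
      omega
    obtain ⟨j, _, a, b, _, c⟩ := (hM u).1 hu
    obtain rfl : j = v := by omega
    exact ⟨hu, b, c⟩
  let M : G.Subgraph :=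
    { verts := {u | u.val ∈ B}
      Adj := fun u v => f u = v + 1
      adj_sub := fun {u v} h => (key u v h).2.2.elim (had u v).1 fun k => ((had v u).1 k).symm
      edge_vert := fun {u v} h => (key u v h).1
      symm := ⟨fun u v h => (key u v h).2.1⟩ }
  have hm : M.IsMatching := by
    intro u hu
    obtain ⟨j, hj, a, _⟩ := (hM u).1 hu
    refine ⟨⟨j, mem_range.1 (hB hj)⟩, a, fun v hv => Fin.ext ?_⟩
    have b : f u = v + 1 := hv
    simp only
    omega
  refine ⟨M, hm, fun _ _ => Iff.rfl, ?_⟩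
  rw [← h1 n G M hm, ← Set.ncard_coe_finset, ← Set.ncard_image_of_injective _ Fin.val_injective]
  refine congrArg _ (Set.ext fun i => ⟨fun hi => ⟨⟨i, mem_range.1 (hB hi)⟩, hi, rfl⟩, ?_⟩)
  rintro ⟨u, hu, rfl⟩
  exact hu

end Vale.Agent.P305
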