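import Vale.Agent.P305.Spec

open Finset

namespace Vale.Agent.P305

open Vale.Agent.P315

namespace CorrectAux

variable {F : Type} [Field F]

theorem stp_id (n : ℕ) (ad : ℕ → ℕ → Bool) (x : ℕ → F) (s : Mx F × (ℕ → ℕ)) (z : ℕ × ℕ)
    (hz : ¬Act n z) : stp n ad x s z = s := by
  unfold Act at hz
  have h1 : ¬Hit n ad x z.1 z.2 (s.1 z.1 z.2) := fun h => hz (Or.inr ⟨h.1, h.2.1, h.2.2.1⟩)
  have h2 : al n x z.1 z.2 (s.1 z.1 z.2) = 0 := by
    unfold al
    rw [if_neg (by omega), if_neg (by omega)]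
  have h3 : wy n ad x z.1 z.2 (s.1 z.1 z.2) = 0 := by
    unfold wy
    rw [if_neg h1, if_neg (by omega)]
  unfold stp
  rw [h2, h3, if_neg h1]
  refine Prod.ext ?_ rfl
  funext i j
  simp [upd]

theorem rn_filter (n : ℕ) (ad : ℕ → ℕ → Bool) (x : ℕ → F) (l : List (ℕ × ℕ)) :
    ∀ s : Mx F × (ℕ → ℕ), rn n ad x s l = rn n ad x s (l.filter fun z => decide (Act n z)) := by
  induction l with
  | nil => intro s; rfl
  | cons z l ih =>
    intro s
    by_cases hz : Act n z
    · rw [List.filter_cons_of_pos (by simpa using hz)]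
      exact ih _
    · rw [List.filter_cons_of_neg (by simpa using hz), ← ih]
      show rn n ad x (stp n ad x s z) l = _
      rw [stp_id n ad x s z hz]

theorem gen (n : ℕ) (ad : ℕ → ℕ → Bool) (x : ℕ → F) {B : Finset ℕ} (hB : B ⊆ range n)
    (h : NS B (tm n ad x)) : NS B (tm n ad (xs F n)) := by
  refine NS.of_map (MvPolynomial.eval fun z : Fin (n * n) => x z) (fun i hi j hj => ?_) h
  have hi' := mem_range.1 (hB hi)
  have hj' := mem_range.1 (hB hj)
  unfold tm
  split_ifs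
  · rw [xs, dif_pos (idx_lt hi' hj'), MvPolynomial.eval_X]
  · rw [xs, dif_pos (idx_lt hj' hi'), map_neg, MvPolynomial.eval_X]
  · rw [map_zero]

end CorrectAux

theorem p_correct (h1 : OrdS) (h2 : Phase1) (h3 : Phase2) (h4 : Phase3) (h5 : Ideal)
    (h6 : Graph1) (h7 : Graph2) : Correct := by
  intro F _ h2F n G ad had x q d hq hd hG
  obtain ⟨l, hl1, hl2, hl3⟩ := h1 q d n hq hd
  have e : ((List.range (2 * n)).map fun u => (u, u)) =
      ((List.range n).map fun u => (u, u)) ++ ((List.range n).map fun u => (n + u, n + u)) := by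
    rw [two_mul, List.range_add, List.map_append, List.map_map]
    rfl
  rw [CorrectAux.rn_filter, hl3, e, rn_append, rn_append]
  obtain ⟨a1, a2⟩ := h2 F n ad x (fun _ => 0) hG.1
  generalize rn n ad x (ini n ad x, fun _ => 0) ((List.range n).map fun u => (u, u)) = s1 at a1 a2
  obtain ⟨N1, f1⟩ := s1
  obtain rfl : f1 = fun _ => 0 := a2
  obtain ⟨b1, b2⟩ := h3 F n ad x N1 (fun _ => 0) a1
  generalize rn n ad x (N1, fun _ => 0) ((List.range n).map fun u => (n + u, n + u)) = s2 at b1 b2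
  obtain ⟨N2, f2⟩ := s2
  obtain rfl : f2 = fun _ => 0 := b2
  have hB := bid_sub n ad x n
  obtain ⟨M, m1, m2, m3⟩ := h7 n G ad had _ _ hB (h4 F h2F n ad x N2 _ l hB b1 hl1 hl2)
  refine ⟨M, m1, m2, fun M' hM' => ?_⟩
  obtain ⟨B0, c1, c2, y, c3⟩ := h6 F n G ad had M' hM'
  obtain ⟨N', hN', -⟩ := b1
  have c4 := CorrectAux.gen n ad x hB hN'.ns
  rw [hG.2] at c4 m3
  have := h5 F h2F n ad B0 c1 c4 (CorrectAux.gen n ad y c1 c3)
  omega

end Vale.Agent.P305
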