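import Vale.Agent.P305.Spec

open Finset

namespace Vale.Agent.P305

open Vale.Agent.P315

namespace GinvAAux

theorem upd_diag {F : Type} [Field F] (N : Mx F) (u : ℕ) (α : F) (i j : ℕ) :
    upd N u u α 0 i j = N i j - N i u * (α * N u j) := by
  unfold upd
  ring

theorem sum_upd {F : Type} [Field F] (A : Finset ℕ) (M N : Mx F) (u : ℕ) (α : F) (i j : ℕ) :
    ∑ l ∈ A, M i l * upd N u u α 0 l j =
      ∑ l ∈ A, M i l * N l j - (∑ l ∈ A, M i l * N l u) * (α * N u j) := by
  rw [sum_mul, ← sum_sub_distrib]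
  refine sum_congr rfl fun l _ => ?_
  rw [upd_diag]
  ring

theorem sum_loop {F : Type} [Field F] {A : Finset ℕ} {M M' : Mx F} {u : ℕ} {δ : F} (hu : u ∈ A)
    (hM : ∀ i ∈ A, ∀ j ∈ A, M' i j = M i j - if i = u ∧ j = u then δ else 0) {i : ℕ} (hi : i ∈ A)
    (v : ℕ → F) :
    ∑ l ∈ A, M' i l * v l = ∑ l ∈ A, M i l * v l - if i = u then δ * v u else 0 := by
  have h1 : ∑ l ∈ A, (if i = u ∧ l = u then δ else 0) * v l = if i = u then δ * v u else 0 := by
    by_cases h : i = u
    · rw [if_pos h, sum_eq_single_of_mem u hu]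
      · rw [if_pos ⟨h, rfl⟩]
      · intro l _ hl
        rw [if_neg fun h' => hl h'.2, zero_mul]
    · rw [if_neg h]
      exact sum_eq_zero fun l _ => by rw [if_neg fun h' => h h'.1, zero_mul]
  rw [← h1, ← sum_sub_distrib]
  refine sum_congr rfl fun l hl => ?_
  rw [hM i hi l hl, sub_mul]

end GinvAAux

open GinvAAux

theorem p_gElim : GElim := by
  intro F _ A M N u h hu
  refine ⟨fun h0 => ⟨fun i j hij => ?_, fun i hi j hj => ?_⟩, fun hns h0 => ?_⟩
  · rw [upd_diag]
    rcases hij with hi | hj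
    · by_cases hiu : i = u
      · rw [hiu, ← mul_assoc, mul_inv_cancel₀ h0, one_mul, sub_self]
      · have hA : i ∉ A := fun hA => hi (mem_erase.2 ⟨hiu, hA⟩)
        rw [h.1 i j (Or.inl hA), h.1 i u (Or.inl hA), zero_mul, sub_self]
    · by_cases hju : j = u
      · rw [hju, inv_mul_cancel₀ h0, mul_one, sub_self]
      · have hA : j ∉ A := fun hA => hj (mem_erase.2 ⟨hju, hA⟩)
        rw [h.1 i j (Or.inr hA), h.1 u j (Or.inr hA), mul_zero, mul_zero, sub_self]
  · have hz : M i u * upd N u u (N u u)⁻¹ 0 u j = 0 := by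
      rw [upd_diag, ← mul_assoc (N u u), mul_inv_cancel₀ h0, one_mul, sub_self, mul_zero]
    rw [sum_erase (f := fun l => M i l * upd N u u (N u u)⁻¹ 0 l j) A hz, sum_upd,
      h.2 i (mem_of_mem_erase hi) j (mem_of_mem_erase hj), h.2 i (mem_of_mem_erase hi) u hu,
      if_neg (ne_of_mem_erase hi), zero_mul, sub_zero]
  · have h1 := (ns_iff _ _).1 hns (fun l => N l u) fun i hi => by
      have hz : M i u * N u u = 0 := by rw [h0, mul_zero]
      rw [sum_erase (f := fun l => M i l * N l u) A hz, h.2 i (mem_of_mem_erase hi) u hu,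
        if_neg (ne_of_mem_erase hi)]
    have h2 := h.2 u hu u hu
    rw [if_pos rfl, sum_eq_zero] at h2
    · exact zero_ne_one h2
    · intro l hl
      by_cases hlu : l = u
      · rw [hlu, h0, mul_zero]
      · rw [h1 l (mem_erase.2 ⟨hlu, hl⟩), mul_zero]

theorem p_gLoop : GLoop := by
  intro F _ A M M' N u δ h hu hM
  refine ⟨fun h0 => ⟨fun i j hij => ?_, fun i hi j hj => ?_⟩, fun h0 hns => ?_⟩
  · rw [upd_diag]
    rcases hij with hi | hj
    · rw [h.1 i j (Or.inl hi), h.1 i u (Or.inl hi), zero_mul, sub_self]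
    · rw [h.1 i j (Or.inr hj), h.1 u j (Or.inr hj), mul_zero, mul_zero, sub_self]
  · have h1 : δ * N u u - 1 ≠ 0 := sub_ne_zero.2 h0
    rw [sum_loop hu hM hi, sum_upd, h.2 i hi j hj, h.2 i hi u hu, upd_diag]
    by_cases hiu : i = u
    · rw [if_pos hiu, if_pos hiu, sub_sub, sub_eq_self]
      field_simp
      ring
    · rw [if_neg hiu, if_neg hiu, zero_mul, sub_zero, sub_zero]
  · have h1 := (ns_iff _ _).1 hns (fun l => N l u) (fun i hi => by
      rw [sum_loop hu hM hi, h.2 i hi u hu, h0, sub_self]) u hu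
    have h2 : N u u = 0 := h1
    rw [h2, mul_zero] at h0
    exact zero_ne_one h0

theorem p_gSkew : GSkew := by
  intro F _ A M N h hM i j
  by_cases hi : i ∈ A
  · by_cases hj : j ∈ A
    · have e1 : N i j = ∑ l ∈ A, N i l * ∑ k ∈ A, N j k * M k l := by
        rw [sum_congr rfl fun l hl => by rw [h.left j hj l hl], sum_eq_single_of_mem j hj]
        · rw [if_pos rfl, mul_one]
        · intro l _ hl
          rw [if_neg (Ne.symm hl), mul_zero]
      have e2 : N j i = ∑ k ∈ A, N j k * ∑ l ∈ A, N i l * M l k := by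
        rw [sum_congr rfl fun l hl => by rw [h.left i hi l hl], sum_eq_single_of_mem i hi]
        · rw [if_pos rfl, mul_one]
        · intro l _ hl
          rw [if_neg (Ne.symm hl), mul_zero]
      rw [e1, e2]
      simp only [mul_sum]
      rw [sum_comm, ← sum_neg_distrib]
      refine sum_congr rfl fun k hk => ?_
      rw [← sum_neg_distrib]
      refine sum_congr rfl fun l hl => ?_
      rw [hM k hk l hl]
      ring
    · rw [h.1 i j (Or.inr hj), h.1 j i (Or.inl hj), neg_zero]
  · rw [h.1 i j (Or.inl hi), h.1 j i (Or.inr hi), neg_zero]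

end Vale.Agent.P305
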