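import Vale.Agent.P305.Spec

open Finset

namespace Vale.Agent.P305

open Vale.Agent.P315

namespace GinvBAux

theorem sum_upd {F : Type} [Field F] {A : Finset ℕ} {M N : Mx F} (h : GInv A M N) (u v : ℕ)
    (y : F) {i : ℕ} (hi : i ∈ A) {j : ℕ} (hj : j ∈ A) :
    ∑ l ∈ A, M i l * upd N u v 0 y l j = (if i = j then 1 else 0) +
      (if i = u then 1 else 0) * y * N v j - (if i = v then 1 else 0) * y * N u j := by
  have key : ∀ w, ∑ l ∈ A, M i l * N l w = if i = w then 1 else 0 := fun w => by
    by_cases hw : w ∈ A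
    · exact h.2 i hi w hw
    · rw [if_neg fun e : i = w => hw (e ▸ hi)]
      exact sum_eq_zero fun l _ => by rw [h.1 l w (Or.inr hw), mul_zero]
  rw [← key j, ← key u, ← key v, sum_mul, sum_mul, sum_mul, sum_mul, ← sum_add_distrib,
    ← sum_sub_distrib]
  refine sum_congr rfl fun l _ => ?_
  unfold upd
  ring

theorem upd_off {F : Type} [Field F] {A : Finset ℕ} {M N : Mx F} (h : GInv A M N) (u v : ℕ)
    (y : F) {i j : ℕ} (hij : i ∉ A ∨ j ∉ A) : upd N u v 0 y i j = 0 := by
  unfold upd
  rcases hij with hi | hj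
  · rw [h.1 i j (Or.inl hi), h.1 i u (Or.inl hi), h.1 i v (Or.inl hi)]; ring
  · rw [h.1 i j (Or.inr hj), h.1 u j (Or.inr hj), h.1 v j (Or.inr hj)]; ring

end GinvBAux

theorem p_gMatch : GMatch := by
  intro F _ A M N u v h huv hu hv hvu h0
  have ru : ∀ j, upd N u v 0 (N u v)⁻¹ u j = 0 := fun j => by
    unfold upd; rw [hu]; field_simp; ring
  have rv : ∀ j, upd N u v 0 (N u v)⁻¹ v j = 0 := fun j => by
    unfold upd; rw [hv, hvu]; field_simp; ring
  have cu : ∀ i, upd N u v 0 (N u v)⁻¹ i u = 0 := fun i => by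
    unfold upd; rw [hu, hvu]; field_simp; ring
  have cv : ∀ i, upd N u v 0 (N u v)⁻¹ i v = 0 := fun i => by
    unfold upd; rw [hv]; field_simp; ring
  have hm : ∀ i, i ∉ (A.erase u).erase v → i = v ∨ i = u ∨ i ∉ A := fun i hi => by
    simp only [mem_erase] at hi
    tauto
  refine ⟨fun i j hij => ?_, fun i hi j hj => ?_⟩
  · rcases hij with hi | hj
    · rcases hm i hi with rfl | rfl | hi
      · exact rv j
      · exact ru j
      · exact GinvBAux.upd_off h _ _ _ (Or.inl hi)
    · rcases hm j hj with rfl | rfl | hj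
      · exact cv i
      · exact cu i
      · exact GinvBAux.upd_off h _ _ _ (Or.inr hj)
  · have e : ∑ l ∈ (A.erase u).erase v, M i l * upd N u v 0 (N u v)⁻¹ l j =
        ∑ l ∈ A, M i l * upd N u v 0 (N u v)⁻¹ l j := by
      rw [sum_erase _ (by rw [rv, mul_zero]), sum_erase _ (by rw [ru, mul_zero])]
    simp only [mem_erase] at hi hj
    rw [e, GinvBAux.sum_upd h u v _ hi.2.2 hj.2.2, if_neg hi.1, if_neg hi.2.1]
    ring

theorem p_gDel : GDel := by
  intro F _ A M M' N u v t h huv hu hv h1 h2 hM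
  have ru : ∀ j, upd N u v 0 t u j = N u j := fun j => by
    unfold upd; rw [hu, h1]; ring
  have rv : ∀ j, upd N u v 0 t v j = N v j := fun j => by
    unfold upd; rw [hv, h2]; ring
  refine ⟨fun i j hij => GinvBAux.upd_off h _ _ _ hij, fun i hi j hj => ?_⟩
  have one : ∀ (w : ℕ) (c : F), upd N u v 0 t w j = N w j →
      ∑ l ∈ A, (if l = w then c else 0) * upd N u v 0 t l j = c * N w j := fun w c hw => by
    simp only [ite_mul, zero_mul, sum_ite_eq']
    split_ifs with hA
    · rw [hw]
    · rw [h.1 w j (Or.inl hA), mul_zero]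
  have e : ∑ l ∈ A, M' i l * upd N u v 0 t l j = ∑ l ∈ A, M i l * upd N u v 0 t l j -
      ∑ l ∈ A, (if i = u ∧ l = v then t else if i = v ∧ l = u then -t else 0) *
        upd N u v 0 t l j := by
    rw [← sum_sub_distrib]
    exact sum_congr rfl fun l hl => by rw [hM i hi l hl, sub_mul]
  rw [e, GinvBAux.sum_upd h u v t hi hj]
  by_cases hiu : i = u
  · have hiv : i ≠ v := hiu ▸ huv
    simp only [hiu, huv, true_and, false_and, if_false, if_true]
    rw [one v t (rv j)]
    ring
  · by_cases hiv : i = v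
    · simp only [hiv, huv.symm, true_and, false_and, if_false, if_true]
      rw [one u (-t) (ru j)]
      ring
    · simp [hiu, hiv]

end Vale.Agent.P305
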