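import Vale.Agent.P305.Spec

open Finset

namespace Vale.Agent.P305

open Vale.Agent.P315

namespace Graph1Aux

open Classical in
/-- The entries that select the edges of `M`. -/
noncomputable def xm (F : Type) [Field F] {n : ℕ} {G : SimpleGraph (Fin n)} (M : G.Subgraph)
    (z : ℕ) : F :=
  if ∃ u v : Fin n, M.Adj u v ∧ z = (u : ℕ) * n + v then 1 else 0

variable {F : Type} [Field F] {n : ℕ} {G : SimpleGraph (Fin n)}

theorem xm_pos (M : G.Subgraph) {u v : Fin n} (h : M.Adj u v) : xm F M ((u : ℕ) * n + v) = 1 :=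
  if_pos ⟨u, v, h, rfl⟩

theorem xm_neg (M : G.Subgraph) {u v : Fin n} (h : ¬M.Adj u v) :
    xm F M ((u : ℕ) * n + v) = 0 := by
  refine if_neg ?_
  rintro ⟨a, b, hab, e⟩
  have h1 : ((u : ℕ) * n + v) / n = ((a : ℕ) * n + b) / n := by rw [e]
  have h2 : ((u : ℕ) * n + v) % n = ((a : ℕ) * n + b) % n := by rw [e]
  rw [idx_div v.2, idx_div b.2] at h1
  rw [idx_mod v.2, idx_mod b.2] at h2
  rw [← Fin.ext h1, ← Fin.ext h2] at hab
  exact h hab

theorem tm_neg (ad : ℕ → ℕ → Bool) (M : G.Subgraph) {u v : Fin n} (h : ¬M.Adj u v) :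
    tm n ad (xm F M) u v = 0 := by
  unfold tm
  rw [xm_neg M h, xm_neg M fun h' => h h'.symm]
  split_ifs <;> simp

theorem tm_pos {ad : ℕ → ℕ → Bool} (had : ∀ u v : Fin n, ad u v = true ↔ G.Adj u v)
    (M : G.Subgraph) {u v : Fin n} (h : M.Adj u v) : tm n ad (xm F M) u v ≠ 0 := by
  unfold tm
  rw [xm_pos M h, xm_pos M h.symm]
  have h1 := (had u v).2 (M.adj_sub h)
  have h2 := (had v u).2 (M.adj_sub h.symm)
  have h3 : (u : ℕ) ≠ v := fun e => (M.adj_sub h).ne (Fin.ext e)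
  rcases lt_or_gt_of_ne h3 with h4 | h4
  · rw [if_pos ⟨h4, h1⟩]
    exact one_ne_zero
  · rw [if_neg fun h5 => by omega, if_pos ⟨h4, h2⟩]
    exact neg_ne_zero.2 one_ne_zero

end Graph1Aux

open Graph1Aux in
theorem p_graph1 (h1 : CardS) : Graph1 := by
  classical
  intro F _ n G ad had M hM
  refine ⟨(univ.filter fun u : Fin n => u ∈ M.verts).map Fin.valEmbedding, ?_, ?_, xm F M, ?_⟩
  · intro i hi
    obtain ⟨u, -, rfl⟩ := mem_map.1 hi
    exact mem_range.2 u.2
  · rw [card_map, ← h1 n G M hM, ← Set.ncard_coe_finset]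
    refine congrArg Set.ncard ?_
    ext u
    simp
  · rw [ns_iff]
    intro v hv l hl
    obtain ⟨u, hu, rfl⟩ := mem_map.1 hl
    obtain ⟨w, hw, -⟩ := hM (mem_filter.1 hu).2
    have hw' : w ∈ M.verts := M.edge_vert hw.symm
    obtain ⟨u', -, huniq⟩ := hM hw'
    have h2 := hv w (mem_map.2 ⟨w, mem_filter.2 ⟨mem_univ _, hw'⟩, rfl⟩)
    rw [sum_map, sum_eq_single u] at h2
    · exact (mul_eq_zero.1 h2).resolve_left (tm_pos had M hw.symm)
    · intro b _ hb
      have h3 : ¬M.Adj w b := fun hb' => hb ((huniq b hb').trans (huniq u hw.symm).symm)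
      exact mul_eq_zero_of_left (tm_neg ad M h3) _
    · intro h
      exact absurd hu h

end Vale.Agent.P305
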