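import Vale.Agent.P305.Spec

open Finset

namespace Vale.Agent.P305

open Vale.Agent.P315

namespace IdealAux

variable {R : Type} [CommRing R] {n : ℕ} {ad : ℕ → ℕ → Bool} {x : ℕ → R}

theorem mono {h h' : ℕ} (hh : h ≤ h') : bid n ad x h ⊆ bid n ad x h' := by
  induction h', hh using Nat.le_induction with
  | base => exact Subset.rfl
  | succ k _ ih =>
    refine ih.trans ?_
    rw [bid]
    split_ifs
    · exact subset_insert _ _
    · exact Subset.rfl

theorem back {h h' i : ℕ} (hh : h ≤ h') (hi : i < h) (k : i ∈ bid n ad x h') :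
    i ∈ bid n ad x h := by
  induction h', hh using Nat.le_induction with
  | base => exact k
  | succ l hl ih =>
    rw [bid] at k
    split_ifs at k
    · exact ih ((mem_insert.1 k).resolve_left (by omega))
    · exact ih k

end IdealAux

theorem p_ideal (h1 : MaxB) (h2 : SubS) : Ideal := by
  intro F _ hF n ad B0 hB0 hB hN
  have inj := IsFractionRing.injective (MvPolynomial (Fin (n * n)) F)
    (FractionRing (MvPolynomial (Fin (n * n)) F))
  have two : (2 : FractionRing (MvPolynomial (Fin (n * n)) F)) ≠ 0 := fun e => hF (by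
    apply MvPolynomial.C_injective (Fin (n * n)) F
    apply inj
    rw [map_ofNat, map_ofNat, map_zero, map_zero, e])
  refine h1 _ two (fun i j => algebraMap _ _ (tm n ad (xs F n) i j)) (range n) _ B0
    (fun i j => by rw [tm_skew, map_neg]) (bid_sub _ _ _ _) hB0
    (hB.map _ inj fun _ _ _ _ => rfl) (hN.map _ inj fun _ _ _ _ => rfl) fun B' s1 s2 hB' => ?_
  have k : NS B' (tm n ad (xs F n)) := NS.of_map _ (fun _ _ _ _ => rfl) hB'
  by_contra e
  have ne : (B' \ bid n ad (xs F n) n).Nonempty :=
    sdiff_nonempty.2 fun t => e (Subset.antisymm t s1)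
  obtain ⟨h, hh, hm⟩ := exists_min_image _ id ne
  obtain ⟨a1, a2⟩ := mem_sdiff.1 hh
  have hn : h < n := mem_range.1 (s2 a1)
  have a := h2 F n ad (h + 1) (bid n ad (xs F n) h ∪ Ico h n) B' (fun i hi => by
      rcases lt_or_ge i h with t | t
      · refine mem_union_left _ (IdealAux.back hn.le t (by_contra fun u => ?_))
        exact absurd (hm i (mem_sdiff.2 ⟨hi, u⟩)) (not_le.2 t)
      · exact mem_union_right _ (mem_Ico.2 ⟨t, mem_range.1 (s2 hi)⟩))
    (union_subset ((IdealAux.mono hn.le).trans (bid_sub _ _ _ _))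
      fun i hi => mem_range.2 (mem_Ico.1 hi).2)
    (fun i hi u => by
      rcases mem_union.1 hi with t | t
      · exact absurd (s1 (IdealAux.mono hn.le t)) u
      · exact lt_of_le_of_ne (mem_Ico.1 t).1 fun v => u (v ▸ a1)) k
  refine a2 (IdealAux.mono (Nat.succ_le_of_lt hn) ?_)
  rw [bid, if_pos a]
  exact mem_insert_self _ _

end Vale.Agent.P305
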