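import Vale.Agent.P305.Spec

open Finset

namespace Vale.Agent.P305

open Vale.Agent.P315

namespace InvAdjAux

theorem inv_step (p : ℕ) [hp : Fact p.Prime] (a : ℕ) (h2 : 2 ≤ a) (ha : a < p) :
    (p - p / a) * (((p % a : ℕ) : ZMod p)⁻¹).val % p = ((a : ZMod p)⁻¹).val := by
  have hr : p % a ≠ 0 := by
    intro h
    have := (Nat.dvd_prime hp.out).1 (Nat.dvd_of_mod_eq_zero h)
    omega
  have hr2 : p % a < a := Nat.mod_lt _ (by omega)
  have hr0 : ((p % a : ℕ) : ZMod p) ≠ 0 := by
    rw [Ne, ZMod.natCast_eq_zero_iff]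
    intro h
    have := Nat.le_of_dvd (by omega) h
    omega
  have key : (a : ZMod p) * ((p / a : ℕ) : ZMod p) + ((p % a : ℕ) : ZMod p) = 0 := by
    have h1 := congrArg (Nat.cast : ℕ → ZMod p) (Nat.div_add_mod p a)
    rw [ZMod.natCast_self] at h1
    push_cast at h1
    exact h1
  rw [← ZMod.val_natCast]
  refine congrArg ZMod.val ?_
  rw [Nat.cast_mul, ZMod.natCast_zmod_val, Nat.cast_sub (Nat.div_le_self _ _), ZMod.natCast_self]
  refine eq_inv_of_mul_eq_one_right ?_
  rw [← mul_assoc]
  have : (a : ZMod p) * (0 - ((p / a : ℕ) : ZMod p)) = ((p % a : ℕ) : ZMod p) := by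
    linear_combination -key
  rw [this, mul_inv_cancel₀ hr0]

/-- The offset of the list number `i`. -/
def off (adj : List (List ℕ)) (i : ℕ) : ℕ := ∑ l ∈ range i, (adj.getD l []).length

theorem flat (adj : List (List ℕ)) : ∀ i h, h < (adj.getD i []).length →
    adj.flatten.getD (off adj i + h) 0 = (adj.getD i []).getD h 0 := by
  induction adj with
  | nil => intro i h hh; simp at hh
  | cons l adj ih =>
    intro i h hh
    rcases i with _ | i
    · simp only [List.getD_cons_zero] at hh ⊢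
      simp only [off, range_zero, sum_empty, zero_add, List.flatten_cons]
      exact List.getD_append _ _ _ _ hh
    · simp only [List.getD_cons_succ] at hh ⊢
      have e1 : off (l :: adj) (i + 1) = l.length + off adj i := by
        unfold off
        rw [sum_range_succ', add_comm]
        simp only [List.getD_cons_zero, List.getD_cons_succ]
      rw [e1, List.flatten_cons, List.getD_append_right _ _ _ _ (by omega), ← ih i h hh]
      congr 1
      omega

theorem len_eq (adj : List (List ℕ)) (i : ℕ) :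
    (adj.map List.length).getD i 0 = (adj.getD i []).length := by
  have := List.getD_map adj (n := i) [] List.length
  simpa using this

theorem mem_lt {n : ℕ} {adj : List (List ℕ)} (h : ∀ l ∈ adj, l.Nodup ∧ ∀ v ∈ l, v < n) (i : ℕ) :
    (adj.getD i []).Nodup ∧ ∀ v ∈ adj.getD i [], v < n := by
  by_cases hi : i < adj.length
  · rw [List.getD_eq_getElem _ _ hi]
    exact h _ (List.getElem_mem hi)
  · rw [List.getD_eq_default _ _ (by omega)]
    simp

theorem len_le {n : ℕ} {l : List ℕ} (h1 : l.Nodup) (h2 : ∀ v ∈ l, v < n) : l.length ≤ n := by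
  rw [← List.toFinset_card_of_nodup h1]
  calc l.toFinset.card ≤ (range n).card :=
        card_le_card fun v hv => mem_range.2 (h2 v (List.mem_toFinset.1 hv))
    _ = n := card_range n

theorem off_le {n : ℕ} {adj : List (List ℕ)} (h : ∀ l ∈ adj, l.Nodup ∧ ∀ v ∈ l, v < n) (i : ℕ) :
    off adj i ≤ i * n := by
  unfold off
  calc ∑ l ∈ range i, (adj.getD l []).length ≤ ∑ _l ∈ range i, n :=
        sum_le_sum fun l _ => len_le (mem_lt h l).1 (mem_lt h l).2
    _ = i * n := by simp

theorem mem_iff (l : List ℕ) (j : ℕ) : j ∈ l ↔ ∃ h < l.length, j = l.getD h 0 := by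
  constructor
  · intro hj
    obtain ⟨h, hh, rfl⟩ := List.getElem_of_mem hj
    exact ⟨h, hh, (List.getD_eq_getElem _ _ hh).symm⟩
  · rintro ⟨h, hh, rfl⟩
    rw [List.getD_eq_getElem _ _ hh]
    exact List.getElem_mem hh

end InvAdjAux

open InvAdjAux

theorem p_invProg : InvProg := by
  have hf : Cx fun e m => if e 0 = 0 then 0 else if e 0 = 1 then 1 else
      (m 6 1 - m 6 1 / e 0) * m 15 (m 6 1 % e 0) % m 6 1 :=
    Cx.ite (CxP.eq (Cx.var 0) (Cx.const 0)) (Cx.const 0)
      (Cx.ite (CxP.eq (Cx.var 0) (Cx.const 1)) (Cx.const 1)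
        ((((Cx.cell 6 1).sub ((Cx.cell 6 1).div (Cx.var 0))).mul
          (Cx.get 15 ((Cx.cell 6 1).mod (Cx.var 0)))).mod (Cx.cell 6 1)))
  obtain ⟨c, hc⟩ := fill 15 (by omega) (Cx.cell 6 1) (Cx.const 0) hf
  refine ⟨c, fun V e m p hp hm hV => ?_⟩
  have : Fact p.Prime := ⟨hp⟩
  have key := hc V 0 e m (fun a => ((a : ZMod p)⁻¹).val) (by rwa [hm])
    (fun j _ => (ZMod.val_lt _).le.trans hV) (fun j hj m' hm' => by
      refine ⟨rfl, ?_⟩
      have e6 : m' 6 1 = p := by rw [hm'.1 6 (by simp), hm]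
      rw [hm] at hj
      show (if j = 0 then 0 else if j = 1 then 1 else
        (m' 6 1 - m' 6 1 / j) * m' 15 (m' 6 1 % j) % m' 6 1) = _
      rw [e6]
      split_ifs with h0 h1
      · simp [h0]
      · simp [h1, ZMod.val_one]
      · have := hm'.2.1 (p % j) (Nat.mod_lt _ (by omega))
        rw [zero_add] at this
        rw [this]
        exact inv_step p j (by omega) hj)
  rw [hm] at key
  refine key.mono le_rfl fun m' hm' => ⟨hm'.1, fun a ha => ?_⟩
  have := hm'.2.1 a ha
  rw [zero_add] at this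
  rw [this]
  exact ⟨ZMod.val_lt _, ZMod.natCast_zmod_val _⟩

theorem p_adjProg : AdjProg := by
  have hf : Cx fun e m => if e 0 = 0 then 0 else m 18 (e 0 - 1) + m 1 (e 0 - 1) :=
    Cx.ite (CxP.eq (Cx.var 0) (Cx.const 0)) (Cx.const 0)
      ((Cx.get 18 ((Cx.var 0).sub (Cx.const 1))).add (Cx.get 1 ((Cx.var 0).sub (Cx.const 1))))
  obtain ⟨c1, hc1⟩ := fill 18 (by omega) ((Cx.cell 0 0).add (Cx.const 1)) (Cx.const 0) hf
  obtain ⟨c2, hc2⟩ := put 16 (((Cx.var 1).mul (Cx.cell 0 0)).add
    (Cx.get 2 ((Cx.get 18 (Cx.var 1)).add (Cx.var 0)))) (Cx.const 1)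
  refine ⟨.seq c1 (.rep (.get 0 (.const 0)) (.rep (.get 1 (.var 0)) c2)), 10,
    fun V e m n adj hlen hadj h0 h1 h2 h16 hV => ?_⟩
  have hnn : n ≤ n * n := Nat.le_mul_self n
  have k1 := hc1 V 0 e m (off adj) (by rw [h0]; omega) (fun j hj => by
      rw [h0] at hj
      have := off_le hadj j
      have : j * n ≤ n * n := Nat.mul_le_mul_right _ (by omega)
      omega) (fun j hj m' hm' => by
      refine ⟨rfl, ?_⟩
      show (if j = 0 then 0 else m' 18 (j - 1) + m' 1 (j - 1)) = _
      rcases j with _ | j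
      · simp [off]
      · have := hm'.2.1 j (by omega)
        rw [zero_add] at this
        rw [if_neg (by omega), Nat.add_sub_cancel, this, hm'.1 1 (by simp), h1, len_eq]
        unfold off
        rw [sum_range_succ])
  rw [h0] at k1
  have hT : 1 + 2 * (n + 1) + (1 + ∑ _j ∈ range n, (1 + (1 + n * 2))) ≤ 10 * (n * n + 1) := by
    simp only [sum_const, card_range, smul_eq_mul]
    nlinarith
  refine Tri.mono (Tri.seq (k1.mono le_rfl fun m1 hm1 => ?_)) hT fun _ h => h
  have s0 : m1 0 0 = n := by rw [hm1.1 0 (by simp), h0]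
  have e0 : (Term.get 0 (.const 0)).eval m1 e = n := s0
  have outer := Tri.rep (V := V) (S := 0) (e := e) (m := m1) (n := .get 0 (.const 0))
    (p := .rep (.get 1 (.var 0)) c2)
    (fun i m' => Same [16] m1 m' ∧
      ∀ z, (m' 16 z ≠ 0 ↔ ∃ i' < i, ∃ j ∈ adj.getD i' [], z = i' * n + j))
    (fun _ => 1 + n * 2) (by rw [e0]; omega)
    ⟨Same.refl _ _, fun z => by rw [hm1.1 16 (by simp), h16]; simp⟩ (by
      intro i hi m' hm'
      rw [e0] at hi
      have e1 : (Term.get 1 (.var 0)).eval m' (cons i e) = (adj.getD i []).length := by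
        show m' 1 i = _
        rw [hm'.1 1 (by simp), hm1.1 1 (by simp), h1, len_eq]
      have hl := len_le (mem_lt hadj i).1 (mem_lt hadj i).2
      have inner := Tri.rep (V := V) (S := 0) (e := cons i e) (m := m') (n := .get 1 (.var 0))
        (p := c2)
        (fun h m'' => Same [16] m1 m'' ∧
          ∀ z, (m'' 16 z ≠ 0 ↔ (∃ i' < i, ∃ j ∈ adj.getD i' [], z = i' * n + j) ∨
            ∃ h' < h, z = i * n + (adj.getD i []).getD h' 0))
        (fun _ => 1) (by rw [e1]; omega) ⟨hm'.1, fun z => by rw [hm'.2]; simp⟩ (by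
          intro h hh m'' hm''
          rw [e1] at hh
          refine (hc2 V 0 (cons h (cons i e)) m'' (by omega) (by omega)).mono le_rfl ?_
          rintro _ rfl
          have e2 : i * m'' 0 0 + m'' 2 (m'' 18 i + h) = i * n + (adj.getD i []).getD h 0 := by
            have := hm1.2.1 i (by omega)
            rw [zero_add] at this
            rw [hm''.1 0 (by simp), hm''.1 2 (by simp), hm''.1 18 (by simp), s0, this,
              hm1.1 2 (by simp), h2, flat adj i h hh]
          show Same [16] m1 (m''.write 16 (i * m'' 0 0 + m'' 2 (m'' 18 i + h)) 1) ∧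
            ∀ z, ((m''.write 16 (i * m'' 0 0 + m'' 2 (m'' 18 i + h)) 1) 16 z ≠ 0 ↔ _)
          rw [e2]
          refine ⟨hm''.1.trans (Same.write _ _ _ _), fun z => ?_⟩
          by_cases hz : z = i * n + (adj.getD i []).getD h 0
          · rw [hz, write_same]
            exact ⟨fun _ => Or.inr ⟨h, by omega, rfl⟩, fun _ => one_ne_zero⟩
          · rw [write_ne _ _ (Or.inr hz), hm''.2]
            refine or_congr_right ⟨fun ⟨h', hh', e'⟩ => ⟨h', by omega, e'⟩, fun ⟨h', hh', e'⟩ => ?_⟩
            refine ⟨h', ?_, e'⟩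
            rcases Nat.lt_succ_iff_lt_or_eq.1 hh' with h3 | rfl
            · exact h3
            · exact absurd e' hz)
      rw [e1] at inner
      refine inner.mono ?_ fun m'' hm'' => ⟨hm''.1, fun z => ?_⟩
      · simp only [sum_const, card_range, smul_eq_mul]
        omega
      · rw [hm''.2]
        constructor
        · rintro (⟨i', hi', hj⟩ | ⟨h', hh', e'⟩)
          · exact ⟨i', by omega, hj⟩
          · exact ⟨i, by omega, _, (mem_iff _ _).2 ⟨h', hh', rfl⟩, e'⟩
        · rintro ⟨i', hi', j, hj, e'⟩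
          rcases Nat.lt_succ_iff_lt_or_eq.1 hi' with h3 | rfl
          · exact Or.inl ⟨i', h3, j, hj, e'⟩
          · obtain ⟨h', hh', rfl⟩ := (mem_iff _ _).1 hj
            exact Or.inr ⟨h', hh', e'⟩)
  rw [e0] at outer
  refine outer.mono le_rfl fun m' hm' => ⟨?_, fun i hi j hj => ?_⟩
  · exact (hm1.1.mono (by simp)).trans (hm'.1.mono (by simp))
  · rw [hm'.2]
    constructor
    · rintro ⟨i', _, j', hj', e'⟩
      have hj2 := (mem_lt hadj i').2 j' hj'
      have d1 : i = i' := by rw [← idx_div (i := i) hj, e', idx_div hj2]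
      have d2 : j = j' := by rw [← idx_mod (i := i) hj, e', idx_mod hj2]
      rw [d1, d2]
      exact hj'
    · exact fun h => ⟨i, hi, j, h, rfl⟩

end Vale.Agent.P305
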