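import Vale.Agent.P305.Spec

open Finset

namespace Vale.Agent.P305

open Vale.Agent.P315

namespace KerAux

theorem four {F : Type} [Field F] (s t : Finset ℕ) (u v : ℕ → F) (L X R : Mx F) :
    ∑ a' ∈ t, ∑ b' ∈ t, (∑ a ∈ s, u a * L a a') * X a' b' * ∑ b ∈ s, R b' b * v b =
      ∑ a ∈ s, ∑ b ∈ s, u a * (∑ a' ∈ t, ∑ b' ∈ t, L a a' * X a' b' * R b' b) * v b := by
  calc _ = ∑ a' ∈ t, ∑ b' ∈ t, ∑ a ∈ s, ∑ b ∈ s, u a * (L a a' * X a' b' * R b' b) * v b := by
        refine sum_congr rfl fun a' _ => sum_congr rfl fun b' _ => ?_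
        rw [sum_mul, sum_mul_sum]
        exact sum_congr rfl fun a _ => sum_congr rfl fun b _ => by ring
    _ = ∑ a' ∈ t, ∑ a ∈ s, ∑ b ∈ s, ∑ b' ∈ t, u a * (L a a' * X a' b' * R b' b) * v b :=
        sum_congr rfl fun a' _ => sum_comm.trans (sum_congr rfl fun a _ => sum_comm)
    _ = ∑ a ∈ s, ∑ b ∈ s, ∑ a' ∈ t, ∑ b' ∈ t, u a * (L a a' * X a' b' * R b' b) * v b :=
        sum_comm.trans (sum_congr rfl fun a _ => sum_comm)
    _ = _ := by simp only [mul_sum, sum_mul]

end KerAux

theorem p_kerComp : KerComp := by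
  intro F _ m m' N0 X1 X' e he
  refine ⟨fun a b => X1 a b + ∑ a' ∈ range m', ∑ b' ∈ range m',
    ((if a = e a' then 1 else 0) - ∑ c ∈ range m, X1 a c * N0 c (e a')) * X' a' b' *
      ((if b = e b' then 1 else 0) - ∑ c ∈ range m, N0 (e b') c * X1 c b), fun N w w' hN hw => ?_⟩
  funext i j
  have h1 : ∀ a' ∈ range m', kupd N w m X1 i (w' a') = ∑ a ∈ range m, N i (w a) *
      ((if a = e a' then 1 else 0) - ∑ c ∈ range m, X1 a c * N0 c (e a')) := fun a' ha => by
    have k := he a' (mem_range.1 ha)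
    simp only [kupd, hw a' (mem_range.1 ha), mul_sub, sum_sub_distrib, mul_ite, mul_one, mul_zero,
      sum_ite_eq', mem_range, k, if_true, mul_sum]
    refine congrArg _ (sum_congr rfl fun a _ => sum_congr rfl fun c hc => ?_)
    rw [hN c (mem_range.1 hc) _ k, mul_assoc]
  have h2 : ∀ b' ∈ range m', kupd N w m X1 (w' b') j = ∑ b ∈ range m,
      ((if b = e b' then 1 else 0) - ∑ c ∈ range m, N0 (e b') c * X1 c b) * N (w b) j :=
    fun b' hb => by
    have k := he b' (mem_range.1 hb)
    simp only [kupd, hw b' (mem_range.1 hb), sub_mul, sum_sub_distrib, ite_mul, one_mul, zero_mul,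
      sum_ite_eq', mem_range, k, if_true, sum_mul]
    refine congrArg _ (sum_comm.trans (sum_congr rfl fun b _ => sum_congr rfl fun c hc => ?_))
    rw [hN _ k c (mem_range.1 hc)]
  rw [kupd, sum_congr rfl fun a' ha => sum_congr rfl fun b' hb => by rw [h1 a' ha, h2 b' hb],
    KerAux.four (range m) (range m') (fun a => N i (w a)) (fun b => N (w b) j)
      (fun a a' => (if a = e a' then 1 else 0) - ∑ c ∈ range m, X1 a c * N0 c (e a')) X'
      fun b' b => (if b = e b' then 1 else 0) - ∑ c ∈ range m, N0 (e b') c * X1 c b]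
  simp only [kupd, mul_add, add_mul, sum_add_distrib, sub_sub]

theorem p_kerAug : KerAug := by
  intro F _ m N0 X i hi j hj
  have a0 : ∀ a < m, ∀ b < m, aug m N0 a b = N0 a b := fun a ha b hb => if_pos ⟨ha, hb⟩
  refine ⟨?_, fun N w hN => ?_⟩
  · have a1 : ∀ a ∈ range m, aug m N0 (m + i) a = if a = i then 1 else 0 := fun a ha => by
      have := mem_range.1 ha
      rw [aug, if_neg (by omega)]
      exact if_congr (by omega) rfl rfl
    have a2 : ∀ b ∈ range m, aug m N0 b (m + j) = if b = j then 1 else 0 := fun b hb => by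
      have := mem_range.1 hb
      rw [aug, if_neg (by omega)]
      exact if_congr (by omega) rfl rfl
    have a3 : aug m N0 (m + i) (m + j) = 0 := by
      rw [aug, if_neg (by omega), if_neg (by omega)]
    simp only [kupd, id]
    rw [a3, sum_congr rfl fun a ha => sum_congr rfl fun b hb => by rw [a1 a ha, a2 b hb]]
    simp [hi, hj]
  · simp only [kupd, id]
    rw [a0 i hi j hj, hN i hi j hj]
    refine congrArg _ (sum_congr rfl fun a ha => sum_congr rfl fun b hb => ?_)
    rw [a0 i hi a (mem_range.1 ha), a0 b (mem_range.1 hb) j hj, hN i hi a (mem_range.1 ha),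
      hN b (mem_range.1 hb) j hj]

end Vale.Agent.P305
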