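import Vale.Agent.P305.Spec

open Finset

namespace Vale.Agent.P305

open Vale.Agent.P315

namespace LeafProgAux

/-- the loop weight -/
def dl (m : Mem) : ℕ := m 17 ((m 8 0 - m 6 0) * m 6 0 + (m 8 0 - m 6 0))

/-- the diagonal part -/
def alN (m : Mem) : ℕ :=
  if m 8 0 = m 8 1 ∧ m 8 0 < m 6 0 then m 15 (m 30 1)
  else if m 8 0 = m 8 1 ∧ m 8 0 < 2 * m 6 0 then
    (if dl m * m 30 1 % m 6 1 = 1 then dl m
      else dl m * m 15 ((dl m * m 30 1 + (m 6 1 - 1)) % m 6 1) % m 6 1)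
  else 0

/-- position of the edge -/
def ps (m : Mem) : ℕ := (m 8 0 - 2 * m 6 0) * m 6 0 + (m 8 1 - 2 * m 6 0)

/-- the entry of the Tutte matrix -/
def tN (m : Mem) : ℕ := if m 16 (ps m) ≠ 0 then m 17 (ps m) else 0

/-- the third range -/
def rg (m : Mem) : Prop := 2 * m 6 0 ≤ m 8 0 ∧ m 8 0 < m 8 1 ∧ m 8 1 < 3 * m 6 0

/-- an edge is matched -/
def ht (m : Mem) : Prop := rg m ∧ tN m ≠ 0 ∧ m 30 1 ≠ 0

open Classical in
/-- the skew part -/
noncomputable def wyN (m : Mem) : ℕ :=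
  if ht m then m 15 (m 30 1) else if rg m then tN m else 0

/-- the four entries -/
noncomputable def tb (m : Mem) (j : ℕ) : ℕ :=
  if j = 0 then alN m else if j = 1 then (m 6 1 - wyN m) % m 6 1 else if j = 2 then wyN m else 0

theorem cx_dl : Cx fun _ m => dl m :=
  Cx.get 17 ((((Cx.cell 8 0).sub (Cx.cell 6 0)).mul (Cx.cell 6 0)).add
    ((Cx.cell 8 0).sub (Cx.cell 6 0)))

theorem cx_al : Cx fun _ m => alN m :=
  Cx.ite ((CxP.eq (Cx.cell 8 0) (Cx.cell 8 1)).and (CxP.lt (Cx.cell 8 0) (Cx.cell 6 0)))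
    (Cx.get 15 (Cx.cell 30 1))
    (Cx.ite ((CxP.eq (Cx.cell 8 0) (Cx.cell 8 1)).and
        (CxP.lt (Cx.cell 8 0) ((Cx.const 2).mul (Cx.cell 6 0))))
      (Cx.ite (CxP.eq ((cx_dl.mul (Cx.cell 30 1)).mod (Cx.cell 6 1)) (Cx.const 1)) cx_dl
        ((cx_dl.mul (Cx.get 15 (((cx_dl.mul (Cx.cell 30 1)).add
          ((Cx.cell 6 1).sub (Cx.const 1))).mod (Cx.cell 6 1)))).mod (Cx.cell 6 1)))
      (Cx.const 0))

theorem cx_i : Cx fun _ m => m 8 0 - 2 * m 6 0 :=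
  (Cx.cell 8 0).sub ((Cx.const 2).mul (Cx.cell 6 0))

theorem cx_j : Cx fun _ m => m 8 1 - 2 * m 6 0 :=
  (Cx.cell 8 1).sub ((Cx.const 2).mul (Cx.cell 6 0))

theorem cx_ps : Cx fun _ m => ps m := (cx_i.mul (Cx.cell 6 0)).add cx_j

theorem cx_t : Cx fun _ m => tN m :=
  Cx.ite (CxP.ne (Cx.get 16 cx_ps) (Cx.const 0)) (Cx.get 17 cx_ps) (Cx.const 0)

theorem cx_rg : CxP fun _ m => rg m :=
  (CxP.le ((Cx.const 2).mul (Cx.cell 6 0)) (Cx.cell 8 0)).and
    ((CxP.lt (Cx.cell 8 0) (Cx.cell 8 1)).and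
      (CxP.lt (Cx.cell 8 1) ((Cx.const 3).mul (Cx.cell 6 0))))

theorem cx_ht : CxP fun _ m => ht m :=
  cx_rg.and ((CxP.ne cx_t (Cx.const 0)).and (CxP.ne (Cx.cell 30 1) (Cx.const 0)))

open Classical in
theorem cx_wy : Cx fun _ m => wyN m :=
  Cx.ite cx_ht (Cx.get 15 (Cx.cell 30 1)) (Cx.ite cx_rg cx_t (Cx.const 0))

theorem cx_tb : Cx fun e m => tb m (e 0) :=
  Cx.ite (CxP.eq (Cx.var 0) (Cx.const 0)) cx_al
    (Cx.ite (CxP.eq (Cx.var 0) (Cx.const 1)) (((Cx.cell 6 1).sub cx_wy).mod (Cx.cell 6 1))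
      (Cx.ite (CxP.eq (Cx.var 0) (Cx.const 2)) cx_wy (Cx.const 0)))

theorem ht_same {m m' : Mem} (h : Same [31] m m') : ht m' ↔ ht m := by
  unfold ht rg tN ps
  rw [h 6 (by simp), h 8 (by simp), h 16 (by simp), h 17 (by simp), h 30 (by simp)]

theorem tb_same {m m' : Mem} (h : Same [31] m m') : tb m' = tb m := by
  funext j
  have h1 : alN m' = alN m := by
    unfold alN dl
    rw [h 6 (by simp), h 8 (by simp), h 15 (by simp), h 17 (by simp), h 30 (by simp)]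
  have h2 : wyN m' = wyN m := by
    unfold wyN ht rg tN ps
    rw [h 6 (by simp), h 8 (by simp), h 15 (by simp), h 16 (by simp), h 17 (by simp),
      h 30 (by simp)]
  unfold tb
  rw [h1, h2, h 6 (by simp)]

theorem cast_ne {p : ℕ} {y : ℕ} (hy : y < p) : (y : ZMod p) ≠ 0 ↔ y ≠ 0 := by
  rw [Ne, ZMod.natCast_eq_zero_iff]
  constructor
  · rintro h rfl
    exact h (dvd_zero _)
  · intro h hd
    exact absurd (Nat.le_of_dvd (Nat.pos_of_ne_zero h) hd) (by omega)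

section main
variable {k rk p J n g : ℕ} [Fact p.Prime] {ad : ℕ → ℕ → Bool} {x : ℕ → ZMod p} {m : Mem}
  {a : ZMod p}

theorem al_ok (hT : Tab k rk p J m) (hD : Dat k p n g ad x m) (ha : m 30 1 < p)
    (ha' : (m 30 1 : ZMod p) = a) :
    alN m < p ∧ (alN m : ZMod p) = al n x (m 8 0) (m 8 1) a := by
  have hp : 2 ≤ p := (Fact.out : p.Prime).two_le
  unfold alN al
  rw [hD.hn, hT.hp]
  by_cases h1 : m 8 0 = m 8 1 ∧ m 8 0 < n
  · rw [if_pos h1, if_pos h1, ← ha']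
    exact hT.inv _ ha
  rw [if_neg h1, if_neg h1]
  by_cases h2 : m 8 0 = m 8 1 ∧ m 8 0 < 2 * n
  swap
  · rw [if_neg h2, if_neg h2]
    exact ⟨by omega, Nat.cast_zero⟩
  rw [if_pos h2, if_pos h2]
  have h3 : m 8 0 - n < n := by omega
  have h4 : dl m < p ∧ (dl m : ZMod p) = dm n x (m 8 0 - n) := by
    unfold dl dm
    rw [hD.hn]
    exact hD.dig _ (idx_lt h3 h3)
  have h5 : dl m * m 30 1 % p = 1 ↔ dm n x (m 8 0 - n) * a = 1 := by
    rw [← h4.2, ← ha', ← Nat.cast_mul, ← Nat.cast_one (R := ZMod p),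
      ZMod.natCast_eq_natCast_iff', Nat.mod_eq_of_lt (show 1 < p by omega)]
  by_cases h6 : dl m * m 30 1 % p = 1
  · rw [if_pos h6, if_pos (h5.1 h6)]
    exact h4
  rw [if_neg h6, if_neg fun h => h6 (h5.2 h)]
  refine ⟨Nat.mod_lt _ (by omega), ?_⟩
  rw [ZMod.natCast_mod, Nat.cast_mul, (hT.inv _ (Nat.mod_lt _ (by omega))).2, ZMod.natCast_mod,
    Nat.cast_add, Nat.cast_mul, Nat.cast_sub (by omega), ZMod.natCast_self, h4.2, ha',
    Nat.cast_one, zero_sub, sub_eq_add_neg]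

theorem rg_iff (hD : Dat k p n g ad x m) :
    rg m ↔ 2 * n ≤ m 8 0 ∧ m 8 0 < m 8 1 ∧ m 8 1 < 3 * n := by
  unfold rg
  rw [hD.hn]

theorem t_ok (hD : Dat k p n g ad x m) (hr : rg m) :
    tN m < p ∧ (tN m : ZMod p) = tm n ad x (m 8 0 - 2 * n) (m 8 1 - 2 * n) := by
  have hp : 2 ≤ p := (Fact.out : p.Prime).two_le
  obtain ⟨h1, h2, h3⟩ := (rg_iff hD).1 hr
  have hi : m 8 0 - 2 * n < n := by omega
  have hj : m 8 1 - 2 * n < n := by omega
  have hij : m 8 0 - 2 * n < m 8 1 - 2 * n := by omega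
  unfold tN tm ps
  rw [hD.hn]
  by_cases h : ad (m 8 0 - 2 * n) (m 8 1 - 2 * n) = true
  · rw [if_pos ((hD.adj _ hi _ hj).2 h), if_pos ⟨hij, h⟩]
    exact hD.dig _ (idx_lt hi hj)
  · rw [if_neg fun h' => h ((hD.adj _ hi _ hj).1 h'), if_neg fun h' => h h'.2,
      if_neg fun h' => by omega]
    exact ⟨by omega, Nat.cast_zero⟩

theorem ht_iff (hD : Dat k p n g ad x m) (ha : m 30 1 < p) (ha' : (m 30 1 : ZMod p) = a) :
    ht m ↔ Hit n ad x (m 8 0) (m 8 1) a := by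
  unfold ht Hit
  constructor
  · rintro ⟨hr, h1, h2⟩
    obtain ⟨h3, h4, h5⟩ := (rg_iff hD).1 hr
    obtain ⟨h6, h7⟩ := t_ok hD hr
    exact ⟨h3, h4, h5, h7 ▸ (cast_ne h6).2 h1, ha' ▸ (cast_ne ha).2 h2⟩
  · rintro ⟨h3, h4, h5, h1, h2⟩
    have hr : rg m := (rg_iff hD).2 ⟨h3, h4, h5⟩
    obtain ⟨h6, h7⟩ := t_ok hD hr
    exact ⟨hr, (cast_ne h6).1 (h7 ▸ h1), (cast_ne ha).1 (ha' ▸ h2)⟩

theorem wy_ok (hT : Tab k rk p J m) (hD : Dat k p n g ad x m) (ha : m 30 1 < p)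
    (ha' : (m 30 1 : ZMod p) = a) :
    wyN m < p ∧ (wyN m : ZMod p) = wy n ad x (m 8 0) (m 8 1) a := by
  have hp : 2 ≤ p := (Fact.out : p.Prime).two_le
  unfold wyN wy
  by_cases h1 : ht m
  · rw [if_pos h1, if_pos ((ht_iff hD ha ha').1 h1), ← ha']
    exact hT.inv _ ha
  rw [if_neg h1, if_neg fun h => h1 ((ht_iff hD ha ha').2 h)]
  by_cases h2 : rg m
  · rw [if_pos h2, if_pos ((rg_iff hD).1 h2)]
    exact t_ok hD h2
  · rw [if_neg h2, if_neg fun h => h2 ((rg_iff hD).2 h)]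
    exact ⟨by omega, Nat.cast_zero⟩

end main

theorem write_upd (m : Mem) (i v : ℕ) : m.write 3 i v 3 = Function.update (m 3) i v := by
  funext j
  by_cases h : j = i
  · subst h
    rw [write_same, Function.update_self]
  · rw [write_ne _ _ (Or.inr h), Function.update_of_ne h]

theorem upd_eq {F : Type} [Field F] (N : Mx F) (r c : ℕ) (α y : F) :
    upd N r c α y = kupd N (wm 1 r c) 2
      (fun i j => if i = 0 then (if j = 0 then α else -y) else if j = 0 then y else 0) := by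
  funext i j
  simp only [upd, kupd, wm, sum_range_succ, range_zero, sum_empty]
  simp
  ring

end LeafProgAux

open LeafProgAux in
theorem p_leafProg : LeafProg := by
  intro b hb
  obtain ⟨c1, hc1⟩ := fill 31 (by omega) (Cx.const 4) (Cx.const 0) cx_tb
  obtain ⟨c2, hc2⟩ := put 3 cx_i (cx_j.add (Cx.const 1))
  obtain ⟨c3, hc3⟩ := put 3 cx_j (cx_i.add (Cx.const 1))
  obtain ⟨t, htt⟩ := cx_ht
  refine ⟨.seq c1 (.when t (.seq c2 c3)), 12, ?_⟩
  intro V e m p _ n g J ad x N r c0 hT hD _ hJ hp hJV hn _ _ hr hc hR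
  have hp2 : 2 ≤ p := (Fact.out : p.Prime).two_le
  have hr' : m 8 0 = r := hr
  have hc' : m 8 1 = c0 := hc
  have hR' : m 30 1 < p ∧ (m 30 1 : ZMod p) = N r c0 := by
    have := hR 0 (by simp) 1 (by simp)
    simpa [wm] using this
  have h4 : 4 ≤ V := by
    have h1 : 4 ≤ b.rk := by nlinarith [hb.k4, hb.kk]
    have h2 : b.rk ^ 1 ≤ b.rk ^ J := Nat.pow_le_pow_right (by omega) (by omega)
    rw [pow_one] at h2
    omega
  obtain ⟨a1, a2⟩ := al_ok hT hD hR'.1 hR'.2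
  obtain ⟨w1, w2⟩ := wy_ok hT hD hR'.1 hR'.2
  have hh := ht_iff (ad := ad) hD hR'.1 hR'.2
  rw [hr', hc'] at a2 w2 hh
  have htb : ∀ j, tb m j < p := by
    intro j
    unfold tb
    rw [hT.hp]
    split_ifs
    exacts [a1, Nat.mod_lt _ (by omega), w1, by omega]
  have key := hc1 V 0 e m (tb m) h4 (fun j _ => (htb j).le.trans hp)
    (fun j _ m' hm' => ⟨rfl, by show tb m' j = tb m j; rw [tb_same hm'.1]⟩)
  have hcost : 1 + 2 * 4 + (1 + (1 + 1)) ≤ 12 * (J + 1) * (b.k ^ g) ^ 2 * (b.rk ^ g) ^ 0 := by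
    have h1 : 1 ≤ (b.k ^ g) ^ 2 := Nat.one_le_pow _ _ (pow_pos (by have := hb.k4; omega) _)
    rw [pow_zero, mul_one]
    nlinarith
  have hrn : rn n ad x (N, m 3) (ord (b.k ^ g) 0 r c0) = stp n ad x (N, m 3) (r, c0) := rfl
  have hX : ∀ m' : Mem, (∀ j < 4, m' 31 (0 + j) = tb m j) → ∃ X,
      Rep p m' (31 + 3 * 0) (2 * (b.k ^ g) ^ 0) X ∧
        (rn n ad x (N, m 3) (ord (b.k ^ g) 0 r c0)).1 =
          kupd N (wm ((b.k ^ g) ^ 0) r c0) (2 * (b.k ^ g) ^ 0) X := by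
    intro m' hm'
    refine ⟨_, ?_, by rw [hrn, pow_zero, mul_one]; exact upd_eq _ _ _ _ _⟩
    intro i hi j hj
    rw [pow_zero, mul_one] at hi hj ⊢
    have e1 := hm' (i * 2 + j) (by omega)
    rw [zero_add] at e1
    show m' 31 (i * 2 + j) < p ∧ (m' 31 (i * 2 + j) : ZMod p) = _
    rw [e1]
    refine ⟨htb _, ?_⟩
    unfold tb
    rw [hT.hp]
    interval_cases i <;> interval_cases j
    · simpa using a2
    · simp only [zero_mul, zero_add, one_ne_zero, if_false, if_true]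
      rw [ZMod.natCast_mod, Nat.cast_sub w1.le, ZMod.natCast_self, zero_sub, w2]
    · simpa using w2
    · simp
  refine Tri.mono (Tri.seq (key.mono le_rfl fun m1 hm1 => ?_)) hcost fun _ h => h
  have s1 := hm1.1
  by_cases hit : ht m
  · have hH := hh.1 hit
    obtain ⟨q1, q2, q3, -⟩ := id hH
    have e6 : m1 6 0 = n := by rw [s1 6 (by simp), hD.hn]
    have e0 : m1 8 0 = r := by rw [s1 8 (by simp), hr']
    have e1 : m1 8 1 = c0 := by rw [s1 8 (by simp), hc']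
    refine Tri.when_pos ((htt e m1).2 ((ht_same s1).2 hit)) (Tri.seq ?_)
    refine (hc2 V 0 e m1 (by rw [e6, e1]; omega) (by omega)).mono le_rfl fun m2 hm2 => ?_
    rw [e6, e0, e1] at hm2
    have s2 : Same [3] m1 m2 := hm2 ▸ Same.write _ _ _ _
    have f6 : m2 6 0 = n := by rw [s2 6 (by simp), e6]
    have f0 : m2 8 0 = r := by rw [s2 8 (by simp), e0]
    have f1 : m2 8 1 = c0 := by rw [s2 8 (by simp), e1]
    refine (hc3 V 0 e m2 (by rw [f6, f0]; omega) (by omega)).mono le_rfl fun m3 hm3 => ?_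
    rw [f6, f0, f1] at hm3
    have s3 : Same [3] m2 m3 := hm3 ▸ Same.write _ _ _ _
    refine ⟨⟨fun a h3 _ _ h => ?_, fun i _ => ?_⟩, ?_, hX m3 fun j hj => ?_⟩
    · rw [s3 a (by simpa using h3), s2 a (by simpa using h3), s1 a (by simp; omega)]
    · rw [s3 8 (by simp), s2 8 (by simp), s1 8 (by simp)]
    · rw [hrn, hm3, write_upd, hm2, write_upd, s1 3 (by simp)]
      simp only [stp]
      rw [if_pos hH]
    · rw [s3 31 (by simp), s2 31 (by simp)]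
      exact hm1.2.1 j hj
  · refine (Tri.when_neg (by_contra fun h => hit ((ht_same s1).1 ((htt e m1).1 h))) ?_).mono
      (by omega) fun _ h => h
    refine ⟨⟨fun a _ _ _ h => ?_, fun i _ => ?_⟩, ?_, hX m1 hm1.2.1⟩
    · rw [s1 a (by simp; omega)]
    · rw [s1 8 (by simp)]
    · rw [hrn, s1 3 (by simp)]
      simp only [stp]
      rw [if_neg fun h => hit (hh.2 h)]

end Vale.Agent.P305
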