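import Vale.Agent.P305.Spec

open Finset

namespace Vale.Agent.P305

open Vale.Agent.P315

namespace MMProgAux

theorem bds {b : Bil} (hb : b.Ok) {j J V : ℕ} (hj : j ≤ J) (hV : b.rk ^ J ≤ V) :
    (b.k * b.k) ^ j ≤ b.rk ^ j ∧ b.rk ^ j ≤ V ∧ j ≤ V ∧ 1 ≤ b.rk ^ j ∧
      (b.k * b.k) ^ j ≤ (b.k * b.k) ^ J ∧ b.k ^ j ≤ b.k ^ J := by
  have h1 := hb.k4
  have h2 := hb.kk
  have h3 : 16 ≤ b.k * b.k := Nat.mul_le_mul h1 h1
  have h4 : b.rk ^ j ≤ V := (Nat.pow_le_pow_right (by omega) hj).trans hV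
  exact ⟨Nat.pow_le_pow_left h2 j, h4, (Nat.lt_pow_self (by omega)).le.trans h4,
    Nat.one_le_pow _ _ (by omega), Nat.pow_le_pow_right (by omega) hj,
    Nat.pow_le_pow_right (by omega) hj⟩

theorem ld (h1 : ZS) (h4 : YProg) (b : Bil) (hb : b.Ok) (src dst : ℕ) (hd : 20 ≤ dst)
    (hsd : src ≠ dst) (co : ℕ → ℕ → ℤ) : ∃ (c : Cmd) (C : ℕ), ∀ (V : ℕ) (e : Env) (m : Mem) (p : ℕ)
    [Fact p.Prime] (J j : ℕ) (A : Mx (ZMod p)), Tab b.k b.rk p J m → j ≤ J → m 7 0 = j →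
    m 7 1 = 1 → p ≤ V → b.rk ^ J ≤ V → Rep p m src (b.k ^ j) A →
    Tri V 0 c e m (C * ((j + 1) * b.rk ^ j)) fun m' => Same [dst] m m' ∧ ∀ s < b.rk ^ j,
      (m' dst (j * b.rk ^ j + s) : ZMod p) = yat (b.k * b.k) b.rk (fun s τ => (co s τ : ZMod p)) j
        (fun y => A (row b.k y) (col b.k y)) s := by
  have k4 := hb.k4
  have kk := hb.kk
  have k16 : 16 ≤ b.k * b.k := Nat.mul_le_mul k4 k4
  obtain ⟨c1, hc1⟩ := fill dst (by omega) (Cx.get 10 (Cx.cell 7 0)) (Cx.const 0)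
    (Cx.get src (((Cx.get 12 (Cx.var 0)).mul (Cx.get 9 (Cx.cell 7 0))).add (Cx.get 13 (Cx.var 0))))
  obtain ⟨c2, C, hc2⟩ := h4 dst 10 11 (b.k * b.k) b.rk b.rk co hd (by omega) (by omega) (by omega)
    kk (by omega) le_rfl
  refine ⟨.seq c1 c2, 3 + C, fun V e m p _ J j A hT hj h70 h71 hp hV hA => ?_⟩
  obtain ⟨b1, b2, b3, b4, b5, -⟩ := bds hb hj hV
  have e1 : m 10 (m 7 0) = (b.k * b.k) ^ j := by rw [h70, hT.pK j hj]
  have hz := (h1 b.k (by omega) j).1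
  have key := hc1 V 0 e m (fun z => m src (row b.k z * b.k ^ j + col b.k z))
    (by rw [e1]; omega) (fun z hz' => by
      rw [e1] at hz'
      exact (hA _ (hz z hz').1 _ (hz z hz').2.1).1.le.trans hp) (fun z hz' m' hm' => by
      rw [e1] at hz'
      have s : ∀ a, a ≠ dst → m' a = m a := fun a ha => hm'.1 a (by simpa using ha)
      refine ⟨rfl, ?_⟩
      show m' src (m' 12 z * m' 9 (m' 7 0) + m' 13 z) = _
      rw [s src hsd, s 12 (by omega), s 9 (by omega), s 7 (by omega), s 13 (by omega), h70,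
        hT.row z (by omega), hT.col z (by omega), hT.pk j hj])
  rw [e1] at key
  refine (Tri.seq (n₂ := C * (j + 1) * b.rk ^ j) (key.mono le_rfl fun m1 hm1 => ?_)).mono ?_
    fun _ h => h
  · have s : ∀ a, a ≠ dst → m1 a = m a := fun a ha => hm1.1 a (by simpa using ha)
    have hT1 : Tab b.k b.rk p J m1 := hT.same fun a ha => s a (by omega)
    refine (hc2 V e m1 p j (fun y => A (row b.k y) (col b.k y)) hT1.hp (by rw [s 7 (by omega), h70])
      (fun i hi => ⟨hT1.pK i (by omega), hT1.pr i (by omega)⟩) (hT1.pr j hj) hp b2 b3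
      (fun z hz' => ?_)).mono le_rfl fun m2 hm2 => ⟨hm1.1.trans hm2.1, fun z hz' => ?_⟩
    · have := hm1.2.1 z hz'
      rw [zero_add] at this
      rw [this]
      exact (hA _ (hz z hz').1 _ (hz z hz').2.1).2
    · rw [hm2.2 z hz', s 7 (by omega), h71]
      simp only [Nat.cast_one, one_mul]
  · nlinarith [Nat.zero_le (j * b.rk ^ j)]

end MMProgAux

theorem p_mmProg (h1 : ZS) (h2 : YCongr) (h3 : YMath) (h4 : YProg) : MMProg := by
  intro b hb
  have k4 := hb.k4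
  have kk := hb.kk
  have k16 : 16 ≤ b.k * b.k := Nat.mul_le_mul k4 k4
  obtain ⟨c1, hc1⟩ := put 7 (Cx.const 1) (Cx.const 1)
  obtain ⟨c2, C2, hc2⟩ := MMProgAux.ld h1 h4 b hb 20 23 (by omega) (by omega) b.α
  obtain ⟨c3, C3, hc3⟩ := MMProgAux.ld h1 h4 b hb 21 24 (by omega) (by omega) b.β
  have hoff : Cx fun _ m => m 7 0 * m 11 (m 7 0) := (Cx.cell 7 0).mul (Cx.get 11 (Cx.cell 7 0))
  obtain ⟨c4, hc4⟩ := fill 25 (by omega) (Cx.get 11 (Cx.cell 7 0)) (Cx.const 0)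
    (((Cx.get 23 (hoff.add (Cx.var 0))).mul (Cx.get 24 (hoff.add (Cx.var 0)))).mod (Cx.cell 6 1))
  obtain ⟨c5, hc5⟩ := put 7 (Cx.const 1) (Cx.get 15 ((Cx.const b.D).mod (Cx.cell 6 1)))
  obtain ⟨c6, C6, hc6⟩ := h4 25 11 10 b.rk (b.k * b.k) b.rk b.γ (by omega) (by omega) (by omega)
    (by omega) le_rfl (by omega) kk
  obtain ⟨c7, hc7⟩ := fill2 22 (by omega) (Cx.get 9 (Cx.cell 7 0)) ((Cx.get 25 (hoff.add
    (((Cx.get 14 (Cx.var 0)).mul (Cx.const b.k)).add (Cx.get 14 (Cx.var 1))))).mod (Cx.cell 6 1))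
  refine ⟨.seq c1 (.seq c2 (.seq c3 (.seq c4 (.seq c5 (.seq c6 c7))))), C2 + C3 + C6 + 8,
    fun V e m p hP J j A B hT hD hj h70 hp hV hA hB => ?_⟩
  obtain ⟨b1, b2, b3, b4, b5, b6⟩ := MMProgAux.bds hb hj hV
  have p0 : 0 < p := hP.out.pos
  have hkk : b.k ^ j * b.k ^ j = (b.k * b.k) ^ j := (mul_pow _ _ _).symm
  refine Tri.mono (n := 1 + (C2 * ((j + 1) * b.rk ^ j) + (C3 * ((j + 1) * b.rk ^ j) +
    (1 + 2 * b.rk ^ j + (1 + (C6 * (j + 1) * b.rk ^ j + (1 + 2 * (b.k ^ j * b.k ^ j)))))))) ?_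
    (by nlinarith [Nat.zero_le (j * b.rk ^ j)]) fun _ h => h
  refine Tri.seq ((hc1 V 0 e m (by omega) (by omega)).mono le_rfl fun m1 hm1 => ?_)
  have s1 : ∀ a, a ≠ 7 → m1 a = m a := fun a ha => hm1 ▸ Same.write m 7 1 1 a (by simpa using ha)
  have a1 : m1 7 0 = j := by rw [hm1, write_ne _ _ (Or.inr (by omega)), h70]
  have a2 : m1 7 1 = 1 := by rw [hm1, write_same]
  have T1 : Tab b.k b.rk p J m1 := hT.same fun a ha => s1 a (by omega)
  refine Tri.seq ((hc2 V e m1 p J j A T1 hj a1 a2 hp hV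
    (by unfold Rep; rw [s1 20 (by omega)]; exact hA)).mono le_rfl fun m2 hm2 => ?_)
  have s2 : ∀ a, a ≠ 23 → m2 a = m1 a := fun a ha => hm2.1 a (by simpa using ha)
  have T2 : Tab b.k b.rk p J m2 := T1.same fun a ha => s2 a (by omega)
  refine Tri.seq ((hc3 V e m2 p J j B T2 hj (by rw [s2 7 (by omega), a1])
    (by rw [s2 7 (by omega), a2]) hp hV
    (by unfold Rep; rw [s2 21 (by omega), s1 21 (by omega)]; exact hB)).mono le_rfl
    fun m3 hm3 => ?_)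
  have s3 : ∀ a, a ≠ 24 → m3 a = m2 a := fun a ha => hm3.1 a (by simpa using ha)
  have T3 : Tab b.k b.rk p J m3 := T2.same fun a ha => s3 a (by omega)
  have a3 : m3 7 0 = j := by rw [s3 7 (by omega), s2 7 (by omega), a1]
  have e3 : m3 11 (m3 7 0) = b.rk ^ j := by rw [a3, T3.pr j hj]
  have key := hc4 V 0 e m3 (fun s => m3 23 (j * b.rk ^ j + s) * m3 24 (j * b.rk ^ j + s) % p)
    (by rw [e3]; exact b2) (fun z _ => (Nat.mod_lt _ p0).le.trans hp) (fun z _ m' hm' => by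
      have s : ∀ a, a ≠ 25 → m' a = m3 a := fun a ha => hm'.1 a (by simpa using ha)
      refine ⟨rfl, ?_⟩
      show m' 23 (m' 7 0 * m' 11 (m' 7 0) + z) * m' 24 (m' 7 0 * m' 11 (m' 7 0) + z) % m' 6 1 = _
      rw [s 23 (by omega), s 24 (by omega), s 7 (by omega), s 11 (by omega), s 6 (by omega), e3, a3,
        T3.hp])
  rw [e3] at key
  refine Tri.seq (key.mono le_rfl fun m4 hm4 => ?_)
  have s4 : ∀ a, a ≠ 25 → m4 a = m3 a := fun a ha => hm4.1 a (by simpa using ha)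
  have T4 : Tab b.k b.rk p J m4 := T3.same fun a ha => s4 a (by omega)
  have hi := T4.inv _ (Nat.mod_lt b.D p0)
  refine Tri.seq ((hc5 V 0 e m4 (by rw [T4.hp]; omega) (by omega)).mono le_rfl fun m5 hm5 => ?_)
  rw [T4.hp] at hm5
  have s5 : ∀ a, a ≠ 7 → m5 a = m4 a := fun a ha => hm5 ▸ Same.write m4 7 1 _ a (by simpa using ha)
  have a5 : m5 7 0 = j := by rw [hm5, write_ne _ _ (Or.inr (by omega)), s4 7 (by omega), a3]
  have a6 : (m5 7 1 : ZMod p) * b.D = 1 := by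
    rw [hm5, write_same, hi.2, ZMod.natCast_mod, inv_mul_cancel₀ hD]
  have T5 : Tab b.k b.rk p J m5 := T4.same fun a ha => s5 a (by omega)
  refine Tri.seq ((hc6 V e m5 p j (fun s => m5 25 s) T5.hp a5
    (fun i hi => ⟨T5.pr i (by omega), T5.pK i (by omega)⟩) (T5.pr j hj) hp b2 b3
    (fun _ _ => rfl)).mono le_rfl fun m6 hm6 => ?_)
  have s6 : ∀ a, a ≠ 25 → m6 a = m5 a := fun a ha => hm6.1 a (by simpa using ha)
  have T6 : Tab b.k b.rk p J m6 := T5.same fun a ha => s6 a (by omega)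
  have a7 : m6 7 0 = j := by rw [s6 7 (by omega), a5]
  refine (hc7 V 0 e m6 (b.k ^ j) (fun i l => m6 25 (j * b.rk ^ j + (zi b.k i * b.k + zi b.k l)) % p)
    (fun m' hm' => by
      show m' 9 (m' 7 0) = _
      rw [hm' 9 (by simp), hm' 7 (by simp), a7, T6.pk j hj]) (by omega)
    (fun _ _ _ _ => (Nat.mod_lt _ p0).le.trans hp) (fun i hi l hl m' hm' _ => by
      show m' 25 (m' 7 0 * m' 11 (m' 7 0) + (m' 14 i * b.k + m' 14 l)) % m' 6 1 = _
      rw [hm' 25 (by simp), hm' 7 (by simp), hm' 11 (by simp), hm' 14 (by simp), hm' 6 (by simp), a7,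
        T6.pr j hj, T6.zi i (by omega), T6.zi l (by omega), T6.hp])).mono le_rfl
    fun m7 hm7 => ⟨fun a ha => ?_, by rw [hm7.1 7 (by simp), a7], fun i hi l hl => ?_⟩
  · simp only [List.mem_cons, List.not_mem_nil, or_false, not_or] at ha
    rw [hm7.1 a (by simpa using ha.2.1), s6 a (by omega), s5 a (by omega), s4 a (by omega),
      s3 a (by omega), s2 a (by omega), s1 a (by omega)]
  · obtain ⟨z1, z2, z3⟩ := (h1 b.k (by omega) j).2 i hi l hl
    rw [hm7.2 i hi l hl]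
    refine ⟨Nat.mod_lt _ p0, ?_⟩
    have := h3 b hb (ZMod p) _ a6 j A B _ z1
    rw [z2, z3] at this
    rw [ZMod.natCast_mod, hm6.2 _ z1]
    refine Eq.trans (h2 _ _ _ _ _ _ _ _ fun s hs => ?_) this
    have e4 := hm4.2.1 s hs
    rw [zero_add] at e4
    rw [s5 25 (by omega), e4, ZMod.natCast_mod, Nat.cast_mul, hm3.2 s hs, s3 23 (by omega),
      hm2.2 s hs]

end Vale.Agent.P305
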