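import Vale.Agent.P305.Spec

/-! Assembly of the program. -/

open Finset
open scoped BigOperators

namespace Vale.Agent.P305

open Vale.Agent.P315

namespace MainAux

theorem tri_w {c : Cmd} {P : Stmt} {deg w V t : ℕ} {g : ℕ → ℕ} {m : Mem} {Q : Mem → Prop}
    (h : ∀ (w V S : ℕ) (g : ℕ → ℕ) (m : Mem), 2 ≤ V → S ≤ V → V ^ deg < 2 ^ w → Bd V S m →
      c.safe V S (fun _ => 0) m → D w P (c.ticks (fun _ => 0) m * deg * (S + 1) ^ deg) (g, m)
        fun s => s.2 = c.exec (fun _ => 0) m)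
    (h1 : 2 ≤ V) (h3 : V ^ deg < 2 ^ w) (hb : Bd V 0 m)
    (ht : Tri V 0 c (fun _ => 0) m t Q) {R : St → ℝ → Prop} {x : ℝ}
    (hR : ∀ g' m', Q m' → Bd V 0 m' → R (g', m') x) : W w P (t * deg) R (g, m) x := by
  have h5 := h w V 0 g m h1 (Nat.zero_le _) h3 hb ht.1
  rw [zero_add, one_pow, mul_one] at h5
  exact (h5.time (Nat.mul_le_mul_right _ ht.2.1)).toW fun s hs =>
    hR s.1 s.2 (hs ▸ ht.2.2) (hs ▸ hb.exec ht.1)

open Classical in
theorem count {w T : ℕ} {P : Stmt} {x y : List ℕ} (good : Mem → Prop)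
    (h : W w P T (fun s v => ind (¬good s.2) ≤ v) (fun _ => 0, input x y) (1 / 3)) :
    (∀ ω : Fin T → Bool, (run w P x y ω).1 = []) ∧
      (2 / 3 : ℝ) * 2 ^ T ≤ (Set.ncard {ω : Fin T → Bool | good (run w P x y ω).2.2} : ℝ) := by
  have h' : Ok w (fun s v => (if good s.2 then (0 : ℝ) else 1) ≤ v) T
      ([P], fun _ => 0, input x y) (1 / 3) := by
    refine Ok.mono h fun s v hv => ⟨v, le_rfl, le_trans (le_of_eq ?_) hv⟩
    by_cases hg : good s.2
    · rw [if_pos hg, ind_neg (not_not.2 hg)]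
    · rw [if_neg hg, ind_pos hg]
  obtain ⟨h1, h2⟩ := adequate (good := fun s => good s.2) h'
  refine ⟨h1, ?_⟩
  have e : ((univ.filter fun ω : Fin T → Bool => good (run w P x y ω).2.2).card : ℝ) +
      ∑ ω : Fin T → Bool, (if good (run w P x y ω).2.2 then (0 : ℝ) else 1) = 2 ^ T := by
    rw [← sum_boole, ← sum_add_distrib]
    rw [sum_congr rfl (g := fun _ => (1 : ℝ)) fun ω _ => by split_ifs <;> norm_num]
    simp
  have e2 : {ω : Fin T → Bool | good (run w P x y ω).2.2} =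
      ↑(univ.filter fun ω : Fin T → Bool => good (run w P x y ω).2.2) := by
    ext ω
    simp
  rw [e2, Set.ncard_coe_finset]
  have h3 : ∑ ω : Fin T → Bool, (if good (run w P x y ω).2.2 then (0 : ℝ) else 1) ≤
      1 / 3 * 2 ^ T := h2
  linarith

theorem getD_le {V : ℕ} (l : List ℕ) (hl : ∀ a ∈ l, a ≤ V) (i : ℕ) : l.getD i 0 ≤ V := by
  rw [List.getD_eq_getElem?_getD]
  cases h : l[i]? with
  | none => exact Nat.zero_le _
  | some a => exact hl a (List.mem_of_getElem? h)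

theorem len_le {n : ℕ} {l : List ℕ} (h1 : l.Nodup) (h2 : ∀ v ∈ l, v < n) : l.length ≤ n := by
  have := List.toFinset_card_of_nodup h1
  have h3 : l.toFinset ⊆ range n := fun v hv => mem_range.2 (h2 v (List.mem_toFinset.1 hv))
  have := card_le_card h3
  rw [card_range] at this
  omega

theorem bd_in {V n : ℕ} {adj : List (List ℕ)} (h1 : adj.length = n)
    (h2 : ∀ l ∈ adj, l.Nodup ∧ ∀ v ∈ l, v < n) (hV : n * n ≤ V) (hn : n ≤ V) :
    Bd V 0 (input (adj.map List.length) adj.flatten) := by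
  have hl : ∀ a ∈ adj.map List.length, a ≤ n := fun a ha => by
    obtain ⟨l, hl, rfl⟩ := List.mem_map.1 ha
    exact len_le (h2 l hl).1 (h2 l hl).2
  refine ⟨fun a i => ?_, fun k => by simp [input]⟩
  unfold input
  split_ifs
  · refine getD_le _ (fun a ha => ?_) i
    simp only [List.mem_cons, List.not_mem_nil, or_false] at ha
    rcases ha with rfl | rfl
    · rw [List.length_map, h1]
      exact hn
    · rw [List.length_flatten]
      refine le_trans (List.sum_le_card_nsmul _ n hl) ?_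
      rw [List.length_map, h1]
      exact hV
  · exact getD_le _ (fun a ha => (hl a ha).trans hn) i
  · refine getD_le _ (fun a ha => ?_) i
    obtain ⟨l, hl, ha⟩ := List.mem_flatten.1 ha
    exact ((h2 l hl).2 a ha).le.trans hn
  · exact Nat.zero_le _

theorem lists_ok {n : ℕ} {G : SimpleGraph (Fin n)} {adj : List (List ℕ)} (h : Lists G adj) :
    ∀ l ∈ adj, l.Nodup ∧ ∀ v ∈ l, v < n := by
  intro l hl
  obtain ⟨i, hi, rfl⟩ := List.getElem_of_mem hl
  have hi' : i < n := h.1 ▸ hi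
  have e : adj.getD i [] = adj[i] := by
    rw [List.getD_eq_getElem?_getD, List.getElem?_eq_getElem hi]
    rfl
  have h2 := h.2 ⟨i, hi'⟩
  rw [e] at h2
  exact ⟨h2.1, fun v hv => ((h2.2 v).1 hv).1⟩

theorem word {C e : ℝ} (d : ℕ) : ∃ c : ℕ, ∀ V n w : ℕ, (V : ℝ) ≤ C * ((n : ℝ) + 2) ^ e →
    c * (Nat.log 2 (n + 2) + 1) ≤ w → 1 ≤ V → (∀ d' ≤ d, V ^ d' < 2 ^ w) ∧ 5 ≤ w := by
  obtain ⟨c1, hc1⟩ := exists_nat_ge C
  obtain ⟨s, hs⟩ := exists_nat_ge e
  refine ⟨(c1 + s) * d + 5, fun V n w hV hw h1 => ?_⟩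
  have hnK : n + 2 < 2 ^ (Nat.log 2 (n + 2) + 1) := Nat.lt_pow_succ_log_self (by omega) _
  generalize Nat.log 2 (n + 2) = K at *
  have h2 : V ≤ c1 * (n + 2) ^ s := by
    have a1 : ((n : ℝ) + 2) ^ e ≤ ((n : ℝ) + 2) ^ (s : ℝ) :=
      Real.rpow_le_rpow_of_exponent_le (by linarith [Nat.cast_nonneg (α := ℝ) n]) hs
    rw [Real.rpow_natCast] at a1
    have a2 : (0 : ℝ) ≤ ((n : ℝ) + 2) ^ e := by positivity
    have a3 : (V : ℝ) ≤ c1 * ((n : ℝ) + 2) ^ s :=
      hV.trans ((mul_le_mul_of_nonneg_right hc1 a2).trans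
        (mul_le_mul_of_nonneg_left a1 (Nat.cast_nonneg _)))
    exact_mod_cast a3
  have h3 : V ≤ 2 ^ ((c1 + s) * (K + 1)) := by
    refine h2.trans (le_trans (Nat.mul_le_mul Nat.lt_two_pow_self.le
      (Nat.pow_le_pow_left hnK.le s)) ?_)
    rw [← pow_mul, ← pow_add]
    exact Nat.pow_le_pow_right (by omega) (by nlinarith)
  refine ⟨fun d' hd => ?_,
    le_trans (le_trans (by omega) (Nat.le_mul_of_pos_right _ (by omega))) hw⟩
  refine lt_of_le_of_lt ((Nat.pow_le_pow_right h1 hd).trans (Nat.pow_le_pow_left h3 d)) ?_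
  rw [← pow_mul]
  exact Nat.pow_lt_pow_right (by omega) (by nlinarith)

end MainAux

open MainAux

theorem p_main (hB : BilS) (hM : MMProg) (hU : UpdProg) (hL : LeafProg) (hS : StepProg)
    (hR : RootProg) (hP : PreProg) (hT : TimeS) (hZ : SZ2) (hC : Correct) : MainS := by
  intro ε hε
  obtain ⟨b, hb, hrk⟩ := hB (ε / 2) (by linarith)
  obtain ⟨L, hL1, C0, hC0⟩ := hT ε hε b.k b.rk b.D hb.k4 hrk
  obtain ⟨cM, CM, hcM⟩ := hM b hb
  have hN : ∀ d, ∃ c C, NodeSpec b d c C := by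
    intro d
    induction d with
    | zero => exact hL b hb
    | succ d ih =>
      obtain ⟨c, C, h⟩ := ih
      obtain ⟨cU, CU, h'⟩ := hU b hb cM CM hcM d
      exact hS b hb d cU CU c C h' h
  obtain ⟨cN, CN, hcN⟩ := hN L
  obtain ⟨cR, CR, hcR⟩ := hR b hb L cN CN hcN
  obtain ⟨cP, CP, hcP⟩ := hP b.k b.rk b.D L hb.k4 hb.kk hL1
  obtain ⟨PA, dA, hPA⟩ := compile cP
  obtain ⟨PB, dB, hPB⟩ := compile cR
  obtain ⟨c, hc⟩ := word (C := C0) (e := 9 / 4 + ε) (dA + dB + 1)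
  refine ⟨.seq PA (.seq (genAll 17 3 4) PB), c, (CP * dA + CR * dB + 15 : ℕ) * C0,
    fun n w G adj hG hw => ?_⟩
  set V := tt b.k b.rk b.D L n with hVdef
  set g := gg b.k L n with hg
  set l := lb b.D n with hl
  have hl1 : 12 * (n * n) + b.D + 2 ≤ 2 ^ l := Nat.le_pow_clog (by omega) _
  have hk1 : 1 ≤ b.k ^ g := Nat.one_le_pow _ _ (by have := hb.k4; omega)
  have hV1 : (g * L + 2) * (b.k ^ g) ^ 2 * b.rk ^ (g * L + 1) + (l + 2) * (4 * 2 ^ l) = V := rfl
  have hV2 : (l + 2) * (4 * 2 ^ l) ≤ V := by omega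
  have hV3 : 8 * 2 ^ l ≤ V := by nlinarith [Nat.zero_le (l * 2 ^ l)]
  have hV4 : b.rk ^ (g * L + 1) ≤ V := by
    have h1 : 1 ≤ (g * L + 2) * (b.k ^ g) ^ 2 :=
      Nat.mul_pos (by omega) (Nat.pow_pos hk1)
    have := Nat.mul_le_mul_right (b.rk ^ (g * L + 1)) h1
    omega
  have hnn : n ≤ n * n := Nat.le_mul_self n
  obtain ⟨hVw, hw5⟩ := hc V n w (hC0 n) hw (by omega)
  have hVw1 : V < 2 ^ w := by simpa using hVw 1 (by omega)
  have hw32 : 2 ^ 5 ≤ 2 ^ w := Nat.pow_le_pow_right (by omega) hw5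
  refine ⟨(CP * dA + CR * dB + 15) * V, ?_, count (fun m => MaxMatching G (m 3)) ?_⟩
  · rw [Nat.cast_mul, mul_assoc]
    exact mul_le_mul_of_nonneg_left (hC0 n) (Nat.cast_nonneg _)
  have hok := lists_ok hG
  have had : ∀ u v : Fin n, (decide ((v : ℕ) ∈ adj.getD u [])) = true ↔ G.Adj u v := fun u v => by
    rw [decide_eq_true_eq, (hG.2 u).2 v]
    exact ⟨fun h => h.2, fun h => ⟨v.2, h⟩⟩
  refine (W.seq (t₂ := 13 * (n * n + 1) * (l + 1) +
      CR * ((g * L + 2) * (b.k ^ g) ^ 2 * b.rk ^ (g * L + 1)) * dB + 1)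
    (tri_w hPA (by omega) (hVw _ (by omega)) (bd_in hG.1 hok (by omega) (by omega))
      (hcP V n adj hG.1 hok le_rfl) fun g1 m hm hbd => ?_)).time ?_
  · obtain ⟨p, hp, hp1, hp2, htab, m0, m2, m3, m4, m5, madj, mz⟩ := hm
    haveI := Fact.mk hp
    rw [← hl] at hp1 hp2 m4
    rw [← hg] at htab m2 m5
    have hD : (b.D : ZMod p) ≠ 0 := by
      rw [Ne, ZMod.natCast_eq_zero_iff]
      exact Nat.not_dvd_of_pos_of_lt hb.D0 (by omega)
    have h2 : (2 : ZMod p) ≠ 0 := by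
      have : ((2 : ℕ) : ZMod p) ≠ 0 := by
        rw [Ne, ZMod.natCast_eq_zero_iff]
        exact Nat.not_dvd_of_pos_of_lt (by omega) (by have := hb.D0; omega)
      exact_mod_cast this
    refine W.seq ((gen_flat 17 3 4 w (n * n) l g1 m _
      (fun η => ind (¬Good n (fun i j => decide (j ∈ adj.getD i []))
        fun z => ((bv η z : ℕ) : ZMod p))) m3 m4 (by omega) (by omega) (by omega) (by omega)
      (by omega) fun η g2 => ?_).up (hZ p n l _ (by omega) hp1.le))
    have e : ∀ a, a ≠ 17 → genMem m 17 (n * n) η a = m a := fun a ha => by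
      funext i
      simp [genMem, ha]
    have hbv : ∀ z, bv η z < 2 ^ l := fun z => by
      unfold bv
      split_ifs
      · exact (η _).2
      · exact Nat.two_pow_pos _
    have hbd' : Bd V 0 (genMem m 17 (n * n) η) := by
      refine ⟨fun a i => ?_, fun k => by rw [e 5 (by omega)]; exact hbd.2 k⟩
      unfold genMem
      split_ifs
      · have := hbv i
        omega
      · exact hbd.1 _ _
    have hdat : Dat b.k p n g (fun i j => decide (j ∈ adj.getD i []))
        (fun z => ((bv η z : ℕ) : ZMod p)) (genMem m 17 (n * n) η) := by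
      refine ⟨by rw [e 6 (by omega), m0], by rw [e 6 (by omega), m2], by rw [e 6 (by omega), m5],
        fun i hi j hj => ?_, fun z hz => ?_⟩
      · rw [e 16 (by omega), decide_eq_true_eq]
        exact madj i hi j hj
      · have e1 : genMem m 17 (n * n) η 17 z = bv η z := by simp [genMem, hz]
        rw [e1]
        exact ⟨(hbv z).trans hp1, rfl⟩
    refine tri_w hPB (by omega) (hVw _ (by omega)) hbd'
      (hcR V _ _ p n g _ _ (htab.same fun a ha => e a (by omega)) hdat hD (by omega) hV4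
        (by omega)) fun g3 m' hm' _ => ?_
    refine ind_mono fun hbad hgood => hbad ?_
    show MaxMatching G (m' 3)
    rw [hm', e 3 (by omega), mz]
    refine hC (ZMod p) h2 n G _ had _ _ L hk1 ?_ hgood
    rw [← pow_mul, mul_comm g L, pow_mul]
    exact Nat.le_pow_clog (Nat.one_lt_pow (by omega) (by have := hb.k4; omega)) _
  · have a1 : 13 * (n * n + 1) * (l + 1) ≤ 13 * V := by
      have : (n * n + 1) * (l + 1) ≤ (l + 2) * (4 * 2 ^ l) := by
        rw [mul_comm]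
        exact Nat.mul_le_mul (by omega) (by omega)
      rw [mul_assoc]
      omega
    have a2 : CR * ((g * L + 2) * (b.k ^ g) ^ 2 * b.rk ^ (g * L + 1)) * dB ≤ CR * V * dB :=
      Nat.mul_le_mul_right _ (Nat.mul_le_mul_left _ (by omega))
    have a3 : (CP * dA + CR * dB + 15) * V = CP * V * dA + CR * V * dB + 15 * V := by ring
    rw [← hVdef]
    omega

end Vale.Agent.P305
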