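import Vale.Agent.P305.Spec

open Finset

namespace Vale.Agent.P305

open Vale.Agent.P315

namespace MaxBAux

variable {K : Type} [Field K] {T N : Mx K} {B : Finset ℕ}

/-- The Schur complement. -/
def sc (B : Finset ℕ) (T N : Mx K) : Mx K := fun u v =>
  T u v - ∑ a ∈ B, T u a * ∑ b ∈ B, N a b * T b v

theorem sc_left (h : GInv B T N) {i : ℕ} (hi : i ∈ B) (v : ℕ) : sc B T N i v = 0 := by
  have e : ∑ a ∈ B, T i a * ∑ b ∈ B, N a b * T b v = ∑ b ∈ B, (∑ a ∈ B, T i a * N a b) * T b v := by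
    simp only [mul_sum, sum_mul, mul_assoc]
    exact sum_comm
  rw [sc, e, sum_congr rfl fun b hb => by rw [h.2 i hi b hb]]
  simp [hi]

theorem sc_skew (hT : ∀ i j, T i j = -T j i) (hN : ∀ i j, N i j = -N j i) (u v : ℕ) :
    sc B T N u v = -sc B T N v u := by
  have e : ∑ a ∈ B, T u a * ∑ b ∈ B, N a b * T b v =
      -∑ a ∈ B, T v a * ∑ b ∈ B, N a b * T b u := by
    simp only [mul_sum, ← sum_neg_distrib]
    rw [sum_comm]
    refine sum_congr rfl fun a _ => sum_congr rfl fun b _ => ?_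
    rw [hT u b, hN b a, hT a v]
    ring
  rw [sc, sc, e, hT u v]
  ring

theorem sc_sum (S : Finset ℕ) (w : ℕ → K) (h : ∀ b ∈ B, ∑ l ∈ S, T b l * w l = 0) (i : ℕ) :
    ∑ l ∈ S, sc B T N i l * w l = ∑ l ∈ S, T i l * w l := by
  have e : ∑ l ∈ S, (∑ a ∈ B, T i a * ∑ b ∈ B, N a b * T b l) * w l =
      ∑ a ∈ B, T i a * ∑ b ∈ B, N a b * ∑ l ∈ S, T b l * w l := by
    simp only [mul_sum, sum_mul, mul_assoc]
    rw [sum_comm]
    exact sum_congr rfl fun a _ => sum_comm
  simp only [sc, sub_mul, sum_sub_distrib]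
  rw [e, sum_eq_zero (s := B) fun a _ => by
    rw [sum_eq_zero fun b hb => by rw [h b hb, mul_zero], mul_zero], sub_zero]

theorem ns_two (h2 : (2 : K) ≠ 0) (hT : ∀ i j, T i j = -T j i) (hN : ∀ i j, N i j = -N j i)
    (h : GInv B T N) {u v : ℕ} (hc : sc B T N u v ≠ 0) :
    u ∉ B ∧ NS (insert u (insert v B)) T := by
  have hs := sc_skew (B := B) hT hN
  have hd : ∀ i, sc B T N i i = 0 := fun i =>
    (mul_eq_zero.1 (show 2 * sc B T N i i = 0 by linear_combination hs i i)).resolve_left h2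
  have hr : ∀ i, ∀ l ∈ B, sc B T N i l = 0 := fun i l hl => by rw [hs, sc_left h hl, neg_zero]
  have hu : u ∉ B := fun hu => hc (sc_left h hu v)
  have hv : v ∉ B := fun hv => hc (hr u v hv)
  have huv : u ≠ v := fun e => hc (e ▸ hd u)
  have hu' : u ∉ insert v B := by simp [huv, hu]
  refine ⟨hu, (ns_iff _ _).2 fun w hw => ?_⟩
  have key : ∀ i ∈ insert u (insert v B), sc B T N i u * w u + sc B T N i v * w v = 0 := by
    intro i hi
    have := (sc_sum (N := N) _ w (fun b hb => hw b (mem_insert_of_mem (mem_insert_of_mem hb)))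
      i).trans (hw i hi)
    rwa [sum_insert hu', sum_insert hv, sum_eq_zero fun l hl => by rw [hr i l hl, zero_mul],
      add_zero] at this
  have h1 := key u (mem_insert_self _ _)
  have h3 := key v (mem_insert_of_mem (mem_insert_self _ _))
  rw [hd, zero_mul, zero_add] at h1
  rw [hd, zero_mul, add_zero, hs] at h3
  have wv := (mul_eq_zero.1 h1).resolve_left hc
  have wu := (mul_eq_zero.1 h3).resolve_left (neg_ne_zero.2 hc)
  have wB := (ns_iff B T).1 h.ns w fun i hi => by
    have := hw i (mem_insert_of_mem (mem_insert_of_mem hi))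
    rwa [sum_insert hu', sum_insert hv, wu, wv, mul_zero, mul_zero, zero_add, zero_add] at this
  intro l hl
  rcases mem_insert.1 hl with rfl | hl
  · exact wu
  rcases mem_insert.1 hl with rfl | hl
  · exact wv
  · exact wB l hl

theorem card_le {B0 : Finset ℕ} (h0 : NS B0 T) (hc : ∀ u ∈ B0, ∀ v ∈ B0, sc B T N u v = 0) :
    B0.card ≤ B.card := by
  have inj : Function.Injective (Matrix.of fun (b : B) (l : B0) => T b l).mulVecLin := by
    rw [← LinearMap.ker_eq_bot, LinearMap.ker_eq_bot']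
    intro w hw
    funext l
    have := (ns_iff B0 T).1 h0 (fun i => if hi : i ∈ B0 then w ⟨i, hi⟩ else 0) (fun i hi => by
      rw [← sc_sum (B := B) (N := N) B0 _ (fun b hb => ?_) i]
      · exact sum_eq_zero fun l hl => by rw [hc i hi l hl, zero_mul]
      · rw [← Finset.sum_coe_sort B0]
        refine Eq.trans (sum_congr rfl fun l _ => ?_) (congrFun hw ⟨b, hb⟩)
        simp [l.2]) l l.2
    simpa [l.2] using this
  simpa using LinearMap.finrank_le_finrank_of_injective inj

end MaxBAux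

open MaxBAux in
theorem p_maxB (h1 : GSkew) : MaxB := by
  intro K _ h2 T U B B0 hT hB hB0 nB nB0 hmax
  obtain ⟨N, hN⟩ := nB.ginv
  refine card_le (N := N) nB0 fun u hu v hv => ?_
  by_contra hc
  obtain ⟨h3, h4⟩ := ns_two h2 hT (h1 K B T N hN fun i _ j _ => hT i j) hN hc
  have := hmax _ ((subset_insert _ _).trans (subset_insert _ _))
    (insert_subset (hB0 hu) (insert_subset (hB0 hv) hB)) h4
  exact h3 (this ▸ mem_insert_self _ _)

end Vale.Agent.P305
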