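import Vale.Agent.P305.Spec

open Finset

namespace Vale.Agent.P305

open Vale.Agent.P315

namespace OrdAux

theorem mem_ord {q : ℕ} (hq : 1 ≤ q) (d : ℕ) : ∀ (r c : ℕ) (z : ℕ × ℕ),
    z ∈ ord q d r c ↔ z.1 / q ^ d = r ∧ z.2 / q ^ d = c := by
  induction d with
  | zero =>
    intro r c z
    simp [ord, Prod.ext_iff]
  | succ d ih =>
    intro r c z
    simp only [ord, List.mem_flatMap, List.mem_range, ih, pow_succ, ← Nat.div_div_eq_div_mul]
    generalize z.1 / q ^ d = a
    generalize z.2 / q ^ d = b
    constructor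
    · rintro ⟨j, hj, rfl, rfl⟩
      have h1 : j / q < q := Nat.div_lt_of_lt_mul hj
      have h2 : j % q < q := Nat.mod_lt _ hq
      rw [add_comm (r * q), add_comm (c * q), Nat.add_mul_div_right _ _ hq,
        Nat.add_mul_div_right _ _ hq, Nat.div_eq_of_lt h1, Nat.div_eq_of_lt h2]
      exact ⟨zero_add _, zero_add _⟩
    · rintro ⟨rfl, rfl⟩
      have h1 : a % q < q := Nat.mod_lt _ hq
      have h2 : b % q < q := Nat.mod_lt _ hq
      refine ⟨b % q + a % q * q, ?_, ?_, ?_⟩
      · have : (a % q + 1) * q ≤ q * q := Nat.mul_le_mul_right q h1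
        rw [add_mul, one_mul] at this
        omega
      · rw [Nat.add_mul_div_right _ _ hq, Nat.div_eq_of_lt h2, zero_add]
        exact (Nat.div_add_mod' a q).symm
      · rw [Nat.add_mul_mod_self_right, Nat.mod_mod]
        exact (Nat.div_add_mod' b q).symm

theorem pw_ord {q : ℕ} (hq : 1 ≤ q) (d : ℕ) : ∀ r c : ℕ,
    (ord q d r c).Pairwise fun x y => ¬(y.1 ≤ x.1 ∧ y.2 ≤ x.2) := by
  induction d with
  | zero =>
    intro r c
    simp [ord]
  | succ d ih =>
    intro r c
    rw [ord, List.pairwise_flatMap]
    refine ⟨fun j _ => ih _ _, List.pairwise_lt_range.imp ?_⟩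
    intro j j' hj x hx y hy h
    rw [mem_ord hq] at hx hy
    have h1 : y.1 / q ^ d ≤ x.1 / q ^ d := Nat.div_le_div_right h.1
    have h2 : y.2 / q ^ d ≤ x.2 / q ^ d := Nat.div_le_div_right h.2
    rw [hx.1, hy.1] at h1
    rw [hx.2, hy.2] at h2
    have h3 : j' / q * q ≤ j / q * q := Nat.mul_le_mul_right q (by omega)
    have h4 := Nat.div_add_mod' j q
    have h5 := Nat.div_add_mod' j' q
    omega

theorem split {α : Type} (p : α → Bool) : ∀ l : List α,
    (l.Pairwise fun x y => p y = true → p x = true) →
      l = l.filter p ++ l.filter fun x => !p x := by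
  intro l
  induction l with
  | nil => intro _; rfl
  | cons x t ih =>
    intro h
    rw [List.pairwise_cons] at h
    by_cases hx : p x = true
    · rw [List.filter_cons_of_pos hx, List.filter_cons_of_neg (by simp [hx]), List.cons_append,
        ← ih h.2]
    · have e1 : t.filter p = [] := List.filter_eq_nil_iff.2 fun y hy hp => hx (h.1 y hy hp)
      have e2 : (t.filter fun x => !p x) = t := List.filter_eq_self.2 fun y hy => by
        have : ¬p y = true := fun hp => hx (h.1 y hy hp)
        simpa using this
      rw [List.filter_cons_of_neg hx, List.filter_cons_of_pos (by simpa using hx), e1, e2,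
        List.nil_append]

end OrdAux

open OrdAux in
theorem p_ord : OrdS := by
  intro q d n hq hn
  have hF : ∀ z, z ∈ (ord q d 0 0).filter (fun z => decide (Act n z)) ↔ Act n z := by
    intro z
    rw [List.mem_filter, mem_ord hq, decide_eq_true_iff]
    refine ⟨fun h => h.2, fun h => ⟨⟨Nat.div_eq_of_lt ?_, Nat.div_eq_of_lt ?_⟩, h⟩⟩
    · unfold Act at h
      omega
    · unfold Act at h
      omega
  have hP := (pw_ord hq d 0 0).filter (fun z => decide (Act n z))
  generalize (ord q d 0 0).filter (fun z => decide (Act n z)) = F at hF hP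
  have hN : F.Nodup := hP.imp fun {x y} h e => h (by rw [e]; exact ⟨le_rfl, le_rfl⟩)
  refine ⟨F.filter fun z => !decide (z.1 < 2 * n), hN.filter _, fun z => ?_, ?_⟩
  · rw [List.mem_filter, hF]
    simp only [Bool.not_eq_true', decide_eq_false_iff_not]
    unfold Act
    omega
  · have hD : ∀ z, z ∈ F.filter (fun z => decide (z.1 < 2 * n)) ↔ z.1 = z.2 ∧ z.1 < 2 * n := by
      intro z
      rw [List.mem_filter, hF, decide_eq_true_iff]
      unfold Act
      omega
    have hE : ∀ z : ℕ × ℕ, z ∈ ((List.range (2 * n)).map fun u => (u, u)) ↔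
        z.1 = z.2 ∧ z.1 < 2 * n := by
      intro z
      simp only [List.mem_map, List.mem_range]
      constructor
      · rintro ⟨u, hu, rfl⟩
        exact ⟨rfl, hu⟩
      · rintro ⟨h1, h2⟩
        exact ⟨z.1, h2, Prod.ext rfl h1⟩
    have e : F.filter (fun z => decide (z.1 < 2 * n)) =
        (List.range (2 * n)).map fun u => (u, u) := by
      refine List.Perm.eq_of_pairwise (le := fun x y : ℕ × ℕ => x.1 ≤ y.1) ?_ ?_ ?_ ?_
      · intro a b ha hb h1 h2
        rw [hD] at ha
        rw [hE] at hb
        exact Prod.ext (by omega) (by omega)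
      · refine (hP.filter _).imp_of_mem ?_
        intro a b ha hb h
        rw [hD] at ha hb
        omega
      · rw [List.pairwise_map]
        exact List.pairwise_lt_range.imp fun h => h.le
      · refine (List.perm_ext_iff_of_nodup (hN.filter _) ?_).2 fun z => by rw [hD, hE]
        exact List.nodup_range.map fun u v h => congrArg Prod.fst h
    rw [← e]
    refine split _ F (hP.imp_of_mem ?_)
    intro a b ha hb h
    rw [hF] at ha hb
    unfold Act at ha hb
    simp only [decide_eq_true_iff]
    omega

end Vale.Agent.P305
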