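import Vale.Agent.P305.Spec

open Finset

namespace Vale.Agent.P305

open Vale.Agent.P315

namespace ParAAux

theorem loop (B k ig ia : ℕ) (hB : 2 ≤ B) (hk : k ≤ B) (hi : ig ≠ ia) {φ : ℕ → ℕ}
    (hf : Cx fun _ m => φ (m 0 0)) : ∃ c : Cmd, ∀ (V : ℕ) (e : Env) (m : Mem) (F : ℕ),
      φ (m 0 0) = F → B ^ Nat.clog B F ≤ V → Tri V 0 c e m (4 + 4 * F) fun m' =>
        Same [4, 6] m m' ∧ m' 6 ig = Nat.clog B F ∧ m' 6 ia = k ^ Nat.clog B F ∧
          ∀ i, i ≠ ig → i ≠ ia → m' 6 i = m 6 i := by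
  have hp : CxP fun _ m => m 4 0 < φ (m 0 0) := CxP.lt (Cx.cell 4 0) hf
  obtain ⟨t1, h1⟩ := Cx.ite hp ((Cx.cell 6 ig).add (Cx.const 1)) (Cx.cell 6 ig)
  obtain ⟨t2, h2⟩ := Cx.ite hp ((Cx.cell 6 ia).mul (Cx.const k)) (Cx.cell 6 ia)
  obtain ⟨t3, h3⟩ := Cx.ite hp ((Cx.cell 4 0).mul (Cx.const B)) (Cx.cell 4 0)
  obtain ⟨t0, h0⟩ := hf
  refine ⟨.seq (.wr 6 (.const ig) (.const 0)) (.seq (.wr 6 (.const ia) (.const 1))
    (.seq (.wr 4 (.const 0) (.const 1)) (.rep t0 (.seq (.wr 6 (.const ig) t1)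
      (.seq (.wr 6 (.const ia) t2) (.wr 4 (.const 0) t3)))))), fun V e m F hF hV => ?_⟩
  set G := Nat.clog B F with hG
  have v1 : ∀ j, B ^ min j G ≤ V := fun j =>
    (Nat.pow_le_pow_right (by omega) (min_le_right _ _)).trans hV
  have v2 : ∀ j, k ^ min j G ≤ V := fun j => (Nat.pow_le_pow_left hk _).trans (v1 j)
  have v3 : ∀ j, min j G ≤ V := fun j => (Nat.lt_pow_self (by omega)).le.trans (v1 j)
  have v4 : 1 ≤ V := by simpa using v1 0
  have vF : F ≤ V := (Nat.le_pow_clog hB F).trans hV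
  have GF : G ≤ F := (Nat.clog_le_iff_le_pow hB).2 (Nat.lt_pow_self hB).le
  have n5 : ∀ {x : ℕ}, (6 : ℕ) = 5 → x ≤ 0 := fun h => absurd h (by decide)
  have n4 : ∀ {x : ℕ}, (4 : ℕ) = 5 → x ≤ 0 := fun h => absurd h (by decide)
  set m0 := ((m.write 6 ig 0).write 6 ia 1).write 4 0 1 with hm0
  have e0 : t0.eval m0 e = F := by rw [h0, ← hF]; simp [hm0, Mem.write]
  have key := Tri.rep (V := V) (S := 0) (e := e) (m := m0) (n := t0)
    (p := .seq (.wr 6 (.const ig) t1) (.seq (.wr 6 (.const ia) t2) (.wr 4 (.const 0) t3)))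
    (fun j m' => Same [4, 6] m m' ∧ m' 6 ig = min j G ∧ m' 6 ia = k ^ min j G ∧
      m' 4 0 = B ^ min j G ∧ ∀ i, i ≠ ig → i ≠ ia → m' 6 i = m 6 i) (fun _ => 1 + (1 + 1))
    (by rwa [e0]) ⟨fun a ha => funext fun i => by
      simp only [List.mem_cons, List.not_mem_nil, or_false, not_or] at ha
      simp [hm0, Mem.write, ha], by simp [hm0, Mem.write, hi], by simp [hm0, Mem.write],
      by simp [hm0, Mem.write], fun i a b => by simp [hm0, Mem.write, a, b]⟩
    fun j _ m' ⟨a1, a2, a3, a4, a5⟩ => by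
      have b0 : φ (m' 0 0) = F := by rw [a1 0 (by decide), hF]
      have b1 : B ^ min j G < F ↔ j < G := by
        rw [← Nat.lt_clog_iff_pow_lt hB]
        omega
      have c1 : t1.eval m' (cons j e) = min (j + 1) G := by
        simp only [h1, a4, b0, b1, a2]
        split_ifs <;> omega
      have c2 : t2.eval (m'.write 6 ig (min (j + 1) G)) (cons j e) = k ^ min (j + 1) G := by
        simp only [h2, Mem.write, hi.symm, and_false, if_false, Nat.reduceEqDiff, false_and, a4,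
          b0, b1, a3]
        split_ifs with h
        · rw [min_eq_left h.le, min_eq_left h, pow_succ]
        · rw [min_eq_right (by omega), min_eq_right (by omega)]
      have c3 : t3.eval ((m'.write 6 ig (min (j + 1) G)).write 6 ia (k ^ min (j + 1) G))
          (cons j e) = B ^ min (j + 1) G := by
        simp only [h3, Mem.write, if_false, Nat.reduceEqDiff, false_and, a4, b0, b1]
        split_ifs with h
        · rw [min_eq_left h.le, min_eq_left h, pow_succ]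
        · rw [min_eq_right (by omega), min_eq_right (by omega)]
      refine Tri.seq (Tri.wr (c1 ▸ v3 _) n5 ?_)
      rw [c1, Term.eval]
      refine Tri.seq (Tri.wr (c2 ▸ v2 _) n5 ?_)
      rw [c2, Term.eval]
      refine Tri.wr (c3 ▸ v1 _) n4 ?_
      rw [c3, Term.eval]
      refine ⟨fun a ha => funext fun i => ?_, by simp [Mem.write, hi], by simp [Mem.write],
        by simp [Mem.write], fun i a b => by simp [Mem.write, a, b, a5 i a b]⟩
      have := a1 a ha
      simp only [List.mem_cons, List.not_mem_nil, or_false, not_or] at ha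
      simp [Mem.write, ha, this]
  rw [e0] at key
  refine (Tri.seq (Tri.wr (Nat.zero_le _) n5 (Tri.seq (Tri.wr v4 n5 (Tri.seq
    (Tri.wr v4 n4 key)))))).mono (le_of_eq ?_) fun m' h => ?_
  · simp only [sum_const, card_range, smul_eq_mul]
    ring
  · rw [min_eq_right GF] at h
    exact ⟨h.1, h.2.1, h.2.2.1, h.2.2.2.2⟩

end ParAAux

theorem p_parA : ParA := by
  intro k D L hk hL
  have kL : k ≤ k ^ L := Nat.le_self_pow (by omega) k
  obtain ⟨c1, h1⟩ := ParAAux.loop (k ^ L) k 5 2 (by omega) kL (by decide) (φ := fun n => 3 * n)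
    ((Cx.const 3).mul (Cx.cell 0 0))
  obtain ⟨c2, h2⟩ := ParAAux.loop 2 2 4 6 le_rfl le_rfl (by decide)
    (φ := fun n => 12 * (n * n) + D + 2) ((((Cx.const 12).mul ((Cx.cell 0 0).mul
      (Cx.cell 0 0))).add (Cx.const D)).add (Cx.const 2))
  obtain ⟨c3, h3⟩ := put 6 (Cx.const 0) (Cx.cell 0 0)
  obtain ⟨c4, h4⟩ := put 6 (Cx.const 3) ((Cx.cell 0 0).mul (Cx.cell 0 0))
  refine ⟨.seq c1 (.seq c2 (.seq c3 c4)), 18, fun V e m n hn v1 v2 => ?_⟩
  have b1 : 12 * (n * n) + D + 2 ≤ 2 ^ lb D n := Nat.le_pow_clog one_lt_two _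
  have b2 : n ≤ n * n := Nat.le_mul_self n
  refine (Tri.seq (n₂ := 4 + 4 * (12 * (n * n) + D + 2) + (1 + 1))
    ((h1 V e m (3 * n) (by rw [hn]) v1).mono le_rfl fun m1 ⟨a1, a2, a3, _⟩ => ?_)).mono
    (by omega) fun _ h => h
  have e1 : m1 0 0 = n := by rw [a1 0 (by decide), hn]
  refine Tri.seq ((h2 V e m1 _ (by rw [e1]) v2).mono le_rfl fun m2 ⟨a4, a5, a6, a7⟩ => ?_)
  have e2 : m2 0 0 = n := by rw [a4 0 (by decide), e1]
  refine Tri.seq ((h3 V 0 e m2 (by omega) (by omega)).mono le_rfl fun m3 e3 => ?_)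
  have e4 : m3 0 0 = n := by rw [e3, write_ne _ _ (Or.inl (by decide)), e2]
  refine (h4 V 0 e m3 (by rw [e4]; omega) (by omega)).mono le_rfl fun m4 e5 => ?_
  rw [e5, e4, e3, e2]
  refine ⟨((a1.trans a4).trans ((Same.write _ _ _ _).mono (by simp))).trans
    ((Same.write _ _ _ _).mono (by simp)), ?_⟩
  simp [Mem.write, a7 2, a7 5, a2, a3, a5, a6, gg, lb]

end Vale.Agent.P305
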