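import Vale.Agent.P305.Spec

open Finset

namespace Vale.Agent.P305

open Vale.Agent.P315

namespace ParBAux

theorem pw (a b L : ℕ) (ha : a ≠ 5) (hb : 1 ≤ b) :
    ∃ c : Cmd, ∀ (V : ℕ) (e : Env) (m : Mem) (g : ℕ), m 6 5 = g → g * L + 2 ≤ V →
      b ^ (g * L + 1) ≤ V → Tri V 0 c e m (1 + 2 * (g * L + 2)) fun m' =>
        Same [a] m m' ∧ ∀ i ≤ g * L + 1, m' a i = b ^ i := by
  obtain ⟨c, hc⟩ := fill a ha (((Cx.cell 6 5).mul (Cx.const L)).add (Cx.const 2)) (Cx.const 0)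
    (Cx.ite (CxP.eq (Cx.var 0) (Cx.const 0)) (Cx.const 1)
      ((Cx.const b).mul (Cx.get a ((Cx.var 0).sub (Cx.const 1)))))
  refine ⟨c, fun V e m g hg h1 h2 => ?_⟩
  subst hg
  refine (hc V 0 e m (fun i => b ^ i) h1 (fun j hj => ?_) (fun j hj m' hm => ⟨rfl, ?_⟩)).mono
    le_rfl fun m' hm => ⟨hm.1, fun i hi => ?_⟩
  · exact (Nat.pow_le_pow_right hb (by omega)).trans h2
  · show (if j = 0 then 1 else b * m' a (j - 1)) = b ^ j
    rcases j with _ | j
    · simp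
    · have := hm.2.1 j (by omega)
      rw [zero_add] at this
      rw [if_neg (by omega), Nat.add_sub_cancel, this, pow_succ']
  · have := hm.2.1 i (by omega)
    rwa [zero_add] at this

theorem dg (a s L Q c : ℕ) (ha : a ≠ 5) (hQ : 2 ≤ Q) (F tb : ℕ → ℕ)
    (hF : Cx fun e _ => F (e 0)) (h0 : tb 0 = 0) (hr : ∀ z, tb z = F z + c * tb (z / Q)) :
    ∃ cmd : Cmd, ∀ (V : ℕ) (e : Env) (m : Mem) (g N : ℕ), m 6 5 = g → m s (g * L + 1) = N →
      N ≤ V → (∀ z < N, tb z ≤ V) → Tri V 0 cmd e m (1 + 2 * N) fun m' =>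
        Same [a] m m' ∧ ∀ z < N, m' a z = tb z := by
  obtain ⟨cmd, hc⟩ := fill a ha
    (Cx.get s (((Cx.cell 6 5).mul (Cx.const L)).add (Cx.const 1))) (Cx.const 0)
    (Cx.ite (CxP.eq (Cx.var 0) (Cx.const 0)) (Cx.const 0)
      (hF.add ((Cx.const c).mul (Cx.get a ((Cx.var 0).div (Cx.const Q))))))
  refine ⟨cmd, fun V e m g N hg hN h1 h2 => ?_⟩
  subst hg
  subst hN
  refine (hc V 0 e m tb h1 h2 (fun j hj m' hm => ⟨rfl, ?_⟩)).mono
    le_rfl fun m' hm => ⟨hm.1, fun i hi => ?_⟩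
  · show (if j = 0 then 0 else F j + c * m' a (j / Q)) = tb j
    by_cases hj0 : j = 0
    · rw [if_pos hj0, hj0, h0]
    · have := hm.2.1 (j / Q) (Nat.div_lt_self (by omega) (by omega))
      rw [zero_add] at this
      rw [if_neg hj0, this, ← hr]
  · have := hm.2.1 i hi
    rwa [zero_add] at this

end ParBAux

open ParBAux in
theorem p_parB (h1 : ZS) : ParB := by
  intro k rk L hk hrk
  have hk2 : 2 ≤ k := by omega
  have hK : k ≤ k * k := Nat.le_mul_self k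
  obtain ⟨c1, e1⟩ := pw 9 k L (by omega) (by omega)
  obtain ⟨c2, e2⟩ := pw 10 (k * k) L (by omega) (by omega)
  obtain ⟨c3, e3⟩ := pw 11 rk L (by omega) (by omega)
  obtain ⟨c4, e4⟩ := dg 12 10 L (k * k) k (by omega) (by omega) (fun z => z % (k * k) / k) (row k)
    (((Cx.var 0).mod (Cx.const (k * k))).div (Cx.const k)) (row_zero k) (row_eq hk2)
  obtain ⟨c5, e5⟩ := dg 13 10 L (k * k) k (by omega) (by omega) (fun z => z % (k * k) % k) (col k)
    (((Cx.var 0).mod (Cx.const (k * k))).mod (Cx.const k)) (col_zero k) (col_eq hk2)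
  obtain ⟨c6, e6⟩ := dg 14 9 L k (k * k) (by omega) hk2 (fun z => z % k) (zi k)
    ((Cx.var 0).mod (Cx.const k)) (zi_zero k) (zi_eq hk2)
  refine ⟨.seq c1 (.seq c2 (.seq c3 (.seq c4 (.seq c5 c6)))), 18, fun V e m g hg hV => ?_⟩
  obtain ⟨z1, z2⟩ := h1 k hk2 (g * L + 1)
  have b0 : g * L + 2 ≤ rk ^ (g * L + 1) := Nat.lt_pow_self (by omega)
  have b1 : k ^ (g * L + 1) ≤ (k * k) ^ (g * L + 1) := Nat.pow_le_pow_left hK _
  have b2 : (k * k) ^ (g * L + 1) ≤ rk ^ (g * L + 1) := Nat.pow_le_pow_left hrk _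
  refine (Tri.seq (n₂ := (1 + 2 * (g * L + 2)) + ((1 + 2 * (g * L + 2)) +
      ((1 + 2 * (k * k) ^ (g * L + 1)) + ((1 + 2 * (k * k) ^ (g * L + 1)) +
        (1 + 2 * k ^ (g * L + 1))))))
    ((e1 V e m g hg (by omega) (by omega)).mono le_rfl fun m1 s1 => ?_)).mono (by omega)
    fun _ h => h
  have g1 : m1 6 5 = g := by rw [s1.1 6 (by simp)]; exact hg
  refine Tri.seq ((e2 V e m1 g g1 (by omega) (by omega)).mono le_rfl fun m2 s2 => ?_)
  have g2 : m2 6 5 = g := by rw [s2.1 6 (by simp)]; exact g1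
  refine Tri.seq ((e3 V e m2 g g2 (by omega) hV).mono le_rfl fun m3 s3 => ?_)
  have g3 : m3 6 5 = g := by rw [s3.1 6 (by simp)]; exact g2
  have n3 : m3 10 (g * L + 1) = (k * k) ^ (g * L + 1) := by
    rw [s3.1 10 (by simp)]; exact s2.2 _ le_rfl
  refine Tri.seq ((e4 V e m3 g _ g3 n3 (by omega) fun z hz => by
    have := (z1 z hz).1; omega).mono le_rfl fun m4 s4 => ?_)
  have g4 : m4 6 5 = g := by rw [s4.1 6 (by simp)]; exact g3
  have n4 : m4 10 (g * L + 1) = (k * k) ^ (g * L + 1) := by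
    rw [s4.1 10 (by simp)]; exact n3
  refine Tri.seq ((e5 V e m4 g _ g4 n4 (by omega) fun z hz => by
    have := (z1 z hz).2.1; omega).mono le_rfl fun m5 s5 => ?_)
  have g5 : m5 6 5 = g := by rw [s5.1 6 (by simp)]; exact g4
  have a9 : m5 9 = m1 9 := by
    rw [s5.1 9 (by simp), s4.1 9 (by simp), s3.1 9 (by simp), s2.1 9 (by simp)]
  have n5 : m5 9 (g * L + 1) = k ^ (g * L + 1) := by rw [a9]; exact s1.2 _ le_rfl
  refine (e6 V e m5 g _ g5 n5 (by omega) fun z hz => by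
    have := (z2 z hz z hz).1; omega).mono le_rfl fun m6 s6 => ⟨fun a ha => ?_, fun i hi => ?_,
      fun z hz => ?_, s6.2⟩
  · simp only [List.mem_cons, List.not_mem_nil, or_false, not_or] at ha
    rw [s6.1 a (by simp; omega), s5.1 a (by simp; omega), s4.1 a (by simp; omega),
      s3.1 a (by simp; omega), s2.1 a (by simp; omega), s1.1 a (by simp; omega)]
  · refine ⟨?_, ?_, ?_⟩
    · rw [s6.1 9 (by simp), a9]; exact s1.2 i hi
    · rw [s6.1 10 (by simp), s5.1 10 (by simp), s4.1 10 (by simp), s3.1 10 (by simp)]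
      exact s2.2 i hi
    · rw [s6.1 11 (by simp), s5.1 11 (by simp), s4.1 11 (by simp)]
      exact s3.2 i hi
  · refine ⟨?_, ?_⟩
    · rw [s6.1 12 (by simp), s5.1 12 (by simp)]; exact s4.2 z hz
    · rw [s6.1 13 (by simp)]; exact s5.2 z hz

end Vale.Agent.P305
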