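import Vale.Agent.P305.Spec

open Finset

namespace Vale.Agent.P305

open Vale.Agent.P315

namespace Phase1Aux

/-- The third copy of the vertices is folded onto the second one. -/
def pi (n y : ℕ) : ℕ := if y < 2 * n then y else y - n

theorem mod1 {n j : ℕ} (h1 : n ≤ j) (h2 : j < 2 * n) : j % n = j - n := by
  rw [Nat.mod_eq_sub_mod h1, Nat.mod_eq_of_lt (by omega)]

theorem mod2 {n j : ℕ} (h1 : 2 * n ≤ j) (h2 : j < 3 * n) : j % n = j - 2 * n := by
  rw [Nat.mod_eq_sub_mod (by omega), mod1 (by omega) (by omega)]
  omega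

theorem pi_lt {n y : ℕ} (h : y < 3 * n) : pi n y < 2 * n := by
  unfold pi
  split_ifs <;> omega

theorem pi_mod {n y : ℕ} (h : y < 3 * n) : pi n y % n = y % n := by
  unfold pi
  split_ifs with h1
  · rfl
  · rw [mod1 (by omega) (by omega), mod2 (by omega) h]
    omega

theorem pi_iff {n y : ℕ} (h : y < 3 * n) : pi n y < n ↔ y < n := by
  unfold pi
  split_ifs <;> omega

theorem pi_small {n y : ℕ} (h : y < n) : pi n y = y := by
  unfold pi
  rw [if_pos (by omega)]

theorem pi_big {n y : ℕ} (h1 : n ≤ y) (h : y < 3 * n) : pi n y = n + y % n := by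
  unfold pi
  split_ifs with h2
  · rw [mod1 h1 h2]
    omega
  · rw [mod2 (by omega) h]
    omega

variable {F : Type} [Field F]

theorem ini_pi (n : ℕ) (ad : ℕ → ℕ → Bool) (x : ℕ → F) {i j : ℕ} (hi : i < 3 * n)
    (hj : j < 3 * n) : ini n ad x i j = ini n ad x (pi n i) (pi n j) := by
  have a1 := pi_lt hi
  have a2 := pi_lt hj
  unfold ini
  by_cases h1 : i < n
  · rw [if_pos h1, pi_small h1, if_pos h1]
    by_cases h2 : j < n
    · rw [if_pos h2, pi_small h2, if_pos h2]
    · rw [if_neg h2, if_neg (fun h => h2 ((pi_iff hj).1 h)), pi_mod hj]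
      have a3 : pi n j < 3 * n := by omega
      simp only [hj, a3]
  · rw [if_neg h1, if_neg (fun h => h1 ((pi_iff hi).1 h)), pi_mod hi]
    have a3 : pi n i < 3 * n := by omega
    by_cases h2 : j < n
    · rw [pi_small h2]
      simp only [hi, a3]
    · rw [if_neg (fun h => h2 h.2.1), if_neg (fun h => h2 ((pi_iff hj).1 h.2.1))]

theorem start (n : ℕ) (ad : ℕ → ℕ → Bool) (x : ℕ → F) :
    GInv (Ico 0 (2 * n)) (big n ad x)
      (fun i j => if i < 2 * n ∧ j < 2 * n then ini n ad x i j else 0) := by
  refine ⟨fun i j hij => ?_, fun i hi j hj => ?_⟩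
  · simp only [mem_Ico, Nat.zero_le, true_and] at hij
    exact if_neg fun h => hij.elim (fun g => g h.1) fun g => g h.2
  · have hi2 : i < 2 * n := (mem_Ico.1 hi).2
    have hj2 : j < 2 * n := (mem_Ico.1 hj).2
    have e1 : ∑ l ∈ Ico 0 (2 * n), big n ad x i l *
        (if l < 2 * n ∧ j < 2 * n then ini n ad x l j else 0) =
        ∑ l ∈ range n, big n ad x i l * ini n ad x l j +
          ∑ l ∈ range n, big n ad x i (n + l) * ini n ad x (n + l) j := by
      rw [← sum_range_add (fun l => big n ad x i l * ini n ad x l j) n n, ← two_mul,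
        range_eq_Ico]
      exact sum_congr rfl fun l hl => by rw [if_pos ⟨(mem_Ico.1 hl).2, hj2⟩]
    have e2 : ∀ l ∈ range n, ini n ad x (n + l) j = if l = j then -1 else 0 := by
      intro l hl
      have hl' := mem_range.1 hl
      unfold ini
      rw [if_neg (by omega), mod1 (by omega) (by omega)]
      by_cases h : l = j
      · rw [if_pos h, if_pos (by omega)]
      · rw [if_neg h, if_neg (by omega)]
    refine e1.trans ?_
    by_cases h1 : i < n
    · have e3 : ∑ l ∈ range n, big n ad x i l * ini n ad x l j = 0 := by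
        refine sum_eq_zero fun l hl => ?_
        have hl' := mem_range.1 hl
        unfold big
        rw [if_pos h1, if_neg (by omega), zero_mul]
      rw [e3, zero_add, sum_eq_single i]
      · rw [e2 i (mem_range.2 h1)]
        unfold big
        rw [if_pos h1, if_pos (by omega)]
        split_ifs <;> simp
      · intro l _ hl
        unfold big
        rw [if_pos h1, if_neg (by omega), zero_mul]
      · intro h
        exact absurd (mem_range.2 h1) h
    · have e3 : ∑ l ∈ range n, big n ad x i l * ini n ad x l j = ini n ad x (i - n) j := by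
        rw [sum_eq_single (i - n)]
        · unfold big
          rw [if_neg h1, if_pos (by omega), if_pos (by omega), one_mul]
        · intro l hl hne
          have hl' := mem_range.1 hl
          unfold big
          rw [if_neg h1, if_pos hl', if_neg (by omega), zero_mul]
        · intro h
          exact absurd (mem_range.2 (by omega)) h
      have e4 : ∑ l ∈ range n, big n ad x i (n + l) * ini n ad x (n + l) j =
          if j < n then -mh n ad x 0 (i - n) j else 0 := by
        rw [sum_congr rfl fun l hl => by rw [e2 l hl]]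
        by_cases h2 : j < n
        · rw [if_pos h2, sum_eq_single j]
          · unfold big
            rw [if_neg h1, if_neg (by omega), if_pos rfl, Nat.add_sub_cancel_left]
            ring
          · intro l _ hne
            rw [if_neg hne, mul_zero]
          · intro h
            exact absurd (mem_range.2 h2) h
        · rw [if_neg h2]
          refine sum_eq_zero fun l hl => ?_
          have hl' := mem_range.1 hl
          rw [if_neg (by omega), mul_zero]
      rw [e3, e4]
      unfold ini
      rw [if_pos (by omega : i - n < n)]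
      by_cases h2 : j < n
      · rw [if_pos h2, if_pos h2, if_neg (by omega), add_neg_cancel]
      · rw [if_neg h2, if_neg h2, add_zero, mod1 (by omega) hj2]
        by_cases h : i = j
        · rw [if_pos h, if_pos (by omega)]
        · rw [if_neg h, if_neg (by omega)]

theorem inv (h1 : GElim) (n : ℕ) (ad : ℕ → ℕ → Bool) (x : ℕ → F) (f : ℕ → ℕ)
    (hns : ∀ h < n, NS (Ico (h + 1) (2 * n)) (big n ad x)) (h : ℕ) (hh : h ≤ n) :
    (∃ N' : Mx F, GInv (Ico h (2 * n)) (big n ad x) N' ∧ ∀ i j, i < 3 * n → j < 3 * n →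
      (rn n ad x (ini n ad x, f) ((List.range h).map fun u => (u, u))).1 i j =
        N' (pi n i) (pi n j)) ∧
    (rn n ad x (ini n ad x, f) ((List.range h).map fun u => (u, u))).2 = f := by
  induction h with
  | zero =>
    refine ⟨⟨_, start n ad x, fun i j hi hj => ?_⟩, rfl⟩
    show ini n ad x i j = if pi n i < 2 * n ∧ pi n j < 2 * n then _ else 0
    rw [if_pos ⟨pi_lt hi, pi_lt hj⟩]
    exact ini_pi n ad x hi hj
  | succ h ih =>
    obtain ⟨⟨N', hG, hN⟩, hf⟩ := ih (by omega)
    have hlt : h < n := hh
    rw [List.range_succ, List.map_append, rn_append]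
    generalize rn n ad x (ini n ad x, f) ((List.range h).map fun u => (u, u)) = s at hN hf
    have hH : ∀ a : F, ¬Hit n ad x h h a := fun a g => absurd g.2.1 (lt_irrefl h)
    have e0 : rn n ad x s ([h].map fun u => (u, u)) = (upd s.1 h h (s.1 h h)⁻¹ 0, s.2) := by
      show stp n ad x s (h, h) = _
      unfold stp al wy
      simp only [if_neg (hH _)]
      rw [if_pos ⟨trivial, hlt⟩, if_neg (by omega)]
    have er : (Ico h (2 * n)).erase h = Ico (h + 1) (2 * n) := by
      ext y
      simp only [mem_erase, mem_Ico]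
      omega
    obtain ⟨g1, g2⟩ := h1 F _ _ _ h hG (mem_Ico.2 ⟨le_rfl, by omega⟩)
    rw [er] at g1 g2
    rw [e0]
    refine ⟨⟨_, g1 (g2 (hns h hlt)), fun i j hi hj => ?_⟩, hf⟩
    have h3 : h < 3 * n := by omega
    show upd s.1 h h (s.1 h h)⁻¹ 0 i j = _
    unfold upd
    rw [hN i j hi hj, hN i h hi h3, hN h j h3 hj, hN h h h3 h3, pi_small hlt]

end Phase1Aux

open Phase1Aux in
theorem p_phase1 (h1 : GElim) : Phase1 := by
  intro F _ n ad x f hns
  obtain ⟨⟨N', hG, hN⟩, hf⟩ := inv h1 n ad x f hns n le_rfl
  refine ⟨⟨fun i j => N' (n + i) (n + j), ⟨fun i j hij => hG.1 _ _ ?_, fun i hi j hj => ?_⟩,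
    fun i j a1 a2 a3 a4 => ?_⟩, hf⟩
  · simp only [mem_range, mem_Ico] at hij ⊢
    omega
  · have hi' := mem_range.1 hi
    have hj' := mem_range.1 hj
    have e := hG.2 (n + i) (mem_Ico.2 ⟨by omega, by omega⟩) (n + j)
      (mem_Ico.2 ⟨by omega, by omega⟩)
    rw [sum_Ico_eq_sum_range, show 2 * n - n = n by omega] at e
    simp only [Nat.add_right_inj] at e
    refine Eq.trans (sum_congr rfl fun l _ => ?_) e
    unfold big
    rw [if_neg (by omega), if_neg (by omega), Nat.add_sub_cancel_left, Nat.add_sub_cancel_left]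
  · rw [hN i j a2 a4, pi_big a1 a2, pi_big a3 a4]

end Vale.Agent.P305
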