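import Vale.Agent.P305.Spec

open Finset

namespace Vale.Agent.P305

open Vale.Agent.P315

namespace Phase2Aux

variable {F : Type} [Field F] {n : ℕ} {ad : ℕ → ℕ → Bool} {x : ℕ → F}

theorem mh_succ (h i j : ℕ) :
    mh n ad x (h + 1) i j = mh n ad x h i j - if i = h ∧ j = h then dm n x h else 0 := by
  unfold mh
  by_cases h1 : i = h ∧ j = h
  · obtain ⟨rfl, rfl⟩ := h1
    simp
  · rw [if_neg h1, sub_zero]
    by_cases h2 : i = j ∧ h ≤ i
    · rw [if_pos h2, if_pos ⟨h2.1, by omega⟩]
    · rw [if_neg h2, if_neg (by omega)]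

theorem lift {h : ℕ} (hh : h < n) {N N' : Mx F} {A : Finset ℕ} {M : Mx F} {α : F}
    (e : ∀ i j, n ≤ i → i < 3 * n → n ≤ j → j < 3 * n → N i j = N' (i % n) (j % n))
    (hG : GInv A M (upd N' h h α 0)) : St2 n (upd N (n + h) (n + h) α 0) A M := by
  refine ⟨_, hG, fun i j a b c d => ?_⟩
  have hm : (n + h) % n = h := by rw [Nat.add_mod_left, Nat.mod_eq_of_lt hh]
  unfold upd
  rw [e i j a b c d, e i (n + h) a b (by omega) (by omega), e (n + h) j (by omega) (by omega) c d,
    hm]

theorem step (h1 : GElim) (h2 : GLoop) {h : ℕ} (hh : h < n) (s : Mx F × (ℕ → ℕ))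
    (hs : St2 n s.1 (bid n ad x h ∪ Ico h n) (mh n ad x h)) :
    St2 n (stp n ad x s (n + h, n + h)).1 (bid n ad x (h + 1) ∪ Ico (h + 1) n)
      (mh n ad x (h + 1)) ∧ (stp n ad x s (n + h, n + h)).2 = s.2 := by
  obtain ⟨N', hG, e⟩ := hs
  have hm : (n + h) % n = h := by rw [Nat.add_mod_left, Nat.mod_eq_of_lt hh]
  have ha : s.1 (n + h) (n + h) = N' h h := by
    rw [e _ _ (by omega) (by omega) (by omega) (by omega), hm]
  have hH : ¬Hit n ad x (n + h) (n + h) (s.1 (n + h) (n + h)) := fun k => lt_irrefl _ k.2.1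
  have hw : wy n ad x (n + h) (n + h) (s.1 (n + h) (n + h)) = 0 := by
    rw [wy, if_neg hH, if_neg (by omega)]
  have hmem : h ∈ bid n ad x h ∪ Ico h n := mem_union_right _ (mem_Ico.2 ⟨le_rfl, hh⟩)
  have hL := h2 F _ _ (mh n ad x (h + 1)) N' h (dm n x h) hG hmem fun i _ j _ => mh_succ h i j
  have hnb : h ∉ bid n ad x h := fun k => lt_irrefl _ (mem_range.1 (bid_sub n ad x h k))
  refine ⟨?_, if_neg hH⟩
  show St2 n (upd s.1 (n + h) (n + h) (al n x (n + h) (n + h) (s.1 (n + h) (n + h)))
    (wy n ad x (n + h) (n + h) (s.1 (n + h) (n + h)))) _ _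
  rw [hw, ha, al, if_neg (by omega), if_pos ⟨rfl, by omega⟩, Nat.add_sub_cancel_left]
  by_cases hd : dm n x h * N' h h = 1
  · rw [if_pos hd, bid, if_neg (hL.2 hd)]
    have h0 : N' h h ≠ 0 := right_ne_zero_of_mul_eq_one hd
    have hE := (h1 F _ _ N' h hG hmem).1 h0
    have eA : (bid n ad x h ∪ Ico h n).erase h = bid n ad x h ∪ Ico (h + 1) n := by
      ext i
      simp only [mem_erase, mem_union, mem_Ico]
      constructor
      · rintro ⟨a, b | b⟩
        · exact Or.inl b
        · exact Or.inr ⟨by omega, b.2⟩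
      · rintro (b | b)
        · exact ⟨fun k => hnb (k ▸ b), Or.inl b⟩
        · exact ⟨by omega, Or.inr ⟨by omega, b.2⟩⟩
    rw [eq_inv_of_mul_eq_one_left hd]
    refine lift hh e ?_
    rw [← eA]
    refine hE.congr fun i hi j _ => ?_
    rw [mh_succ, if_neg fun k => (mem_erase.1 hi).1 k.1, sub_zero]
  · have hE := hL.1 hd
    rw [if_neg hd, bid, if_pos hE.ns]
    have eA : insert h (bid n ad x h) ∪ Ico (h + 1) n = bid n ad x h ∪ Ico h n := by
      ext i
      simp only [mem_insert, mem_union, mem_Ico]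
      constructor
      · rintro ((b | b) | b)
        · exact Or.inr ⟨by omega, by omega⟩
        · exact Or.inl b
        · exact Or.inr ⟨by omega, b.2⟩
      · rintro (b | b)
        · exact Or.inl (Or.inr b)
        · by_cases k : i = h
          · exact Or.inl (Or.inl k)
          · exact Or.inr ⟨by omega, b.2⟩
    rw [eA]
    exact lift hh e hE

end Phase2Aux

theorem p_phase2 (h1 : GElim) (h2 : GLoop) : Phase2 := by
  intro F _ n ad x N f hN
  have key : ∀ h ≤ n,
      St2 n (rn n ad x (N, f) ((List.range h).map fun u => (n + u, n + u))).1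
        (bid n ad x h ∪ Ico h n) (mh n ad x h) ∧
      (rn n ad x (N, f) ((List.range h).map fun u => (n + u, n + u))).2 = f := by
    intro h
    induction h with
    | zero =>
      intro _
      refine ⟨?_, rfl⟩
      rw [bid, empty_union, ← range_eq_Ico]
      exact hN
    | succ h ih =>
      intro hh
      obtain ⟨a, b⟩ := ih (by omega)
      have := Phase2Aux.step h1 h2 (show h < n by omega) _ a
      rw [List.range_succ, List.map_append, rn_append]
      exact ⟨this.1, this.2.trans b⟩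
  obtain ⟨⟨N', hG, e⟩, b⟩ := key n le_rfl
  refine ⟨⟨N', ?_, e⟩, b⟩
  rw [Ico_self, union_empty] at hG
  refine hG.congr fun i hi j _ => ?_
  have := mem_range.1 (bid_sub n ad x n hi)
  rw [mh, if_neg (by omega), add_zero]

end Vale.Agent.P305
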