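import Vale.Agent.P305.Spec

open Finset

namespace Vale.Agent.P305

open Vale.Agent.P315

namespace Phase3Aux
variable {F : Type} [Field F] {n : ℕ} {ad : ℕ → ℕ → Bool} {x : ℕ → F}

/-- The Tutte matrix of the edges that are still to be treated. -/
def mr (n : ℕ) (ad : ℕ → ℕ → Bool) (x : ℕ → F) (l : List (ℕ × ℕ)) : Mx F := fun i j =>
  if (2 * n + min i j, 2 * n + max i j) ∈ l then tm n ad x i j else 0

theorem mr_skew (l : List (ℕ × ℕ)) (i j : ℕ) : mr n ad x l i j = -mr n ad x l j i := by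
  unfold mr
  rw [min_comm j i, max_comm j i]
  split_ifs
  exacts [tm_skew _ _ _ _ _, neg_zero.symm]

theorem mr_del {l : List (ℕ × ℕ)} {u v : ℕ} (h : u < v) (hl : (2 * n + u, 2 * n + v) ∉ l)
    (i j : ℕ) : mr n ad x l i j = mr n ad x ((2 * n + u, 2 * n + v) :: l) i j -
      if i = u ∧ j = v then tm n ad x u v else if i = v ∧ j = u then -tm n ad x u v else 0 := by
  unfold mr
  by_cases h1 : i = u ∧ j = v
  · obtain ⟨rfl, rfl⟩ := h1
    simp [min_eq_left h.le, max_eq_right h.le, hl]
  by_cases h2 : i = v ∧ j = u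
  · obtain ⟨rfl, rfl⟩ := h2
    simp [min_eq_right h.le, max_eq_left h.le, hl, h.ne, h.ne', tm_skew n ad x i j]
  have h3 : (2 * n + min i j, 2 * n + max i j) ≠ (2 * n + u, 2 * n + v) := by
    rw [Ne, Prod.mk.injEq]
    omega
  rw [if_neg h1, if_neg h2, sub_zero]
  simp only [List.mem_cons, h3, false_or]

theorem mate {A B : Finset ℕ} {f : ℕ → ℕ} {u v : ℕ} (hA : A ⊆ B) (hu : u ∈ A) (hv : v ∈ A)
    (huv : u < v) (ha : ad u v = true) (h : Mate ad (B \ A) f) :
    Mate ad (B \ (A.erase u).erase v)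
      (Function.update (Function.update f u (v + 1)) v (u + 1)) := by
  intro i
  have m1 : u ∈ B \ (A.erase u).erase v := by simp [hA hu]
  have m2 : v ∈ B \ (A.erase u).erase v := by simp [hA hv]
  by_cases h1 : i = u
  · subst h1
    exact ⟨fun _ => ⟨v, m2, by simp [huv.ne], by simp, huv.ne, Or.inl ha⟩, fun hn => absurd m1 hn⟩
  by_cases h2 : i = v
  · subst h2
    exact ⟨fun _ => ⟨u, m1, by simp, by simp [huv.ne], huv.ne', Or.inr ha⟩, fun hn => absurd m2 hn⟩
  have e : i ∈ B \ (A.erase u).erase v ↔ i ∈ B \ A := by simp [h1, h2]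
  rw [e, Function.update_of_ne h2, Function.update_of_ne h1]
  refine ⟨fun hi => ?_, (h i).2⟩
  obtain ⟨j, hj, a1, a2, a3⟩ := (h i).1 hi
  have j1 : j ≠ u := fun e => (mem_sdiff.1 hj).2 (e ▸ hu)
  have j2 : j ≠ v := fun e => (mem_sdiff.1 hj).2 (e ▸ hv)
  refine ⟨j, by simpa [j1, j2] using hj, a1, ?_, a3⟩
  rwa [Function.update_of_ne j2, Function.update_of_ne j1]

theorem main (h1 : GSkew) (h2 : GMatch) (h3 : GDel) (h0 : (2 : F) ≠ 0) (B : Finset ℕ)
    (l : List (ℕ × ℕ)) (hl : l.Nodup) (hr : ∀ z ∈ l, 2 * n ≤ z.1 ∧ z.1 < z.2 ∧ z.2 < 3 * n)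
    (N : Mx F) (f : ℕ → ℕ) (A : Finset ℕ) (hA : A ⊆ B) (hN : St2 n N A (mr n ad x l))
    (hf : Mate ad (B \ A) f) : Mate ad B (rn n ad x (N, f) l).2 := by
  induction l generalizing N f A with
  | nil =>
    obtain ⟨N', g, -⟩ := hN
    have e : A = ∅ := eq_empty_of_forall_notMem fun i hi => by
      simpa [mr] using g.2 i hi i hi
    rw [e, sdiff_empty] at hf
    exact hf
  | cons z l ih =>
    obtain ⟨z1, z2⟩ := z
    obtain ⟨r1, r2, r3⟩ := hr _ List.mem_cons_self
    obtain ⟨u, rfl⟩ := Nat.exists_eq_add_of_le r1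
    obtain ⟨v, rfl⟩ := Nat.exists_eq_add_of_le (r1.trans r2.le)
    dsimp only at r1 r2 r3
    have huv : u < v := by omega
    obtain ⟨hz, hl⟩ := List.nodup_cons.1 hl
    obtain ⟨N', g, hN⟩ := hN
    have md : ∀ w < n, (2 * n + w) % n = w := fun w hw => by
      rw [Nat.mul_add_mod_self_right, Nat.mod_eq_of_lt hw]
    have mu := md u (by omega)
    have mv := md v (by omega)
    have sk := h1 F A _ N' g fun i _ j _ => mr_skew _ i j
    have dg : ∀ i, N' i i = 0 := fun i =>
      (mul_eq_zero.1 (show 2 * N' i i = 0 by linear_combination sk i i)).resolve_left h0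
    have ea : N (2 * n + u) (2 * n + v) = N' u v := by
      rw [hN _ _ (by omega) (by omega) (by omega) r3, mu, mv]
    have st : ∀ (y : F) (A' : Finset ℕ), GInv A' (mr n ad x l) (upd N' u v 0 y) →
        St2 n (upd N (2 * n + u) (2 * n + v) 0 y) A' (mr n ad x l) := fun y A' g' =>
      ⟨_, g', fun i j i1 i2 j1 j2 => by
        unfold upd
        rw [hN i j i1 i2 j1 j2, hN i (2 * n + u) i1 i2 (by omega) (by omega),
          hN i (2 * n + v) i1 i2 (by omega) r3, hN (2 * n + u) j (by omega) (by omega) j1 j2,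
          hN (2 * n + v) j (by omega) r3 j1 j2, mu, mv]⟩
    have eal : al n x (2 * n + u) (2 * n + v) (N' u v) = 0 := by
      unfold al
      rw [if_neg (by omega), if_neg (by omega)]
    have ih' := ih hl fun z hz => hr z (List.mem_cons_of_mem _ hz)
    show Mate ad B (rn n ad x (stp n ad x (N, f) (2 * n + u, 2 * n + v)) l).2
    unfold stp wy
    simp only [ea, eal, Nat.add_sub_cancel_left]
    by_cases hH : Hit n ad x (2 * n + u) (2 * n + v) (N (2 * n + u) (2 * n + v))
    · rw [if_pos hH, if_pos hH]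
      rw [ea] at hH
      obtain ⟨-, -, -, ht, ha⟩ := hH
      simp only [Nat.add_sub_cancel_left] at ht
      have hm : u ∈ A ∧ v ∈ A := by
        by_contra hn
        exact ha (g.1 u v (not_and_or.1 hn))
      refine ih' _ _ _ (((erase_subset _ _).trans (erase_subset _ _)).trans hA)
        (st _ _ ((h2 F A _ N' u v g huv.ne (dg u) (dg v) (sk v u) ha).congr fun i hi j hj => ?_))
        (mate hA hm.1 hm.2 huv ?_ hf)
      · simp only [mem_erase] at hi hj
        rw [mr_del huv hz, if_neg (fun h => hi.2.1 h.1), if_neg (fun h => hi.1 h.1), sub_zero]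
      · by_contra hn
        apply ht
        unfold tm
        rw [if_neg (fun h => hn h.2), if_neg (by omega)]
    · rw [if_neg hH, if_neg hH, if_pos ⟨r1, r2, r3⟩]
      rw [ea] at hH
      refine ih' _ _ A hA (st _ _ ?_) hf
      by_cases ht : tm n ad x u v = 0
      · have e : upd N' u v 0 (tm n ad x u v) = N' := by
          funext i j
          simp [upd, ht]
        rw [e]
        exact g.congr fun i _ j _ => by simp [mr_del huv hz i j, ht]
      · have ha : N' u v = 0 := by
          by_contra ha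
          exact hH ⟨r1, r2, r3, by simpa only [Nat.add_sub_cancel_left] using ht, ha⟩
        exact h3 F A _ _ N' u v _ g huv.ne (dg u) (dg v) ha (by rw [sk, ha, neg_zero])
          fun i _ j _ => mr_del huv hz i j

end Phase3Aux

theorem p_phase3 (h1 : GSkew) (h2 : GMatch) (h3 : GDel) : Phase3 := by
  intro F _ h0 n ad x N B l hB ⟨N', g, hN⟩ hl hr
  refine Phase3Aux.main h1 h2 h3 h0 B l hl (fun z hz => (hr z).1 hz) N _ B Subset.rfl
    ⟨N', g.congr fun i hi j hj => ?_, hN⟩ fun i => by simp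
  have i1 := mem_range.1 (hB hi)
  have j1 := mem_range.1 (hB hj)
  unfold Phase3Aux.mr
  split_ifs with h
  · rfl
  · rw [hr] at h
    obtain rfl : i = j := by
      dsimp only at h
      omega
    simp [tm]

end Vale.Agent.P305
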