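import Vale.Agent.P305.Spec

open Finset

namespace Vale.Agent.P305

open Vale.Agent.P315

namespace PreProgAux

theorem bds {k rk : ℕ} (D L n : ℕ) (hk : 4 ≤ k) (hr : k * k ≤ rk) :
    (k ^ L) ^ gg k L n ≤ rk ^ (gg k L n * L + 1) ∧ rk ^ (gg k L n * L + 1) ≤ tt k rk D L n ∧
    (lb D n + 2) * (4 * 2 ^ lb D n) ≤ tt k rk D L n ∧ n * n + 1 ≤ 2 ^ lb D n := by
  have a : k ≤ rk := (Nat.le_mul_self k).trans hr
  refine ⟨?_, le_add_right (Nat.le_mul_of_pos_left _ (by positivity)), le_add_self,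
    le_trans (by omega) (Nat.le_pow_clog one_lt_two _)⟩
  rw [← pow_mul, mul_comm]
  exact (Nat.pow_le_pow_left a _).trans (Nat.pow_le_pow_right (by omega) (Nat.le_succ _))

end PreProgAux

theorem p_preProg (h1 : ParA) (h2 : ParB) (h3 : Sieve) (h4 : InvProg) (h5 : AdjProg) :
    PreProg := by
  intro k rk D L hk hr hL
  obtain ⟨c1, C1, t1⟩ := h1 k D L hk hL
  obtain ⟨c2, C2, t2⟩ := h2 k rk L hk hr
  obtain ⟨c3, C3, t3⟩ := h3
  obtain ⟨c4, t4⟩ := h4
  obtain ⟨c5, C5, t5⟩ := h5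
  refine ⟨.seq c1 (.seq c2 (.seq c3 (.seq c4 c5))), C1 + (C2 + (C3 + (1 + C5))),
    fun V n adj hn ha hV => ?_⟩
  obtain ⟨b1, b2, b3, b4⟩ := PreProgAux.bds D L n hk hr
  have b5 : 0 < 2 ^ lb D n := by positivity
  have b6 : 8 * 2 ^ lb D n ≤ tt k rk D L n := le_trans (by nlinarith) b3
  have b7 : (lb D n + 2) * 2 ^ lb D n ≤ tt k rk D L n :=
    (Nat.mul_le_mul_left _ (by omega)).trans b3
  have i0 : input (adj.map List.length) adj.flatten 0 0 = n := by simp [input, hn]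
  refine (Tri.seq ((t1 V _ _ n i0 (by omega) (by omega)).mono le_rfl ?_)).mono
    (n := C1 * 2 ^ lb D n + (C2 * rk ^ (gg k L n * L + 1) + (C3 * ((lb D n + 2) * 2 ^ lb D n) +
      (tt k rk D L n + C5 * (n * n + 1))))) ?_ fun _ h => h
  · rintro m1 ⟨s1, a0, a2, a3, a4, a5, a6⟩
    refine Tri.seq ((t2 V _ m1 _ a5 (by omega)).mono le_rfl ?_)
    rintro m2 ⟨s2, p1, p2, p3⟩
    have e2 := s2 6 (by simp)
    refine Tri.seq ((t3 V _ m2 _ (e2 ▸ a6)
      (fun i => by rw [s2 19 (by simp), s1 19 (by simp)]; rfl) (by omega)).mono le_rfl ?_)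
    rintro m3 ⟨s3, q1, q2, q3, q4⟩
    refine Tri.seq ((t4 V _ m3 _ q2 rfl (by omega)).mono (by omega) ?_)
    rintro m4 ⟨s4, r1⟩
    have f : ∀ a, a < 4 ∨ a = 16 → m4 a = input (adj.map List.length) adj.flatten a :=
      fun a h => by
      rw [s4 a (by simp; omega), s3 a (by simp; omega), s2 a (by simp; omega),
        s1 a (by simp; omega)]
    refine (t5 V _ m4 n adj hn ha (by rw [f 0 (by omega), i0])
      (fun i => by rw [f 1 (by omega)]; rfl) (fun i => by rw [f 2 (by omega)]; rfl)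
      (fun i => by rw [f 16 (by omega)]; rfl) (by omega)).mono le_rfl ?_
    rintro m5 ⟨s5, u⟩
    have g6 : m5 6 = m3 6 := (s5 6 (by simp)).trans (s4 6 (by simp))
    have g : ∀ a, 9 ≤ a → a ≤ 14 → m5 a = m2 a := fun a h h' => by
      rw [s5 a (by simp; omega), s4 a (by simp; omega), s3 a (by simp; omega)]
    have g' : ∀ i, i ≠ 1 → m5 6 i = m1 6 i := fun i h => by rw [g6, q1 i h, e2]
    refine ⟨m3 6 1, q2, q3, q4, ⟨by rw [g6], ?_, ?_, ?_, ?_, ?_, ?_, ?_⟩, (g' 0 (by simp)).trans a0,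
      (g' 2 (by simp)).trans a2, (g' 3 (by simp)).trans a3, (g' 4 (by simp)).trans a4,
      (g' 5 (by simp)).trans a5, u, by rw [s5 3 (by simp), f 3 (by omega)]; rfl⟩
    · exact g 9 (by simp) (by simp) ▸ fun i h => (p1 i h).1
    · exact g 10 (by simp) (by simp) ▸ fun i h => (p1 i h).2.1
    · exact g 11 (by simp) (by simp) ▸ fun i h => (p1 i h).2.2
    · exact g 12 (by simp) (by simp) ▸ fun i h => (p2 i h).1
    · exact g 13 (by simp) (by simp) ▸ fun i h => (p2 i h).2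
    · exact g 14 (by simp) (by simp) ▸ p3
    · exact s5 15 (by simp) ▸ r1
  · simp only [add_mul _ _ (tt k rk D L n), one_mul]
    gcongr <;> omega

end Vale.Agent.P305
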