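import Vale.Agent.P305.Spec

open Finset

namespace Vale.Agent.P305

open Vale.Agent.P315

namespace RootProgAux

/-- The initial matrix over the natural numbers. -/
def iniN (n p : ℕ) (A D : ℕ → ℕ) (i j : ℕ) : ℕ :=
  if i < n then
    (if j < n then
      (if i < j ∧ A (i * n + j) ≠ 0 then D (i * n + j)
        else if j < i ∧ A (j * n + i) ≠ 0 then (p - 1) * D (j * n + i) else 0) +
        (if i = j then D (i * n + i) else 0)
      else if j < 3 * n ∧ j % n = i then 1 else 0)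
  else if i < 3 * n ∧ j < n ∧ i % n = j then p - 1 else 0

theorem cx_ini {i j : Env → Mem → ℕ} (hi : Cx i) (hj : Cx j) :
    Cx fun e m => iniN (m 6 0) (m 6 1) (m 16) (m 17) (i e m) (j e m) := by
  have hn := Cx.cell 6 0
  have hp := (Cx.cell 6 1).sub (Cx.const 1)
  have h0 := Cx.const 0
  have h3 := (Cx.const 3).mul hn
  have hij := (hi.mul hn).add hj
  have hji := (hj.mul hn).add hi
  exact Cx.ite (CxP.lt hi hn) (Cx.ite (CxP.lt hj hn)
    ((Cx.ite ((CxP.lt hi hj).and (CxP.ne (hij.get 16) h0)) (hij.get 17)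
      (Cx.ite ((CxP.lt hj hi).and (CxP.ne (hji.get 16) h0)) (hp.mul (hji.get 17)) h0)).add
      (Cx.ite (CxP.eq hi hj) (((hi.mul hn).add hi).get 17) h0))
    (Cx.ite ((CxP.lt hj h3).and (CxP.eq (hj.mod hn) hi)) (Cx.const 1) h0))
    (Cx.ite ((CxP.lt hi h3).and ((CxP.lt hj hn).and (CxP.eq (hi.mod hn) hj))) hp h0)

theorem cx_wm {s i : Env → Mem → ℕ} (hs : Cx s) (hi : Cx i) :
    Cx fun e m => wm (s e m) 0 0 (i e m) :=
  Cx.ite (CxP.lt hi hs) (((Cx.const 0).mul hs).add hi) (((Cx.const 0).mul hs).add (hi.sub hs))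

theorem cast_ini {k p n g : ℕ} {ad : ℕ → ℕ → Bool} {x : ℕ → ZMod p} {m : Mem} (hp : 0 < p)
    (h : Dat k p n g ad x m) (i j : ℕ) :
    (iniN n p (m 16) (m 17) i j : ZMod p) = ini n ad x i j := by
  have e : ((p - 1 : ℕ) : ZMod p) = -1 := by rw [Nat.cast_pred hp, ZMod.natCast_self, zero_sub]
  unfold iniN ini
  by_cases hi : i < n
  · rw [if_pos hi, if_pos hi]
    by_cases hj : j < n
    · rw [if_pos hj, if_pos hj]
      simp only [mh, tm, dm, h.adj i hi j hj, h.adj j hj i hi, zero_le, and_true]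
      push_cast
      rw [e, (h.dig _ (idx_lt hi hj)).2, (h.dig _ (idx_lt hj hi)).2, (h.dig _ (idx_lt hi hi)).2,
        neg_one_mul]
    · rw [if_neg hj, if_neg hj]
      push_cast
      rfl
  · rw [if_neg hi, if_neg hi, Nat.cast_ite, e, Nat.cast_zero]

end RootProgAux

open RootProgAux in
theorem p_rootProg : RootProg := by
  intro b hb L cN CN hN
  obtain ⟨c1, h1⟩ := put 8 (Cx.const (2 * L)) (Cx.const 0)
  obtain ⟨c2, h2⟩ := put 8 (Cx.const (2 * L + 1)) (Cx.const 0)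
  have hs : Cx fun _ m => m 9 (m 6 5 * L) := ((Cx.cell 6 5).mul (Cx.const L)).get 9
  obtain ⟨c3, h3⟩ := fill2 (30 + 3 * L) (by omega) ((Cx.const 2).mul hs)
    ((cx_ini (cx_wm hs (Cx.var 0)) (cx_wm hs (Cx.var 1))).mod (Cx.cell 6 1))
  refine ⟨.seq c1 (.seq c2 (.seq c3 cN)), CN + 5, fun V e m p hp n g ad x hT hD hD0 hpV hV hn => ?_⟩
  have p0 := hp.out.pos
  have k4 := hb.k4
  have kk := hb.kk
  have k16 : 16 ≤ b.k * b.k := Nat.mul_le_mul k4 k4
  have es : (b.k ^ g) ^ L = b.k ^ (g * L) := (pow_mul _ _ _).symm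
  have s1 : 1 ≤ (b.k ^ g) ^ L := Nat.one_le_pow _ _ (Nat.pow_pos (by omega))
  have b1 : 2 * (b.k ^ g) ^ L * (2 * (b.k ^ g) ^ L) ≤ b.rk ^ (g * L + 1) := by
    refine le_trans ?_ (Nat.pow_le_pow_left kk _)
    rw [pow_succ, mul_pow, ← es]
    nlinarith [Nat.mul_le_mul_left ((b.k ^ g) ^ L * (b.k ^ g) ^ L) k16]
  have b2 : (0 + 1) * (b.k ^ g) ^ L ≤ V := by nlinarith
  set m2 := (m.write 8 (2 * L) 0).write 8 (2 * L + 1) 0 with hm2
  have S2 : Same [8] m m2 := (Same.write _ _ _ _).trans (Same.write _ _ _ _)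
  have key : Tri V 0 (.seq c3 cN) e m2 (1 + 2 * (2 * (b.k ^ g) ^ L * (2 * (b.k ^ g) ^ L)) +
      CN * (g * L + 1 + 1) * (b.k ^ g) ^ 2 * (b.rk ^ g) ^ L) fun m' =>
      m' 3 = (rn n ad x (ini n ad x, m 3) (ord (b.k ^ g) L 0 0)).2 := by
    have e9 : ∀ m', Same [30 + 3 * L] m2 m' → ∀ a, a < 30 → a ≠ 8 → m' a = m a :=
      fun m' h a a1 a2 => (h a (by simp; omega)).trans (S2 a (by simpa using a2))
    have e0 : ∀ m', Same [30 + 3 * L] m2 m' → m' 9 (m' 6 5 * L) = (b.k ^ g) ^ L := fun m' h => by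
      rw [e9 m' h 9 (by omega) (by omega), e9 m' h 6 (by omega) (by omega), hD.hg,
        hT.pk _ (by omega), es]
    refine Tri.seq ((h3 V 0 e m2 (2 * (b.k ^ g) ^ L) (fun i j => iniN n p (m 16) (m 17)
      (wm ((b.k ^ g) ^ L) 0 0 i) (wm ((b.k ^ g) ^ L) 0 0 j) % p)
      (fun m' h => congrArg (2 * ·) (e0 m' h)) (b1.trans hV)
      (fun i _ j _ => (Nat.mod_lt _ p0).le.trans hpV) fun i _ j _ m' h _ => ?_).mono le_rfl
      fun m' hm' => ?_)
    · simp only [e0 m' h]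
      rw [e9 m' h 6 (by omega) (by omega), e9 m' h 16 (by omega) (by omega),
        e9 m' h 17 (by omega) (by omega), hD.hn, hT.hp]
      rfl
    · have e8 : m' 8 = m2 8 := hm'.1 8 (by simp; omega)
      refine (hN V e m' p n g (g * L + 1) ad x (ini n ad x) 0 0
        (hT.same fun a ha => e9 m' hm'.1 a (by omega) (by omega))
        (hD.same fun a ha => e9 m' hm'.1 a (by omega) (by omega)) hD0 le_rfl hpV hV hn b2 b2
        ?_ ?_ fun i hi j hj => ?_).mono le_rfl fun m'' h => ?_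
      · rw [e8, hm2, write_ne _ _ (Or.inr (by omega)), write_same]
      · rw [e8, hm2, write_same]
      · rw [hm'.2 i hi j hj]
        exact ⟨Nat.mod_lt _ p0, by rw [ZMod.natCast_mod, cast_ini p0 hD]⟩
      · rw [h.2.1, e9 m' hm'.1 3 (by omega) (by omega)]
  refine (Tri.seq ((h1 V 0 e m (Nat.zero_le _) fun _ => le_rfl).mono le_rfl fun m1 e1 =>
    Tri.seq ((h2 V 0 e m1 (Nat.zero_le _) fun _ => le_rfl).mono le_rfl fun m' e2 => by
      rw [e2, e1]; exact key))).mono ?_ fun _ h => h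
  have q1 : 1 ≤ (g * L + 2) * (b.k ^ g) ^ 2 :=
    Nat.mul_pos (by omega) (Nat.pow_pos (Nat.pow_pos (by omega)))
  have q2 : b.rk ^ (g * L + 1) ≤ (g * L + 2) * (b.k ^ g) ^ 2 * b.rk ^ (g * L + 1) :=
    Nat.le_mul_of_pos_left _ q1
  have q3 : (b.rk ^ g) ^ L ≤ b.rk ^ (g * L + 1) := by
    rw [← pow_mul]
    exact Nat.pow_le_pow_right (by omega) (by omega)
  have q4 : CN * (g * L + 1 + 1) * (b.k ^ g) ^ 2 * (b.rk ^ g) ^ L ≤
      CN * ((g * L + 2) * (b.k ^ g) ^ 2 * b.rk ^ (g * L + 1)) := by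
    rw [mul_assoc CN, mul_assoc CN]
    exact Nat.mul_le_mul_left _ (Nat.mul_le_mul_left _ q3)
  have q5 : 1 ≤ b.rk ^ (g * L + 1) := Nat.one_le_pow _ _ (by omega)
  rw [add_mul CN]
  omega

end Vale.Agent.P305
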