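import Vale.Agent.P305.Spec

open Finset

namespace Vale.Agent.P305

open Vale.Agent.P315

open Classical in
theorem SZ1Aux.sum_ind {Ω : Type} [Fintype Ω] (E : Ω → Prop) :
    ∑ ω, ind (E ω) = (univ.filter E).card := sum_boole E univ

theorem p_sz1 : SZ1 := by
  intro p _ N L A M hL hM hN
  classical
  have hd : (Matrix.of fun i j : A => M i j).det.totalDegree ≤ A.card := by
    rw [Matrix.det_apply]
    refine (MvPolynomial.totalDegree_finsetSum _ _).trans (Finset.sup_le fun σ _ => ?_)
    have h1 : (∏ i, (Matrix.of fun i j : A => M i j) (σ i) i).totalDegree ≤ A.card :=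
      (MvPolynomial.totalDegree_finsetProd _ _).trans
        ((sum_le_card_nsmul _ _ 1 fun i _ => hM _ _).trans (by simp))
    rcases Int.units_eq_one_or (Equiv.Perm.sign σ) with h | h
    · rwa [h, one_smul]
    · rwa [h, Units.neg_smul, one_smul, MvPolynomial.totalDegree_neg]
  have hi : Function.Injective fun a : Fin (2 ^ L) => ((a : ℕ) : ZMod p) := fun a b h => by
    have := (ZMod.natCast_eq_natCast_iff' a b p).1 h
    rwa [Nat.mod_eq_of_lt (a.2.trans_le hL), Nat.mod_eq_of_lt (b.2.trans_le hL), Fin.val_inj] at this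
  have hz := MvPolynomial.schwartz_zippel_totalDegree hN
    (univ.image fun a : Fin (2 ^ L) => ((a : ℕ) : ZMod p))
  rw [card_image_of_injective _ hi, card_fin] at hz
  have hz' := (NNRat.cast_le (K := ℝ)).2 hz
  push_cast at hz'
  refine le_trans ?_ (hz'.trans (div_le_div_of_nonneg_right (Nat.cast_le.2 hd) (by positivity)))
  rw [pr, Fintype.expect_eq_sum_div_card, Fintype.card_fun, Fintype.card_fin, Fintype.card_fin]
  push_cast
  refine div_le_div_of_nonneg_right ?_ (by positivity)
  rw [SZ1Aux.sum_ind]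
  refine Nat.cast_le.2 (card_le_card_of_injOn (fun η z => ((η z : ℕ) : ZMod p)) (fun η hη => ?_)
    fun η _ η' _ h => funext fun z => hi (congrFun h z))
  refine mem_filter.2 ⟨Fintype.mem_piFinset.2 fun z => mem_image_of_mem _ (mem_univ _), ?_⟩
  have h1 := ((@mem_filter _ _ (_) _ _).1 hη).2
  rwa [NS, not_not, ns_map (MvPolynomial.eval fun z => ((η z : ℕ) : ZMod p)) (M := M)
    fun _ _ _ _ => rfl] at h1

end Vale.Agent.P305
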