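import Vale.Agent.P305.Spec

open Finset

namespace Vale.Agent.P305

open Vale.Agent.P315

namespace SZ2Aux

open MvPolynomial

variable {F : Type} [Field F]

theorem xs_deg (n z : ℕ) : (xs F n z).totalDegree ≤ 1 := by
  unfold xs
  split_ifs
  · exact (totalDegree_X _).le
  · simp

theorem tm_deg (n : ℕ) (ad : ℕ → ℕ → Bool) (i j : ℕ) : (tm n ad (xs F n) i j).totalDegree ≤ 1 := by
  unfold tm
  split_ifs
  · exact xs_deg _ _
  · rw [totalDegree_neg]
    exact xs_deg _ _
  · simp

theorem mh_deg (n : ℕ) (ad : ℕ → ℕ → Bool) (h i j : ℕ) :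
    (mh n ad (xs F n) h i j).totalDegree ≤ 1 := by
  unfold mh dm
  refine (totalDegree_add _ _).trans (max_le (tm_deg n ad i j) ?_)
  split_ifs
  · exact xs_deg _ _
  · simp

theorem big_deg (n : ℕ) (ad : ℕ → ℕ → Bool) (i j : ℕ) :
    (big n ad (xs F n) i j).totalDegree ≤ 1 := by
  unfold big
  split_ifs
  · simp
  · simp
  · simp
  · simp
  · exact mh_deg n ad 0 _ _

theorem mh_pt {n : ℕ} (ad : ℕ → ℕ → Bool) {x : ℕ → F}
    (hx : ∀ i < n, ∀ j < n, x (i * n + j) = if i = j then 1 else 0) {i j : ℕ} (hi : i < n)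
    (hj : j < n) : mh n ad x 0 i j = if i = j then 1 else 0 := by
  unfold mh tm dm
  rw [hx i hi j hj, hx j hj i hi, hx i hi i hi]
  split_ifs <;> first | omega | simp

theorem big_pt {n : ℕ} (ad : ℕ → ℕ → Bool) {x : ℕ → F}
    (hx : ∀ i < n, ∀ j < n, x (i * n + j) = if i = j then 1 else 0) {h : ℕ} (hh : h < n) :
    NS (Ico (h + 1) (2 * n)) (big n ad x) := by
  rw [ns_iff]
  intro v hv
  have h1 : ∀ i, h + 1 ≤ i → i < n → v (i + n) = 0 := fun i a b => by
    have := hv i (mem_Ico.2 ⟨a, by omega⟩)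
    rw [sum_eq_single (i + n) (fun l _ hl => by simp [big, b, hl])
      (fun hl => absurd (mem_Ico.2 ⟨by omega, by omega⟩) hl)] at this
    simpa [big, b] using this
  have h2 : ∀ i, n ≤ i → i < 2 * n → v i + (if h + 1 + n ≤ i then v (i - n) else 0) = 0 :=
    fun i a b => by
    have := hv i (mem_Ico.2 ⟨by omega, b⟩)
    rw [sum_congr rfl (g := fun l => (if l = i then v l else 0) + if l = i - n then v l else 0)
      fun l hl => ?_, sum_add_distrib, sum_ite_eq', sum_ite_eq',
      if_pos (mem_Ico.2 ⟨by omega, b⟩)] at this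
    · refine Eq.trans (congrArg _ (if_congr ?_ rfl rfl)) this
      rw [mem_Ico]
      omega
    · rw [mem_Ico] at hl
      unfold big
      rw [if_neg (by omega)]
      by_cases c : l < n
      · rw [if_pos c]
        split_ifs <;> first | omega | simp
      · rw [if_neg c, mh_pt ad hx (by omega) (by omega)]
        split_ifs <;> first | omega | simp
  intro l hl
  rw [mem_Ico] at hl
  by_cases c : l < n
  · have := h2 (l + n) (by omega) (by omega)
    rwa [h1 l hl.1 c, zero_add, if_pos (by omega), Nat.add_sub_cancel] at this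
  · by_cases d : h + 1 + n ≤ l
    · have := h1 (l - n) (by omega) (by omega)
      rwa [Nat.sub_add_cancel (by omega)] at this
    · have := h2 l (by omega) hl.2
      rwa [if_neg d, add_zero] at this

theorem big_ns {n : ℕ} (ad : ℕ → ℕ → Bool) {h : ℕ} (hh : h < n) :
    NS (Ico (h + 1) (2 * n)) (big n ad (xs F n)) := by
  refine NS.of_map (eval fun z : Fin (n * n) => if z.val / n = z.val % n then (1 : F) else 0)
    (fun i _ j _ => big_map _ n ad _ i j) (big_pt ad (fun i hi j hj => ?_) hh)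
  unfold xs
  rw [dif_pos (idx_lt hi hj), eval_X, idx_div hj, idx_mod hj]

theorem bid_eq {R : Type} [CommRing R] (f : R →+* F) (n : ℕ) (ad : ℕ → ℕ → Bool) (x : ℕ → R)
    (H : ∀ h < n, NS (bid n ad x h ∪ Ico h n) (mh n ad x (h + 1)) →
      NS (bid n ad x h ∪ Ico h n) (mh n ad (fun z => f (x z)) (h + 1))) :
    ∀ h ≤ n, bid n ad (fun z => f (x z)) h = bid n ad x h := by
  classical
  intro h
  induction h with
  | zero => exact fun _ => rfl
  | succ h ih =>
    intro hh
    rw [bid, bid, ih (by omega)]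
    exact if_congr ⟨NS.of_map f fun i _ j _ => mh_map f n ad x _ i j, H h (by omega)⟩ rfl rfl

end SZ2Aux

open SZ2Aux in
theorem p_sz2 (h1 : SZ1) : SZ2 := by
  intro p _ n L ad hL hp
  have hx : ∀ η : Fin (n * n) → Fin (2 ^ L), (fun z => ((bv η z : ℕ) : ZMod p)) = fun z =>
      MvPolynomial.eval (fun z => ((η z : ℕ) : ZMod p)) (xs (ZMod p) n z) := fun η => by
    funext z
    unfold bv xs
    split_ifs <;> simp
  have a1 := pr_exists_lt n (fun h (η : Fin (n * n) → Fin (2 ^ L)) =>
    ¬NS (Ico (h + 1) (2 * n)) fun i j =>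
      MvPolynomial.eval (fun z => ((η z : ℕ) : ZMod p)) (big n ad (xs (ZMod p) n) i j))
    (c := 2 * n / 2 ^ L) fun h hh => by
      refine (h1 p _ L _ _ hp (big_deg n ad) (big_ns ad hh)).trans ?_
      have : (Ico (h + 1) (2 * n)).card ≤ 2 * n := by
        rw [Nat.card_Ico]
        omega
      gcongr
      exact_mod_cast this
  have a2 := pr_exists_lt n (fun h (η : Fin (n * n) → Fin (2 ^ L)) =>
    NS (bid n ad (xs (ZMod p) n) h ∪ Ico h n) (mh n ad (xs (ZMod p) n) (h + 1)) ∧
    ¬NS (bid n ad (xs (ZMod p) n) h ∪ Ico h n) fun i j =>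
      MvPolynomial.eval (fun z => ((η z : ℕ) : ZMod p)) (mh n ad (xs (ZMod p) n) (h + 1) i j))
    (c := n / 2 ^ L) fun h hh => by
      by_cases c : NS (bid n ad (xs (ZMod p) n) h ∪ Ico h n) (mh n ad (xs (ZMod p) n) (h + 1))
      · refine (pr_mono fun η hη => hη.2).trans
          ((h1 p _ L _ _ hp (mh_deg n ad (h + 1)) c).trans ?_)
        have : (bid n ad (xs (ZMod p) n) h ∪ Ico h n).card ≤ (range n).card :=
          card_le_card (union_subset ((bid_sub n ad _ h).trans (range_mono hh.le))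
            fun i hi => mem_range.2 (mem_Ico.1 hi).2)
        rw [card_range] at this
        gcongr
      · have := pr_exists_lt 0 (fun _ (_ : Fin (n * n) → Fin (2 ^ L)) => True) (c := 0)
          fun _ hi => absurd hi (Nat.not_lt_zero _)
        refine (pr_mono fun η hη => absurd hη.1 c).trans (this.trans ?_)
        rw [mul_zero]
        positivity
  refine (pr_mono fun η hη => ?_).trans ((pr_or _ _).trans ((add_le_add a1 a2).trans ?_))
  · by_contra hc
    rw [not_or, not_exists, not_exists] at hc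
    apply hη
    rw [hx η]
    refine ⟨fun h hh => ?_, bid_eq _ n ad _ (fun h hh hN => ?_) n le_rfl⟩
    · exact NS.congr (fun i _ j _ => big_map _ n ad _ i j)
        (not_not.1 fun h0 => hc.1 h ⟨hh, h0⟩)
    · exact NS.congr (fun i _ j _ => mh_map _ n ad _ _ i j)
        (not_not.1 fun h0 => hc.2 h ⟨hh, hN, h0⟩)
  · have : (12 : ℝ) * (n * n) ≤ 2 ^ L := by exact_mod_cast hL
    have e : (n : ℝ) * (2 * n / 2 ^ L) + n * (n / 2 ^ L) = 3 * (n * n) / 2 ^ L := by ring
    rw [e, div_le_iff₀ (by positivity)]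
    nlinarith [mul_self_nonneg (n : ℝ)]

end Vale.Agent.P305
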