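import Vale.Agent.P305.Spec

open Finset

namespace Vale.Agent.P305

open Vale.Agent.P315

namespace SieveAux

theorem harm (M K : ℕ) : ∑ i ∈ range (2 ^ K), M / (i + 2) ≤ (K + 1) * M := by
  induction K with
  | zero =>
    simp only [pow_zero, range_one, sum_singleton, zero_add, one_mul]
    exact Nat.div_le_self _ _
  | succ K ih =>
    rw [pow_succ, mul_two, sum_range_add]
    have h1 : ∑ i ∈ range (2 ^ K), M / (2 ^ K + i + 2) ≤ ∑ _i ∈ range (2 ^ K), M / 2 ^ K :=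
      sum_le_sum fun i _ => Nat.div_le_div_left (by omega) (by positivity)
    rw [sum_const, card_range, smul_eq_mul] at h1
    have h2 : 2 ^ K * (M / 2 ^ K) ≤ M := Nat.mul_div_le _ _
    have h3 : (K + 1 + 1) * M = (K + 1) * M + M := by ring
    omega

/-- The invariant of the sieve. -/
def Inv (M i : ℕ) (m m' : Mem) : Prop :=
  Same [19] m m' ∧ (∀ y, m' 19 y ≠ 0 → ¬y.Prime) ∧
    ∀ a b, 2 ≤ a → a < i + 2 → 2 ≤ b → a * b ≤ M → m' 19 (a * b) ≠ 0

theorem keep {m : Mem} {z y : ℕ} (h : m 19 y ≠ 0) : m.write 19 z 1 19 y ≠ 0 := by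
  by_cases hy : y = z
  · rw [hy, write_same]; exact one_ne_zero
  · rw [write_ne _ _ (Or.inr hy)]; exact h

theorem phase1 : ∃ c : Cmd, ∀ (V : ℕ) (e : Env) (m : Mem) (M : ℕ), 2 * m 6 6 = M →
    (∀ i, m 19 i = 0) → M ≤ V → 1 ≤ V →
    Tri V 0 c e m (1 + ∑ i ∈ range M, (1 + (1 + ∑ _j ∈ range (M / (i + 2)), (1 + 1))))
      (Inv M M m) := by
  obtain ⟨tM, htM⟩ := (Cx.const 2).mul (Cx.cell 6 6)
  obtain ⟨tI, htI⟩ := ((Cx.const 2).mul (Cx.cell 6 6)).div ((Cx.var 0).add (Cx.const 2))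
  obtain ⟨tW, htW⟩ := ((Cx.var 1).add (Cx.const 2)).mul ((Cx.var 0).add (Cx.const 2))
  beta_reduce at htM htI htW
  refine ⟨.rep tM (.rep tI (.wr 19 tW (.const 1))), fun V e m M hM h0 hV hV1 => ?_⟩
  have eM : tM.eval m e = M := by rw [htM, hM]
  have := Tri.rep (V := V) (S := 0) (e := e) (m := m) (n := tM)
    (p := .rep tI (.wr 19 tW (.const 1))) (fun i => Inv M i m)
    (fun i => 1 + ∑ _j ∈ range (M / (i + 2)), (1 + 1)) (by rwa [eM])
    ⟨Same.refl _ _, fun y hy => absurd (h0 y) hy, fun a b h1 h2 => by omega⟩ (by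
      intro i _ m' hm'
      have eI : tI.eval m' (cons i e) = M / (i + 2) := by
        rw [htI, hm'.1 6 (by simp), hM]; rfl
      have := Tri.rep (V := V) (S := 0) (e := cons i e) (m := m') (n := tI)
        (p := .wr 19 tW (.const 1))
        (fun j m'' => Inv M i m m'' ∧ ∀ b, 2 ≤ b → b < j + 2 → m'' 19 ((i + 2) * b) ≠ 0)
        (fun _ => 1) (by rw [eI]; exact (Nat.div_le_self _ _).trans hV)
        ⟨hm', fun b h1 h2 => by omega⟩ (by
          rintro j _ m'' ⟨⟨h1, h2, h3⟩, h4⟩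
          have eW : tW.eval m'' (cons j (cons i e)) = (i + 2) * (j + 2) := by rw [htW]; rfl
          refine Tri.wr hV1 (fun h => absurd h (by norm_num)) ?_
          rw [eW]
          refine ⟨⟨h1.trans (Same.write _ _ _ _), fun y hy => ?_,
            fun a b a1 a2 a3 a4 => keep (h3 a b a1 a2 a3 a4)⟩, fun b b1 b2 => ?_⟩
          · by_cases hz : y = (i + 2) * (j + 2)
            · rw [hz]; exact Nat.not_prime_mul (by omega) (by omega)
            · rw [write_ne _ _ (Or.inr hz)] at hy; exact h2 y hy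
          · by_cases hb : b = j + 2
            · rw [hb, write_same]; exact one_ne_zero
            · exact keep (h4 b b1 (by omega)))
      rw [eI] at this
      refine this.mono le_rfl ?_
      rintro m'' ⟨⟨h1, h2, h3⟩, h4⟩
      refine ⟨h1, h2, fun a b a1 a2 a3 a4 => ?_⟩
      by_cases ha : a = i + 2
      · subst ha
        have : b ≤ M / (i + 2) := (Nat.le_div_iff_mul_le (by omega)).2 (by rwa [mul_comm])
        exact h4 b a3 (by omega)
      · exact h3 a b a1 (by omega) a3 a4)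
  rwa [eM] at this

theorem phase2 : ∃ c : Cmd, ∀ (V : ℕ) (e : Env) (m : Mem) (Q : ℕ), m 6 6 = Q → Q ≠ 0 →
    (∀ y, Q < y → y ≤ 2 * Q → (m 19 y = 0 ↔ y.Prime)) → 2 * Q ≤ V →
    Tri V 0 c e m (1 + ∑ _i ∈ range Q, (1 + (1 + 1))) fun m' => Same [6] m m' ∧
      (∀ i, i ≠ 1 → m' 6 i = m 6 i) ∧ (m' 6 1).Prime ∧ Q < m' 6 1 ∧ m' 6 1 ≤ 2 * Q := by
  obtain ⟨tQ, htQ⟩ := Cx.cell 6 6
  have hx := ((Cx.cell 6 6).add (Cx.const 1)).add (Cx.var 0)
  obtain ⟨tC, htC⟩ := CxP.eq (Cx.get 19 hx) (Cx.const 0)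
  obtain ⟨tX, htX⟩ := hx
  beta_reduce at htQ htC htX
  refine ⟨.rep tQ (.when tC (.wr 6 (.const 1) tX)), fun V e m Q hQ hQ0 hP hV => ?_⟩
  have eQ : tQ.eval m e = Q := by rw [htQ, hQ]
  have := Tri.rep (V := V) (S := 0) (e := e) (m := m) (n := tQ)
    (p := .when tC (.wr 6 (.const 1) tX))
    (fun i m' => Same [6] m m' ∧ (∀ k, k ≠ 1 → m' 6 k = m 6 k) ∧
      ∀ y, y.Prime → Q < y → y ≤ Q + i → (m' 6 1).Prime ∧ Q < m' 6 1 ∧ m' 6 1 ≤ 2 * Q)
    (fun _ => 1 + 1) (by rw [eQ]; omega)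
    ⟨Same.refl _ _, fun _ _ => rfl, fun y _ h1 h2 => by omega⟩ (by
      rintro i hi m' ⟨h1, h2, h3⟩
      rw [eQ] at hi
      have e6 : m' 6 6 = Q := by rw [h2 6 (by norm_num), hQ]
      have eC : tC.eval m' (cons i e) ≠ 0 ↔ (Q + 1 + i).Prime := by
        rw [htC, e6, h1 19 (by simp)]
        exact hP _ (by show Q < Q + 1 + i; omega) (by show Q + 1 + i ≤ 2 * Q; omega)
      have eX : tX.eval m' (cons i e) = Q + 1 + i := by rw [htX, e6]; rfl
      by_cases hp : (Q + 1 + i).Prime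
      · refine Tri.when_pos (eC.2 hp) (Tri.wr (by rw [eX]; omega)
          (fun h => absurd h (by norm_num)) ?_)
        rw [eX]
        refine ⟨h1.trans (Same.write _ _ _ _), fun k hk => ?_, fun y _ _ _ => ?_⟩
        · rw [← h2 k hk]; exact write_ne _ _ (Or.inr hk)
        · have : m'.write 6 (Term.eval m' (.const 1) (cons i e)) (Q + 1 + i) 6 1 = Q + 1 + i :=
            write_same _ _ _ _
          rw [this]
          exact ⟨hp, by omega, by omega⟩
      · refine (Tri.when_neg (by_contra fun h => hp (eC.1 h)) ?_).mono (by norm_num) fun _ h => h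
        refine ⟨h1, h2, fun y y1 y2 y3 => h3 y y1 y2 ?_⟩
        have : y ≠ Q + 1 + i := fun h => hp (h ▸ y1)
        omega)
  rw [eQ] at this
  refine this.mono le_rfl ?_
  rintro m' ⟨h1, h2, h3⟩
  obtain ⟨p, p1, p2, p3⟩ := Nat.exists_prime_lt_and_le_two_mul Q hQ0
  exact ⟨h1, h2, h3 p p1 p2 (by omega)⟩

end SieveAux

theorem p_sieve : Sieve := by
  obtain ⟨c1, h1⟩ := SieveAux.phase1
  obtain ⟨c2, h2⟩ := SieveAux.phase2
  refine ⟨.seq c1 c2, 9, fun V e m L hL h0 hV => ?_⟩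
  have hQ : 1 ≤ 2 ^ L := Nat.one_le_two_pow
  have k1 := h1 V e m (2 * 2 ^ L) (by rw [hL]) h0 (by omega) (by omega)
  refine (Tri.seq (k1.mono le_rfl fun m1 hm1 => (h2 V e m1 (2 ^ L)
    (by rw [hm1.1 6 (by simp), hL]) (by omega) (fun y y1 y2 => ?_) (by omega)).mono le_rfl
      fun m2 hm2 => ?_)).mono ?_ fun _ h => h
  · refine ⟨fun hy => ?_, fun hy => by_contra fun h => hm1.2.1 y h hy⟩
    by_contra hp
    obtain ⟨a, b, ha, hb, hab⟩ := (Nat.not_prime_iff_exists_mul_eq (by omega)).1 hp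
    have a2 : 2 ≤ a := by
      rcases a with _ | _ | a
      · omega
      · omega
      · omega
    have b2 : 2 ≤ b := by
      rcases b with _ | _ | b
      · omega
      · omega
      · omega
    exact hm1.2.2 a b a2 (by omega) b2 (by omega) (by rw [hab]; exact hy)
  · refine ⟨(hm1.1.mono (by simp)).trans (hm2.1.mono (by simp)), fun i hi => ?_, hm2.2.2⟩
    rw [hm2.2.1 i hi, hm1.1 6 (by simp)]
  · have k := SieveAux.harm (2 * 2 ^ L) (L + 1)
    rw [pow_succ, mul_comm (2 ^ L) 2] at k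
    simp only [sum_add_distrib, sum_const, card_range, smul_eq_mul, mul_one]
    have e1 : (L + 1 + 1) * (2 * 2 ^ L) = 2 * ((L + 2) * 2 ^ L) := by ring
    have e2 : 2 * 2 ^ L ≤ (L + 2) * 2 ^ L := Nat.mul_le_mul_right _ (by omega)
    omega

end Vale.Agent.P305
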