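import Vale.Agent.P305.Basic

/-! The statements of the steps of the proof. -/

open Finset

namespace Vale.Agent.P305

open Vale.Agent.P315

/-! ### Kernels and the order of the pairs -/

def KerComp : Prop := ∀ (F : Type) [Field F] (m m' : ℕ) (N0 X1 X' : Mx F) (e : ℕ → ℕ),
  (∀ a < m', e a < m) → ∃ X2 : Mx F, ∀ (N : Mx F) (w w' : ℕ → ℕ),
    (∀ a < m, ∀ b < m, N (w a) (w b) = N0 a b) → (∀ a < m', w' a = w (e a)) →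
    kupd (kupd N w m X1) w' m' X' = kupd N w m X2

def KerAug : Prop := ∀ (F : Type) [Field F] (m : ℕ) (N0 X : Mx F), ∀ i < m, ∀ j < m,
  kupd (aug m N0) id m X (m + i) (m + j) = -X i j ∧
    ∀ (N : Mx F) (w : ℕ → ℕ), (∀ a < m, ∀ b < m, N (w a) (w b) = N0 a b) →
      kupd (aug m N0) id m X i j = kupd N w m X (w i) (w j)

def OrdS : Prop := ∀ q d n : ℕ, 1 ≤ q → 3 * n ≤ q ^ d → ∃ l : List (ℕ × ℕ), l.Nodup ∧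
  (∀ z, z ∈ l ↔ 2 * n ≤ z.1 ∧ z.1 < z.2 ∧ z.2 < 3 * n) ∧
  (ord q d 0 0).filter (fun z => decide (Act n z)) =
    ((List.range (2 * n)).map fun u => (u, u)) ++ l

/-! ### Updates of the inverse -/

def GElim : Prop := ∀ (F : Type) [Field F] (A : Finset ℕ) (M N : Mx F) (u : ℕ), GInv A M N →
  u ∈ A → (N u u ≠ 0 → GInv (A.erase u) M (upd N u u (N u u)⁻¹ 0)) ∧
    (NS (A.erase u) M → N u u ≠ 0)

def GLoop : Prop := ∀ (F : Type) [Field F] (A : Finset ℕ) (M M' N : Mx F) (u : ℕ) (δ : F),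
  GInv A M N → u ∈ A → (∀ i ∈ A, ∀ j ∈ A, M' i j = M i j - if i = u ∧ j = u then δ else 0) →
    (δ * N u u ≠ 1 → GInv A M' (upd N u u (δ * (δ * N u u - 1)⁻¹) 0)) ∧
    (δ * N u u = 1 → ¬NS A M')

def GSkew : Prop := ∀ (F : Type) [Field F] (A : Finset ℕ) (M N : Mx F), GInv A M N →
  (∀ i ∈ A, ∀ j ∈ A, M i j = -M j i) → ∀ i j, N i j = -N j i

def GMatch : Prop := ∀ (F : Type) [Field F] (A : Finset ℕ) (M N : Mx F) (u v : ℕ), GInv A M N →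
  u ≠ v → N u u = 0 → N v v = 0 → N v u = -N u v → N u v ≠ 0 →
    GInv ((A.erase u).erase v) M (upd N u v 0 (N u v)⁻¹)

def GDel : Prop := ∀ (F : Type) [Field F] (A : Finset ℕ) (M M' N : Mx F) (u v : ℕ) (t : F),
  GInv A M N → u ≠ v → N u u = 0 → N v v = 0 → N u v = 0 → N v u = 0 →
    (∀ i ∈ A, ∀ j ∈ A,
      M' i j = M i j - if i = u ∧ j = v then t else if i = v ∧ j = u then -t else 0) →
    GInv A M' (upd N u v 0 t)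

/-! ### The three phases -/

def Phase1 : Prop := ∀ (F : Type) [Field F] (n : ℕ) (ad : ℕ → ℕ → Bool) (x : ℕ → F) (f : ℕ → ℕ),
  (∀ h < n, NS (Ico (h + 1) (2 * n)) (big n ad x)) →
    St2 n (rn n ad x (ini n ad x, f) ((List.range n).map fun u => (u, u))).1 (range n)
      (mh n ad x 0) ∧
    (rn n ad x (ini n ad x, f) ((List.range n).map fun u => (u, u))).2 = f

def Phase2 : Prop := ∀ (F : Type) [Field F] (n : ℕ) (ad : ℕ → ℕ → Bool) (x : ℕ → F) (N : Mx F)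
  (f : ℕ → ℕ), St2 n N (range n) (mh n ad x 0) →
    St2 n (rn n ad x (N, f) ((List.range n).map fun u => (n + u, n + u))).1 (bid n ad x n)
      (tm n ad x) ∧
    (rn n ad x (N, f) ((List.range n).map fun u => (n + u, n + u))).2 = f

def Phase3 : Prop := ∀ (F : Type) [Field F], (2 : F) ≠ 0 → ∀ (n : ℕ) (ad : ℕ → ℕ → Bool)
  (x : ℕ → F) (N : Mx F) (B : Finset ℕ) (l : List (ℕ × ℕ)), B ⊆ range n →
    St2 n N B (tm n ad x) → l.Nodup → (∀ z, z ∈ l ↔ 2 * n ≤ z.1 ∧ z.1 < z.2 ∧ z.2 < 3 * n) →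
    Mate ad B (rn n ad x (N, fun _ => 0) l).2

/-! ### Maximality -/

def MaxB : Prop := ∀ (K : Type) [Field K], (2 : K) ≠ 0 → ∀ (T : Mx K) (U B B0 : Finset ℕ),
  (∀ i j, T i j = -T j i) → B ⊆ U → B0 ⊆ U → NS B T → NS B0 T →
    (∀ B', B ⊆ B' → B' ⊆ U → NS B' T → B' = B) → B0.card ≤ B.card

def SubS : Prop := ∀ (F : Type) [Field F] (n : ℕ) (ad : ℕ → ℕ → Bool) (h : ℕ) (A B' : Finset ℕ),
  B' ⊆ A → A ⊆ range n → (∀ i ∈ A, i ∉ B' → h ≤ i) → NS B' (tm n ad (xs F n)) →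
    NS A (mh n ad (xs F n) h)

def Ideal : Prop := ∀ (F : Type) [Field F], (2 : F) ≠ 0 → ∀ (n : ℕ) (ad : ℕ → ℕ → Bool)
  (B0 : Finset ℕ), B0 ⊆ range n → NS (bid n ad (xs F n) n) (tm n ad (xs F n)) →
    NS B0 (tm n ad (xs F n)) → B0.card ≤ (bid n ad (xs F n) n).card

def SZ1 : Prop := ∀ (p : ℕ) [Fact p.Prime] (N L : ℕ) (A : Finset ℕ)
  (M : Mx (MvPolynomial (Fin N) (ZMod p))), 2 ^ L ≤ p → (∀ i j, (M i j).totalDegree ≤ 1) →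
    NS A M → pr (fun η : Fin N → Fin (2 ^ L) => ¬NS A fun i j =>
      MvPolynomial.eval (fun z => ((η z : ℕ) : ZMod p)) (M i j)) ≤ (A.card : ℝ) / 2 ^ L

def SZ2 : Prop := ∀ (p : ℕ) [Fact p.Prime] (n L : ℕ) (ad : ℕ → ℕ → Bool), 12 * (n * n) ≤ 2 ^ L →
  2 ^ L ≤ p → pr (fun η : Fin (n * n) → Fin (2 ^ L) =>
    ¬Good n ad fun z => ((bv η z : ℕ) : ZMod p)) ≤ 1 / 3

def CardS : Prop := ∀ (n : ℕ) (G : SimpleGraph (Fin n)) (M : G.Subgraph), M.IsMatching →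
  M.verts.ncard = 2 * M.edgeSet.ncard

def Graph1 : Prop := ∀ (F : Type) [Field F] (n : ℕ) (G : SimpleGraph (Fin n)) (ad : ℕ → ℕ → Bool),
  (∀ u v : Fin n, ad u v = true ↔ G.Adj u v) → ∀ M : G.Subgraph, M.IsMatching →
    ∃ B0 : Finset ℕ, B0 ⊆ range n ∧ B0.card = 2 * M.edgeSet.ncard ∧ ∃ x : ℕ → F, NS B0 (tm n ad x)

def Graph2 : Prop := ∀ (n : ℕ) (G : SimpleGraph (Fin n)) (ad : ℕ → ℕ → Bool),
  (∀ u v : Fin n, ad u v = true ↔ G.Adj u v) → ∀ (B : Finset ℕ) (f : ℕ → ℕ), B ⊆ range n →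
    Mate ad B f → ∃ M : G.Subgraph, M.IsMatching ∧ (∀ u v : Fin n, M.Adj u v ↔ f u = v + 1) ∧
      B.card = 2 * M.edgeSet.ncard

def Correct : Prop := ∀ (F : Type) [Field F], (2 : F) ≠ 0 → ∀ (n : ℕ) (G : SimpleGraph (Fin n))
  (ad : ℕ → ℕ → Bool), (∀ u v : Fin n, ad u v = true ↔ G.Adj u v) → ∀ (x : ℕ → F) (q d : ℕ),
    1 ≤ q → 3 * n ≤ q ^ d → Good n ad x →
    MaxMatching G (rn n ad x (ini n ad x, fun _ => 0) (ord q d 0 0)).2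

/-! ### Fast matrix multiplication -/

def BilS : Prop := ∀ ε : ℝ, 0 < ε → ∃ b : Bil, b.Ok ∧ (b.rk : ℝ) ≤ (b.k : ℝ) ^ (9 / 4 + ε)

def ZS : Prop := ∀ k : ℕ, 2 ≤ k → ∀ j : ℕ,
  (∀ z < (k * k) ^ j, row k z < k ^ j ∧ col k z < k ^ j ∧ ∀ τ < k * k,
    row k (τ * (k * k) ^ j + z) = τ / k * k ^ j + row k z ∧
    col k (τ * (k * k) ^ j + z) = τ % k * k ^ j + col k z) ∧
  ∀ i < k ^ j, ∀ l < k ^ j, zi k i * k + zi k l < (k * k) ^ j ∧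
    row k (zi k i * k + zi k l) = i ∧ col k (zi k i * k + zi k l) = l

def YCongr : Prop := ∀ (R : Type) [CommRing R] (Pi Po : ℕ) (co : ℕ → ℕ → R) (j : ℕ)
  (x y : ℕ → R) (z : ℕ), (∀ l < Pi ^ j, x l = y l) → yat Pi Po co j x z = yat Pi Po co j y z

def YMath : Prop := ∀ b : Bil, b.Ok → ∀ (F : Type) [Field F] (μ : F), μ * b.D = 1 →
  ∀ (j : ℕ) (A B : Mx F), ∀ z < (b.k * b.k) ^ j,
    yat b.rk (b.k * b.k) (fun σ s => μ * b.γ σ s) j (fun s =>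
      yat (b.k * b.k) b.rk (fun s τ => (b.α s τ : F)) j (fun y => A (row b.k y) (col b.k y)) s *
      yat (b.k * b.k) b.rk (fun s τ => (b.β s τ : F)) j (fun y => B (row b.k y) (col b.k y)) s) z =
    ∑ a ∈ range (b.k ^ j), A (row b.k z) a * B a (col b.k z)

/-! ### Programs -/

def YProg : Prop := ∀ (a ai ao Pi Po rk : ℕ) (co : ℕ → ℕ → ℤ), 20 ≤ a → ai < 20 → ao < 20 →
  1 ≤ Pi → Pi ≤ rk → 1 ≤ Po → Po ≤ rk → ∃ (c : Cmd) (C : ℕ), ∀ (V : ℕ) (e : Env) (m : Mem) (p : ℕ)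
    [Fact p.Prime] (j : ℕ) (x : ℕ → ZMod p), m 6 1 = p → m 7 0 = j →
    (∀ i ≤ j, m ai i = Pi ^ i ∧ m ao i = Po ^ i) → m 11 j = rk ^ j → p ≤ V → rk ^ j ≤ V → j ≤ V →
    (∀ z < Pi ^ j, (m a z : ZMod p) = x z) →
    Tri V 0 c e m (C * (j + 1) * rk ^ j) fun m' => Same [a] m m' ∧ ∀ z < Po ^ j,
      (m' a (j * rk ^ j + z) : ZMod p) =
        yat Pi Po (fun s τ => (m 7 1 : ZMod p) * (co s τ : ZMod p)) j x z

def MMSpec (b : Bil) (c : Cmd) (C : ℕ) : Prop :=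
  ∀ (V : ℕ) (e : Env) (m : Mem) (p : ℕ) [Fact p.Prime] (J j : ℕ) (A B : Mx (ZMod p)),
    Tab b.k b.rk p J m → (b.D : ZMod p) ≠ 0 → j ≤ J → m 7 0 = j → p ≤ V → b.rk ^ J ≤ V →
    Rep p m 20 (b.k ^ j) A → Rep p m 21 (b.k ^ j) B →
    Tri V 0 c e m (C * (j + 1) * b.rk ^ j) fun m' => Same [7, 22, 23, 24, 25] m m' ∧ m' 7 0 = j ∧
      Rep p m' 22 (b.k ^ j) fun i l => ∑ a ∈ range (b.k ^ j), A i a * B a l

def MMProg : Prop := ∀ b : Bil, b.Ok → ∃ c C, MMSpec b c C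

def UpdSpec (b : Bil) (d : ℕ) (c : Cmd) (C : ℕ) : Prop :=
  ∀ (V : ℕ) (e : Env) (m : Mem) (p : ℕ) [Fact p.Prime] (g J : ℕ) (A X : Mx (ZMod p)),
    Tab b.k b.rk p J m → (b.D : ZMod p) ≠ 0 → m 6 2 = b.k ^ g → m 6 5 = g →
    g * (d + 1) + 1 ≤ J → p ≤ V → b.rk ^ J ≤ V → e 0 < b.k ^ g * b.k ^ g →
    Rep p m (35 + 3 * d) (b.k ^ (g * (d + 1) + 1)) A → Rep p m (31 + 3 * d) (2 * (b.k ^ g) ^ d) X →
    Tri V 0 c e m (C * (J + 1) * b.rk ^ (g * (d + 1) + 1)) fun m' =>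
      Same [7, 20, 21, 22, 23, 24, 25, 35 + 3 * d] m m' ∧
      Rep p m' (35 + 3 * d) (b.k ^ (g * (d + 1) + 1))
        (kupd A (em ((b.k ^ g) ^ d) (b.k ^ g) (e 0)) (2 * (b.k ^ g) ^ d) X)

def UpdProg : Prop := ∀ b : Bil, b.Ok → ∀ cM CM, MMSpec b cM CM → ∀ d, ∃ c C, UpdSpec b d c C

def NodeSpec (b : Bil) (d : ℕ) (c : Cmd) (C : ℕ) : Prop :=
  ∀ (V : ℕ) (e : Env) (m : Mem) (p : ℕ) [Fact p.Prime] (n g J : ℕ) (ad : ℕ → ℕ → Bool)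
    (x : ℕ → ZMod p) (N : Mx (ZMod p)) (r c0 : ℕ),
    Tab b.k b.rk p J m → Dat b.k p n g ad x m → (b.D : ZMod p) ≠ 0 → g * d + 1 ≤ J → p ≤ V →
    b.rk ^ J ≤ V → n ≤ V → (r + 1) * (b.k ^ g) ^ d ≤ V → (c0 + 1) * (b.k ^ g) ^ d ≤ V →
    m 8 (2 * d) = r → m 8 (2 * d + 1) = c0 →
    Rep p m (30 + 3 * d) (2 * (b.k ^ g) ^ d)
      (fun i j => N (wm ((b.k ^ g) ^ d) r c0 i) (wm ((b.k ^ g) ^ d) r c0 j)) →
    Tri V 0 c e m (C * (J + 1) * (b.k ^ g) ^ 2 * (b.rk ^ g) ^ d) fun m' => Fr d m m' ∧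
      m' 3 = (rn n ad x (N, m 3) (ord (b.k ^ g) d r c0)).2 ∧
      ∃ X, Rep p m' (31 + 3 * d) (2 * (b.k ^ g) ^ d) X ∧
        (rn n ad x (N, m 3) (ord (b.k ^ g) d r c0)).1 =
          kupd N (wm ((b.k ^ g) ^ d) r c0) (2 * (b.k ^ g) ^ d) X

def LeafProg : Prop := ∀ b : Bil, b.Ok → ∃ c C, NodeSpec b 0 c C

def StepProg : Prop := ∀ b : Bil, b.Ok → ∀ d cU CU cN CN, UpdSpec b d cU CU → NodeSpec b d cN CN →
  ∃ c C, NodeSpec b (d + 1) c C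

def RootProg : Prop := ∀ b : Bil, b.Ok → ∀ L cN CN, NodeSpec b L cN CN → ∃ (c : Cmd) (C : ℕ),
  ∀ (V : ℕ) (e : Env) (m : Mem) (p : ℕ) [Fact p.Prime] (n g : ℕ) (ad : ℕ → ℕ → Bool)
    (x : ℕ → ZMod p), Tab b.k b.rk p (g * L + 1) m → Dat b.k p n g ad x m → (b.D : ZMod p) ≠ 0 →
    p ≤ V → b.rk ^ (g * L + 1) ≤ V → n ≤ V →
    Tri V 0 c e m (C * ((g * L + 2) * (b.k ^ g) ^ 2 * b.rk ^ (g * L + 1))) fun m' =>
      m' 3 = (rn n ad x (ini n ad x, m 3) (ord (b.k ^ g) L 0 0)).2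

def ParA : Prop := ∀ k D L : ℕ, 4 ≤ k → 1 ≤ L → ∃ (c : Cmd) (C : ℕ),
  ∀ (V : ℕ) (e : Env) (m : Mem) (n : ℕ), m 0 0 = n → (k ^ L) ^ gg k L n ≤ V → 2 ^ lb D n ≤ V →
    Tri V 0 c e m (C * 2 ^ lb D n) fun m' => Same [4, 6] m m' ∧ m' 6 0 = n ∧
      m' 6 2 = k ^ gg k L n ∧ m' 6 3 = n * n ∧ m' 6 4 = lb D n ∧ m' 6 5 = gg k L n ∧
      m' 6 6 = 2 ^ lb D n

def ParB : Prop := ∀ k rk L : ℕ, 4 ≤ k → k * k ≤ rk → ∃ (c : Cmd) (C : ℕ),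
  ∀ (V : ℕ) (e : Env) (m : Mem) (g : ℕ), m 6 5 = g → rk ^ (g * L + 1) ≤ V →
    Tri V 0 c e m (C * rk ^ (g * L + 1)) fun m' => Same [9, 10, 11, 12, 13, 14] m m' ∧
      (∀ i ≤ g * L + 1, m' 9 i = k ^ i ∧ m' 10 i = (k * k) ^ i ∧ m' 11 i = rk ^ i) ∧
      (∀ z < (k * k) ^ (g * L + 1), m' 12 z = row k z ∧ m' 13 z = col k z) ∧
      ∀ i < k ^ (g * L + 1), m' 14 i = zi k i

def Sieve : Prop := ∃ (c : Cmd) (C : ℕ), ∀ (V : ℕ) (e : Env) (m : Mem) (L : ℕ), m 6 6 = 2 ^ L →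
  (∀ i, m 19 i = 0) → 4 * 2 ^ L ≤ V →
    Tri V 0 c e m (C * ((L + 2) * 2 ^ L)) fun m' => Same [6, 19] m m' ∧
      (∀ i, i ≠ 1 → m' 6 i = m 6 i) ∧ (m' 6 1).Prime ∧ 2 ^ L < m' 6 1 ∧ m' 6 1 ≤ 2 * 2 ^ L

def InvProg : Prop := ∃ c : Cmd, ∀ (V : ℕ) (e : Env) (m : Mem) (p : ℕ), p.Prime → m 6 1 = p →
  p ≤ V → Tri V 0 c e m (1 + 2 * p) fun m' => Same [15] m m' ∧
    ∀ a < p, m' 15 a < p ∧ (m' 15 a : ZMod p) = (a : ZMod p)⁻¹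

def AdjProg : Prop := ∃ (c : Cmd) (C : ℕ), ∀ (V : ℕ) (e : Env) (m : Mem) (n : ℕ)
  (adj : List (List ℕ)), adj.length = n → (∀ l ∈ adj, l.Nodup ∧ ∀ v ∈ l, v < n) → m 0 0 = n →
    (∀ i, m 1 i = (adj.map List.length).getD i 0) → (∀ i, m 2 i = adj.flatten.getD i 0) →
    (∀ i, m 16 i = 0) → n * n + 1 ≤ V →
    Tri V 0 c e m (C * (n * n + 1)) fun m' => Same [16, 18] m m' ∧
      ∀ i < n, ∀ j < n, (m' 16 (i * n + j) ≠ 0 ↔ j ∈ adj.getD i [])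

def PreProg : Prop := ∀ k rk D L : ℕ, 4 ≤ k → k * k ≤ rk → 1 ≤ L → ∃ (c : Cmd) (C : ℕ),
  ∀ (V n : ℕ) (adj : List (List ℕ)), adj.length = n → (∀ l ∈ adj, l.Nodup ∧ ∀ v ∈ l, v < n) →
    tt k rk D L n ≤ V →
    Tri V 0 c (fun _ => 0) (input (adj.map List.length) adj.flatten) (C * tt k rk D L n) fun m' =>
      ∃ p : ℕ, p.Prime ∧ 2 ^ lb D n < p ∧ p ≤ 2 * 2 ^ lb D n ∧ Tab k rk p (gg k L n * L + 1) m' ∧
        m' 6 0 = n ∧ m' 6 2 = k ^ gg k L n ∧ m' 6 3 = n * n ∧ m' 6 4 = lb D n ∧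
        m' 6 5 = gg k L n ∧ (∀ i < n, ∀ j < n, (m' 16 (i * n + j) ≠ 0 ↔ j ∈ adj.getD i [])) ∧
        m' 3 = fun _ => 0

def TimeS : Prop := ∀ ε : ℝ, 0 < ε → ∀ k rk D : ℕ, 4 ≤ k → (rk : ℝ) ≤ (k : ℝ) ^ (9 / 4 + ε / 2) →
  ∃ L : ℕ, 1 ≤ L ∧ ∃ C : ℝ, ∀ n : ℕ, (tt k rk D L n : ℝ) ≤ C * ((n : ℝ) + 2) ^ (9 / 4 + ε)

/-- The theorem. -/
def MainS : Prop := ∀ ε : ℝ, 0 < ε → ∃ (P : Stmt) (c : ℕ) (C : ℝ), ∀ (n w : ℕ)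
  (G : SimpleGraph (Fin n)) (adj : List (List ℕ)), Lists G adj → c * (Nat.log 2 (n + 2) + 1) ≤ w →
    ∃ T : ℕ, (T : ℝ) ≤ C * ((n : ℝ) + 2) ^ (9 / 4 + ε) ∧
      (∀ ω : Fin T → Bool, (run w P (adj.map List.length) adj.flatten ω).1 = []) ∧
      (2 / 3 : ℝ) * 2 ^ T ≤ (Set.ncard {ω : Fin T → Bool |
        MaxMatching G ((run w P (adj.map List.length) adj.flatten ω).2.2 3)} : ℝ)

end Vale.Agent.P305
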