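import Vale.Agent.P305.Spec

open Finset

namespace Vale.Agent.P305

open Vale.Agent.P315

namespace StepProgAux

variable {d : ℕ} {m m' m'' : Mem}

theorem fr_trans (h : Fr d m m') (h' : Fr d m' m'') : Fr d m m'' :=
  ⟨fun a h1 h2 h3 h4 => (h'.1 a h1 h2 h3 h4).trans (h.1 a h1 h2 h3 h4),
    fun i hi => (h'.2 i hi).trans (h.2 i hi)⟩

theorem fr_same {l : List ℕ} (h : Same l m m') (hl : ∀ a ∈ l, a = 7 ∨ (20 ≤ a ∧ a < 33 + 3 * d)) :
    Fr d m m' :=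
  ⟨fun a _ _ _ _ => h a fun k => by have := hl a k; omega,
    fun _ _ => congrFun (h 8 fun k => by have := hl 8 k; omega) _⟩

theorem fr_write {i : ℕ} (hi : i < 2 * d) (v : ℕ) : Fr d m (m.write 8 i v) :=
  ⟨fun a _ _ h _ => Same.write m 8 i v a (by simpa using h),
    fun _ _ => write_ne _ _ (Or.inr (by omega))⟩

theorem fr_succ (h : Fr d m m') : Fr (d + 1) m m' :=
  ⟨fun a h1 h2 h3 h4 => h.1 a h1 h2 h3 (by omega), fun i hi => h.2 i (by omega)⟩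

theorem fr_tab {k rk p J : ℕ} (h : Fr d m m') (t : Tab k rk p J m) : Tab k rk p J m' :=
  t.same fun a _ => h.1 a (by omega) (by omega) (by omega) (by omega)

theorem fr_dat {k p n g : ℕ} {ad : ℕ → ℕ → Bool} {x : ℕ → ZMod p} (h : Fr d m m')
    (t : Dat k p n g ad x m) : Dat k p n g ad x m' :=
  t.same fun a _ => h.1 a (by omega) (by omega) (by omega) (by omega)

theorem rep_of {p a t : ℕ} {A B : Mx (ZMod p)} (h : Rep p m a t A) (e : m' a = m a)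
    (e' : ∀ i < t, ∀ j < t, A i j = B i j) : Rep p m' a t B := fun i hi j hj => by
  rw [e, ← e' i hi j hj]
  exact h i hi j hj

theorem fillR (a : ℕ) (ha : a ≠ 5) {t f : Env → Mem → ℕ} (ht : Cx t) (hf : Cx f)
    (h1 : ∀ e m m', Same [a] m m' → t e m' = t e m ∧ f e m' = f e m) :
    ∃ c : Cmd, ∀ (V : ℕ) (e : Env) (m : Mem) (p T : ℕ) (A : Mx (ZMod p)), t e m = T → T * T ≤ V →
      p ≤ V → (∀ i < T, ∀ j < T, f (cons i (cons j e)) m < p ∧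
        (f (cons i (cons j e)) m : ZMod p) = A i j) →
      Tri V 0 c e m (1 + 2 * (T * T)) fun m' => Same [a] m m' ∧ Rep p m' a T A := by
  obtain ⟨c, hc⟩ := fill2 a ha ht hf
  refine ⟨c, fun V e m p T A e1 e2 e3 e4 => (hc V 0 e m T (fun i j => f (cons i (cons j e)) m)
    (fun m' k => (h1 _ _ _ k).1.trans e1) e2 (fun i hi j hj => (e4 i hi j hj).1.le.trans e3)
    fun i _ j _ m' k _ => (h1 _ _ _ k).2).mono le_rfl fun m' k => ⟨k.1, fun i hi j hj => ?_⟩⟩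
  rw [k.2 i hi j hj]
  exact e4 i hi j hj

theorem cx9 (d c : ℕ) : Cx fun _ m => m 9 (m 6 5 * d + c) :=
  Cx.get 9 (((Cx.cell 6 5).mul (Cx.const d)).add (Cx.const c))

theorem f1 (d : ℕ) : ∃ c : Cmd, ∀ (V : ℕ) (e : Env) (m : Mem) (p S T : ℕ) (A : Mx (ZMod p)),
    1 < p → 2 * m 9 (m 6 5 * (d + 1) + 0) = S → m 9 (m 6 5 * (d + 1) + 1) = T → T * T ≤ V →
    p ≤ V → Rep p m (33 + 3 * d) S A → Tri V 0 c e m (1 + 2 * (T * T)) fun m' =>
      Same [35 + 3 * d] m m' ∧ Rep p m' (35 + 3 * d) T (aug S A) := by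
  have s := (Cx.const 2).mul (cx9 (d + 1) 0)
  obtain ⟨c, hc⟩ := fillR (35 + 3 * d) (by omega) (cx9 (d + 1) 1)
    (Cx.ite (((CxP.lt (Cx.var 0) s)).and (CxP.lt (Cx.var 1) s))
      (Cx.get (33 + 3 * d) (((Cx.var 0).mul s).add (Cx.var 1)))
      (Cx.ite (((CxP.lt (Cx.var 0) s).and (CxP.eq (Cx.var 1) ((Cx.var 0).add s))).or
        ((CxP.lt (Cx.var 1) s).and (CxP.eq (Cx.var 0) ((Cx.var 1).add s)))) (Cx.const 1)
        (Cx.const 0)))
    fun e m m' h => by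
      rw [h 6 (by simp; omega), h 9 (by simp; omega), h (33 + 3 * d) (by simp)]
      exact ⟨rfl, rfl⟩
  refine ⟨c, fun V e m p S T A h0 h1 h2 h3 h4 h5 => hc V e m p T _ h2 h3 h4 fun i _ j _ => ?_⟩
  simp only [P315.cons, h1, aug]
  split_ifs with k k'
  · exact h5 i k.1 j k.2
  · exact ⟨h0, Nat.cast_one⟩
  · exact ⟨by omega, Nat.cast_zero⟩

theorem f2 (d : ℕ) : ∃ c : Cmd, ∀ (V : ℕ) (e : Env) (m : Mem) (p s q T : ℕ) (A : Mx (ZMod p)),
    m 9 (m 6 5 * d + 0) = s → m 6 2 = q → m 9 (m 6 5 * (d + 1) + 1) = T → 2 * s * (2 * s) ≤ V →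
    p ≤ V → (∀ a < 2 * s, em s q (e 0) a < T) → Rep p m (35 + 3 * d) T A →
    Tri V 0 c e m (1 + 2 * (2 * s * (2 * s))) fun m' => Same [30 + 3 * d] m m' ∧
      Rep p m' (30 + 3 * d) (2 * s) fun a b => A (em s q (e 0) a) (em s q (e 0) b) := by
  have s := cx9 d 0
  have q := Cx.cell 6 2
  have k : ∀ i, Cx fun e m => em (m 9 (m 6 5 * d + 0)) (m 6 2) (e 2) (e i) := fun i =>
    Cx.ite (CxP.lt (Cx.var i) s) ((((Cx.var 2).div q).mul s).add (Cx.var i))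
      ((q.mul s).add ((((Cx.var 2).mod q).mul s).add ((Cx.var i).sub s)))
  obtain ⟨c, hc⟩ := fillR (30 + 3 * d) (by omega) ((Cx.const 2).mul s)
    (Cx.get (35 + 3 * d) (((k 0).mul (cx9 (d + 1) 1)).add (k 1)))
    fun e m m' h => by
      rw [h 6 (by simp; omega), h 9 (by simp; omega), h (35 + 3 * d) (by simp)]
      exact ⟨rfl, rfl⟩
  refine ⟨c, fun V e m p s q T A h0 h1 h2 h3 h4 h5 h6 =>
    hc V e m p _ _ (congrArg _ h0) h3 h4 fun i hi j hj => ?_⟩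
  simp only [P315.cons, h0, h1, h2]
  exact h6 _ (h5 i hi) _ (h5 j hj)

theorem f3 (d : ℕ) : ∃ c : Cmd, ∀ (V : ℕ) (e : Env) (m : Mem) (p S T : ℕ) (A : Mx (ZMod p)),
    m 6 1 = p → 2 * m 9 (m 6 5 * (d + 1) + 0) = S → m 9 (m 6 5 * (d + 1) + 1) = T → S * S ≤ V →
    p ≤ V → 2 * S ≤ T → Rep p m (35 + 3 * d) T A → Tri V 0 c e m (1 + 2 * (S * S)) fun m' =>
      Same [34 + 3 * d] m m' ∧ Rep p m' (34 + 3 * d) S fun i j => -A (S + i) (S + j) := by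
  have s := (Cx.const 2).mul (cx9 (d + 1) 0)
  obtain ⟨c, hc⟩ := fillR (34 + 3 * d) (by omega) s
    (((Cx.cell 6 1).sub (Cx.get (35 + 3 * d)
      (((s.add (Cx.var 0)).mul (cx9 (d + 1) 1)).add (s.add (Cx.var 1))))).mod (Cx.cell 6 1))
    fun e m m' h => by
      rw [h 6 (by simp; omega), h 9 (by simp; omega), h (35 + 3 * d) (by simp)]
      exact ⟨rfl, rfl⟩
  refine ⟨c, fun V e m p S T A h0 h1 h2 h3 h4 h5 h6 => hc V e m p _ _ h1 h3 h4 fun i hi j hj => ?_⟩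
  simp only [P315.cons, h0, h1, h2]
  obtain ⟨a1, a2⟩ := h6 (S + i) (by omega) (S + j) (by omega)
  refine ⟨Nat.mod_lt _ (by omega), ?_⟩
  rw [ZMod.natCast_mod, Nat.cast_sub a1.le, ZMod.natCast_self, zero_sub, a2]

theorem em_wm {s q j a : ℕ} (r c : ℕ) (hj : j < q * q) (ha : a < 2 * s) :
    em s q j a < 2 * (s * q) ∧
      wm s (r * q + j / q) (c * q + j % q) a = wm (s * q) r c (em s q j a) := by
  have h1 := Nat.mul_le_mul_right s (Nat.succ_le_of_lt (Nat.div_lt_of_lt_mul hj))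
  have h2 := Nat.mul_le_mul_right s (Nat.succ_le_of_lt
    (Nat.mod_lt j (Nat.pos_of_ne_zero fun h : q = 0 => by simp [h] at hj)))
  rw [Nat.succ_mul] at h1 h2
  unfold em wm
  rw [mul_comm s q]
  split_ifs with k k' k'
  · exact ⟨by omega, by ring⟩
  · omega
  · omega
  · exact ⟨by omega, by rw [Nat.add_sub_cancel_left]; ring⟩

theorem ar {b : Bil} (hb : b.Ok) (g d : ℕ) : 1 ≤ b.k ^ g ∧ (b.k ^ g) ^ 2 ≤ b.rk ^ g ∧
    4 * (b.k ^ g) ^ (d + 1) ≤ b.k ^ (g * (d + 1) + 1) ∧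
    b.k ^ (g * (d + 1) + 1) * b.k ^ (g * (d + 1) + 1) ≤ b.rk ^ (g * (d + 1) + 1) ∧
    b.rk ^ (g * (d + 1) + 1) = b.rk * (b.rk ^ g) ^ (d + 1) ∧ 1 ≤ b.rk := by
  have h4 := hb.k4
  have hk := hb.kk
  refine ⟨Nat.one_le_pow _ _ (by omega), ?_, ?_, ?_, by rw [pow_succ', pow_mul], by nlinarith⟩
  · rw [sq, ← mul_pow]
    exact Nat.pow_le_pow_left hk _
  · rw [pow_succ' b.k, pow_mul]
    exact Nat.mul_le_mul_right _ h4
  · rw [← mul_pow]
    exact Nat.pow_le_pow_left hk _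

theorem bnd {r u q s V : ℕ} (h : (r + 1) * (s * q) ≤ V) (hu : u < q) (hs : 1 ≤ s) :
    (r * q + u + 1) * s ≤ V ∧ r * q + u ≤ V := by
  have k : (r * q + u + 1) * s ≤ V := by
    refine le_trans ?_ h
    rw [mul_comm s, ← mul_assoc]
    exact Nat.mul_le_mul_right _ (by linarith)
  exact ⟨k, ((Nat.le_succ _).trans (Nat.le_mul_of_pos_right _ hs)).trans k⟩

theorem tim {rk R P q z CN CU : ℕ} (J : ℕ) (h1 : 1 ≤ R * P) (h2 : q ≤ P) (h3 : z ≤ rk * (R * P)) :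
    1 + (1 + (1 + 2 * z + (CN * (J + 1) * q * R + CU * (J + 1) * (rk * (R * P))))) ≤
      (3 + 2 * rk + CN + CU * rk) * ((J + 1) * (R * P)) := by
  have t2 := Nat.mul_le_mul_left (CN * (J + 1) * R) h2
  have t3 : R * P ≤ (J + 1) * (R * P) := Nat.le_mul_of_pos_left _ (by omega)
  have t4 := Nat.mul_le_mul_left rk t3
  linarith

theorem round (h1 : KerComp) (h2 : KerAug) {b : Bil} (hb : b.Ok) {d : ℕ} {cU cN : Cmd}
    {CU CN : ℕ} (hU : UpdSpec b d cU CU) (hN : NodeSpec b d cN CN) : ∃ c : Cmd,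
    ∀ (V : ℕ) (e : Env) (m : Mem) (p : ℕ) [Fact p.Prime] (n g J : ℕ) (ad : ℕ → ℕ → Bool)
    (x : ℕ → ZMod p) (N X : Mx (ZMod p)) (r c0 q s : ℕ) (S : Mx (ZMod p) × (ℕ → ℕ)),
    q = b.k ^ g → s = q ^ (d + 1) →
    Tab b.k b.rk p J m → Dat b.k p n g ad x m → (b.D : ZMod p) ≠ 0 → g * (d + 1) + 1 ≤ J → p ≤ V →
    b.rk ^ J ≤ V → n ≤ V → (r + 1) * s ≤ V → (c0 + 1) * s ≤ V →
    m 8 (2 * (d + 1)) = r → m 8 (2 * (d + 1) + 1) = c0 → e 0 < q * q → m 3 = S.2 →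
    S.1 = kupd N (wm s r c0) (2 * s) X → Rep p m (35 + 3 * d) (b.k ^ (g * (d + 1) + 1))
      (kupd (aug (2 * s) fun i j => N (wm s r c0 i) (wm s r c0 j)) id (2 * s) X) →
    Tri V 0 c e m ((3 + 2 * b.rk + CN + CU * b.rk) * ((J + 1) * (b.rk ^ g) ^ (d + 1))) fun m' =>
      Fr (d + 1) m m' ∧ m' 3 = (rn n ad x S (ord q d (r * q + e 0 / q) (c0 * q + e 0 % q))).2 ∧
      ∃ X, (rn n ad x S (ord q d (r * q + e 0 / q) (c0 * q + e 0 % q))).1 =
        kupd N (wm s r c0) (2 * s) X ∧ Rep p m' (35 + 3 * d) (b.k ^ (g * (d + 1) + 1))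
          (kupd (aug (2 * s) fun i j => N (wm s r c0 i) (wm s r c0 j)) id (2 * s) X) := by
  have cq := Cx.cell 6 2
  obtain ⟨c1, p1⟩ := put 8 (Cx.const (2 * d))
    (((Cx.cell 8 (2 * (d + 1))).mul cq).add ((Cx.var 0).div cq))
  obtain ⟨c2, p2⟩ := put 8 (Cx.const (2 * d + 1))
    (((Cx.cell 8 (2 * (d + 1) + 1)).mul cq).add ((Cx.var 0).mod cq))
  obtain ⟨c3, p3⟩ := f2 d
  refine ⟨.seq c1 (.seq c2 (.seq c3 (.seq cN cU))), ?_⟩
  intro V e m p _ n g J ad x N X r c0 q s S hq hs tb dt hD hJ hp hV hn hr hc m1 m2 hj m3 hS hR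
  obtain ⟨a1, a2, a3, a4, a5, a6⟩ := ar hb g d
  have a7 := (Nat.pow_le_pow_right a6 hJ).trans hV
  rw [← hq] at a1 a2 a3
  rw [pow_succ] at hs a3
  have s1 : 1 ≤ q ^ d := Nat.one_le_pow _ _ a1
  have s2 : 2 * q ^ d ≤ b.k ^ (g * (d + 1) + 1) := by
    have := Nat.le_mul_of_pos_right (q ^ d) a1
    omega
  have s3 := (Nat.mul_le_mul s2 s2).trans a4
  have j1 : g * d + 1 ≤ J := le_trans (by rw [mul_add]; omega) hJ
  obtain ⟨b1, b3⟩ := bnd (hs ▸ hr) (Nat.div_lt_of_lt_mul hj) s1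
  obtain ⟨b2, b4⟩ := bnd (hs ▸ hc) (Nat.mod_lt (e 0) a1) s1
  have hm : m 6 2 = q := dt.hq.trans hq.symm
  have w := fun a (ha : a < 2 * q ^ d) => em_wm r c0 hj ha
  rw [← hs] at w a3
  refine Tri.mono (n := 1 + (1 + (1 + 2 * (2 * q ^ d * (2 * q ^ d)) +
    (CN * (J + 1) * q ^ 2 * (b.rk ^ g) ^ d + CU * (J + 1) * b.rk ^ (g * (d + 1) + 1))))) ?_ ?_
    fun _ h => h
  swap
  · rw [a5] at s3 ⊢
    exact tim J (Nat.one_le_pow (d + 1) _ (Nat.one_le_pow _ _ a6)) a2 s3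
  refine Tri.seq ((p1 V 0 e m (by rwa [m1, hm]) (by omega)).mono le_rfl ?_)
  rintro ma ea
  rw [m1, hm] at ea
  have fa : Fr (d + 1) m ma := ea ▸ fr_write (by omega) _
  have hma : ma 6 2 = q := (fr_dat fa dt).hq.trans hq.symm
  refine Tri.seq ((p2 V 0 e ma (by rwa [fa.2 _ (by omega), m2, hma])
    (by omega)).mono le_rfl ?_)
  rintro mb eb
  rw [fa.2 _ (by omega), m2, hma] at eb
  have fb : Fr (d + 1) m mb := fr_trans fa (eb ▸ fr_write (by omega) _)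
  have sb : Same [8] m mb := (ea ▸ Same.write _ _ _ _ : Same [8] m ma).trans
    (eb ▸ Same.write _ _ _ _)
  have tb' := fr_tab fb tb
  have dt' := fr_dat fb dt
  refine Tri.seq ((p3 V e mb p (q ^ d) q _ _
    (by rw [dt'.hg, tb'.pk _ (by omega), add_zero, pow_mul, hq]) (dt'.hq.trans hq.symm)
    (by rw [dt'.hg, tb'.pk _ hJ]) (s3.trans a7) hp (fun a ha => by have := (w a ha).1; omega)
    (rep_of hR (sb _ (by simp; omega)) fun _ _ _ _ => rfl)).mono le_rfl ?_)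
  rintro mc ⟨sc, rc⟩
  have fc : Fr (d + 1) m mc := fr_trans fb (fr_same sc (by simp; omega))
  have e8 : mc 8 = mb 8 := sc 8 (by simp; omega)
  have e3 : mc 3 = S.2 := (sc 3 (by simp; omega)).trans ((sb 3 (by simp)).trans m3)
  subst hq
  refine Tri.seq ((hN V e mc p n g J ad x S.1 _ _ (fr_tab fc tb) (fr_dat fc dt) hD j1 hp
    hV hn b1 b2 (by rw [e8, eb, write_ne _ _ (Or.inr (by omega)), ea, write_same])
    (by rw [e8, eb, write_same]) (rep_of rc rfl fun i hi j hj => ?_)).mono le_rfl ?_)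
  · rw [(h2 _ _ _ X _ (w i hi).1 _ (w j hj).1).2 N (wm s r c0) fun _ _ _ _ => rfl, ← hS,
      (w i hi).2, (w j hj).2]
  rintro md ⟨fd, d3, X', rd, hX⟩
  rw [e3] at d3 hX
  have fd' : Fr (d + 1) m md := fr_trans fc (fr_succ fd)
  refine (hU V e md p g J _ X' (fr_tab fd' tb) hD (fr_dat fd' dt).hq (fr_dat fd' dt).hg hJ hp hV hj
    (rep_of hR ((fd.1 _ (by omega) (by omega) (by omega) (by omega)).trans
      ((sc _ (by simp)).trans (sb _ (by simp; omega)))) fun _ _ _ _ => rfl) rd).mono le_rfl ?_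
  rintro me ⟨se, re⟩
  obtain ⟨X2, k⟩ := h1 _ (2 * s) _ (fun i j => N (wm s r c0 i) (wm s r c0 j)) X X' _
    fun a ha => (w a ha).1
  refine ⟨fr_trans fd' (fr_same se (by simp; omega)), (se 3 (by simp; omega)).trans d3, X2, ?_, ?_⟩
  · rw [hX, hS]
    exact k _ _ _ (fun _ _ _ _ => rfl) fun a ha => (w a ha).2
  · rwa [k (aug (2 * s) fun i j => N (wm s r c0 i) (wm s r c0 j)) id (em _ _ _)
      (fun _ ha _ hb => if_pos (And.intro ha hb)) fun _ _ => rfl] at re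

end StepProgAux

open StepProgAux

theorem p_stepProg (h1 : KerComp) (h2 : KerAug) : StepProg := by
  intro b hb d cU CU cN CN hU hN
  obtain ⟨c1, p1⟩ := f1 d
  obtain ⟨c2, p2⟩ := round h1 h2 hb hU hN
  obtain ⟨c3, p3⟩ := f3 d
  obtain ⟨tq, hq⟩ := (Cx.cell 6 2).mul (Cx.cell 6 2)
  refine ⟨.seq c1 (.seq (.rep tq c2) c3), 4 + 4 * b.rk + (3 + 2 * b.rk + CN + CU * b.rk), ?_⟩
  intro V e m p hp n g J ad x N r c0 tb dt hD hJ hV hV' hn hr hc m1 m2 hR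
  obtain ⟨a1, a2, a3, a4, a5, a6⟩ := ar hb g d
  have a7 := (Nat.pow_le_pow_right a6 hJ).trans hV'
  have s2 : 2 * (b.k ^ g) ^ (d + 1) ≤ b.k ^ (g * (d + 1) + 1) := by omega
  have s3 := (Nat.mul_le_mul s2 s2).trans a4
  have k : ∀ m', Fr (d + 1) m m' → 2 * m' 9 (m' 6 5 * (d + 1) + 0) = 2 * (b.k ^ g) ^ (d + 1) ∧
      m' 9 (m' 6 5 * (d + 1) + 1) = b.k ^ (g * (d + 1) + 1) := fun m' h => by
    rw [(fr_dat h dt).hg, (fr_tab h tb).pk _ hJ, (fr_tab h tb).pk _ (by omega), add_zero, pow_mul]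
    exact ⟨rfl, rfl⟩
  rw [show 30 + 3 * (d + 1) = 33 + 3 * d by ring] at hR
  rw [show 31 + 3 * (d + 1) = 34 + 3 * d by ring]
  have f0 : Fr (d + 1) m m := ⟨fun _ _ _ _ _ => rfl, fun _ _ => rfl⟩
  refine Tri.mono (Tri.seq ((p1 V e m p _ _ _ hp.out.one_lt (k m f0).1 (k m f0).2 (a4.trans a7) hV
    hR).mono le_rfl fun ma ⟨sa, ra⟩ => Tri.seq (n₁ := 1 + b.k ^ g * b.k ^ g * (1 +
      (3 + 2 * b.rk + CN + CU * b.rk) * ((J + 1) * (b.rk ^ g) ^ (d + 1))))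
      (n₂ := 1 + 2 * (2 * (b.k ^ g) ^ (d + 1) * (2 * (b.k ^ g) ^ (d + 1)))) ?_)) ?_ fun _ h => h
  · have fa : Fr (d + 1) m ma := fr_same sa (by simp; omega)
    have eq : tq.eval ma e = b.k ^ g * b.k ^ g := by rw [hq, ← (fr_dat fa dt).hq]
    have key := Tri.rep (V := V) (S := 0) (e := e) (m := ma) (n := tq) (p := c2)
      (fun j m' => Fr (d + 1) m m' ∧ m' 3 = (rn n ad x (N, m 3) ((List.range j).flatMap fun j =>
        ord (b.k ^ g) d (r * b.k ^ g + j / b.k ^ g) (c0 * b.k ^ g + j % b.k ^ g))).2 ∧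
        ∃ X, (rn n ad x (N, m 3) ((List.range j).flatMap fun j =>
          ord (b.k ^ g) d (r * b.k ^ g + j / b.k ^ g) (c0 * b.k ^ g + j % b.k ^ g))).1 =
          kupd N (wm ((b.k ^ g) ^ (d + 1)) r c0) (2 * (b.k ^ g) ^ (d + 1)) X ∧
          Rep p m' (35 + 3 * d) (b.k ^ (g * (d + 1) + 1)) (kupd (aug (2 * (b.k ^ g) ^ (d + 1))
            fun i j => N (wm ((b.k ^ g) ^ (d + 1)) r c0 i) (wm ((b.k ^ g) ^ (d + 1)) r c0 j)) id
            (2 * (b.k ^ g) ^ (d + 1)) X))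
      (fun _ => (3 + 2 * b.rk + CN + CU * b.rk) * ((J + 1) * (b.rk ^ g) ^ (d + 1)))
      (by
        rw [eq, ← sq]
        exact a2.trans ((Nat.pow_le_pow_right a6 (by nlinarith)).trans hV'))
      ⟨fa, sa 3 (by simp; omega), fun _ _ => 0, by funext i j; simp [kupd, rn],
        rep_of ra rfl fun i _ j _ => by simp [kupd]⟩
      (fun j hj m' ⟨i1, i2, X, i3, i4⟩ => by
        rw [List.range_succ, List.flatMap_append, rn_append, List.flatMap_singleton]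
        exact (p2 V (cons j e) m' p n g J ad x N X r c0 _ _ _ rfl rfl (fr_tab i1 tb) (fr_dat i1 dt)
          hD hJ hV hV' hn hr hc ((i1.2 _ le_rfl).trans m1) ((i1.2 _ (by omega)).trans m2)
          (eq ▸ hj) i2 i3 i4).mono le_rfl fun _ h => ⟨fr_trans i1 h.1, h.2⟩)
    rw [eq, sum_const, card_range, smul_eq_mul] at key
    refine key.mono le_rfl fun mb ⟨i1, i2, X, i3, i4⟩ => (p3 V e mb p _ _ _ (fr_tab i1 tb).hp
      (k mb i1).1 (k mb i1).2 (s3.trans a7) hV (by omega) i4).mono le_rfl fun mc ⟨sc, rc⟩ =>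
      ⟨fr_trans i1 (fr_same sc (by simp; omega)), (sc 3 (by simp; omega)).trans i2, X,
        rep_of rc rfl fun i hi j hj => ?_, i3⟩
    rw [(h2 _ _ _ X i hi j hj).1, neg_neg]
  · have t1 : 1 ≤ (b.rk ^ g) ^ (d + 1) := Nat.one_le_pow _ _ (Nat.one_le_pow _ _ a6)
    have t3 : (b.rk ^ g) ^ (d + 1) ≤ (J + 1) * (b.rk ^ g) ^ (d + 1) :=
      Nat.le_mul_of_pos_left _ (by omega)
    have t4 : (J + 1) * (b.rk ^ g) ^ (d + 1) ≤
        b.k ^ g * b.k ^ g * ((J + 1) * (b.rk ^ g) ^ (d + 1)) :=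
      Nat.le_mul_of_pos_left _ (Nat.mul_pos a1 a1)
    have t5 := Nat.mul_le_mul_left b.rk (t3.trans t4)
    have t6 := Nat.mul_le_mul_left (b.k ^ g * b.k ^ g) (t1.trans t3)
    rw [a5] at s3 a4
    linarith

end Vale.Agent.P305
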