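import Vale.Agent.P305.Spec

open Finset

namespace Vale.Agent.P305

open Vale.Agent.P315

namespace SubAux

variable {F : Type} [Field F]

/-- the substitution -/
noncomputable def phi (F : Type) [Field F] (n : ℕ) (B : Finset ℕ) :
    MvPolynomial (Fin (n * n)) F →+* MvPolynomial (Fin (n * n)) F :=
  (MvPolynomial.aeval (R := F) fun z : Fin (n * n) =>
    if (z : ℕ) / n = z % n then (if (z : ℕ) / n ∈ B then 0 else 1)
    else if (z : ℕ) / n ∈ B ∧ (z : ℕ) % n ∈ B then
      (MvPolynomial.X z : MvPolynomial (Fin (n * n)) F) else 0).toRingHom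

theorem phi_xs {n i j : ℕ} (B : Finset ℕ) (hi : i < n) (hj : j < n) :
    phi F n B (xs F n (i * n + j)) = if i = j then (if i ∈ B then 0 else 1)
      else if i ∈ B ∧ j ∈ B then xs F n (i * n + j) else 0 := by
  rw [xs, dif_pos (idx_lt hi hj)]
  refine (MvPolynomial.aeval_X _ _).trans ?_
  simp only [idx_div hj, idx_mod hj]

theorem phi_tm {n i j : ℕ} (ad : ℕ → ℕ → Bool) (B : Finset ℕ) (hi : i < n) (hj : j < n) :
    phi F n B (tm n ad (xs F n) i j) = if i ∈ B ∧ j ∈ B then tm n ad (xs F n) i j else 0 := by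
  unfold tm
  by_cases h1 : i < j ∧ ad i j = true
  · rw [if_pos h1, phi_xs B hi hj, if_neg h1.1.ne]
  · rw [if_neg h1]
    by_cases h2 : j < i ∧ ad j i = true
    · rw [if_pos h2, map_neg, phi_xs B hj hi, if_neg h2.1.ne]
      by_cases h3 : i ∈ B ∧ j ∈ B
      · rw [if_pos h3, if_pos h3.symm]
      · rw [if_neg h3, if_neg fun k => h3 k.symm, neg_zero]
    · rw [if_neg h2, map_zero, ite_self]

theorem phi_mh {n h i j : ℕ} (ad : ℕ → ℕ → Bool) (B : Finset ℕ) (hi : i < n) (hj : j < n)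
    (hh : i ∉ B → h ≤ i) :
    (if i ∈ B ∧ j ∈ B then tm n ad (xs F n) i j else if i = j then 1 else 0) =
      phi F n B (mh n ad (xs F n) h i j) := by
  unfold mh dm
  rw [map_add, phi_tm ad B hi hj, apply_ite (phi F n B), map_zero, phi_xs B hi hi, if_pos rfl]
  by_cases h1 : i ∈ B
  · rw [if_pos h1, ite_self, add_zero]
    by_cases h2 : j ∈ B
    · rw [if_pos (And.intro h1 h2), if_pos (And.intro h1 h2)]
    · have h3 : ¬(i ∈ B ∧ j ∈ B) := fun k => h2 k.2
      rw [if_neg h3, if_neg h3, if_neg fun k : i = j => h2 (k ▸ h1)]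
  · have h3 : ¬(i ∈ B ∧ j ∈ B) := fun k => h1 k.1
    rw [if_neg h1, if_neg h3, if_neg h3, zero_add]
    exact if_congr ⟨fun k => ⟨k, hh h1⟩, fun k => k.1⟩ rfl rfl

end SubAux

theorem p_sub : SubS := by
  intro F _ n ad h A B hBA hA hh hB
  refine NS.of_map (SubAux.phi F n B) (M' := fun i j =>
    if i ∈ B ∧ j ∈ B then tm n ad (xs F n) i j else if i = j then 1 else 0)
    (fun i hi j hj => SubAux.phi_mh ad B (mem_range.1 (hA hi)) (mem_range.1 (hA hj)) (hh i hi)) ?_
  refine (ns_iff _ _).2 fun v hv l hl => ?_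
  by_cases hlB : l ∈ B
  · refine (ns_iff _ _).1 hB v (fun i hi => ?_) l hlB
    refine Eq.trans ?_ (hv i (hBA hi))
    refine (sum_congr rfl fun j hj => ?_).trans (sum_subset hBA fun j _ hj => ?_)
    · rw [if_pos ⟨hi, hj⟩]
    · rw [if_neg fun k => hj k.2, if_neg fun k : i = j => hj (k ▸ hi), zero_mul]
  · have h1 := hv l hl
    rw [sum_eq_single_of_mem l hl fun j _ hj => by
      rw [if_neg fun k => hlB k.1, if_neg hj.symm, zero_mul]] at h1
    rwa [if_neg fun k => hlB k.1, if_pos rfl, one_mul] at h1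

end Vale.Agent.P305
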