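import Vale.Agent.P305.Spec

open Finset

namespace Vale.Agent.P305

open Vale.Agent.P315

namespace TimeSAux

theorem pow_clog_le (b x : ℕ) (hb : 1 < b) : b ^ Nat.clog b x ≤ b * (x + 1) := by
  by_cases hx : 1 < x
  · have h1 := Nat.pow_pred_clog_lt_self hb hx
    have h2 : 0 < Nat.clog b x := Nat.clog_pos hb hx
    obtain ⟨g, hg⟩ : ∃ g, Nat.clog b x = g + 1 := ⟨_, (Nat.succ_pred_eq_of_pos h2).symm⟩
    rw [hg] at h1 ⊢
    simp only [Nat.pred_eq_sub_one, Nat.add_sub_cancel] at h1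
    rw [pow_succ, mul_comm]
    exact Nat.mul_le_mul_left _ (by omega)
  · rw [Nat.clog_of_right_le_one (by omega), pow_zero]
    exact Nat.mul_pos (by omega) (by omega)

theorem t1 (ε : ℝ) (k rk L g : ℕ) (hk : 4 ≤ k) (hL : 6 ≤ ε * L)
    (hr : (rk : ℝ) ≤ (k : ℝ) ^ (9 / 4 + ε / 2)) :
    (((g * L + 2) * (k ^ g) ^ 2 * rk ^ (g * L + 1) : ℕ) : ℝ) ≤
      (L + 2) * rk * (((k : ℝ) ^ L) ^ g) ^ (9 / 4 + ε) := by
  have hk1 : (1 : ℝ) ≤ k := by exact_mod_cast (by omega : 1 ≤ k)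
  have hk0 : (0 : ℝ) < k := by linarith
  have hg : g * L + 2 ≤ (L + 2) * k ^ g := by
    have h1 : g < 2 ^ g := Nat.lt_two_pow_self
    have h2 : 2 ^ g ≤ k ^ g := Nat.pow_le_pow_left (by omega) g
    nlinarith
  have hg' : ((g * L + 2 : ℕ) : ℝ) ≤ (L + 2) * (k : ℝ) ^ g := by exact_mod_cast hg
  have hK : (1 : ℝ) ≤ (k : ℝ) ^ g := one_le_pow₀ hk1
  have e1 : ((k : ℝ) ^ L) ^ g = ((k : ℝ) ^ g) ^ (L : ℝ) := by
    rw [Real.rpow_natCast, ← pow_mul, ← pow_mul, mul_comm]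
  have h2 : (rk : ℝ) ^ (g * L) ≤ (((k : ℝ) ^ L) ^ g) ^ (9 / 4 + ε / 2) := by
    calc (rk : ℝ) ^ (g * L) ≤ ((k : ℝ) ^ (9 / 4 + ε / 2)) ^ (g * L) :=
          pow_le_pow_left₀ (by positivity) hr _
      _ = _ := by
          rw [← pow_mul, ← Real.rpow_natCast, ← Real.rpow_natCast, ← Real.rpow_mul hk0.le,
            ← Real.rpow_mul hk0.le]
          congr 1
          push_cast
          ring
  have h3 : ((k : ℝ) ^ g) ^ 3 ≤ (((k : ℝ) ^ L) ^ g) ^ (ε / 2) := by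
    rw [e1, ← Real.rpow_mul (by positivity), ← Real.rpow_natCast]
    apply Real.rpow_le_rpow_of_exponent_le hK
    push_cast
    linarith
  have e2 : (((k : ℝ) ^ L) ^ g) ^ (9 / 4 + ε) =
      (((k : ℝ) ^ L) ^ g) ^ (ε / 2) * (((k : ℝ) ^ L) ^ g) ^ (9 / 4 + ε / 2) := by
    rw [← Real.rpow_add (by positivity)]
    congr 1
    ring
  rw [e2, Nat.cast_mul, Nat.cast_mul]
  push_cast at hg' ⊢
  calc ((g : ℝ) * L + 2) * ((k : ℝ) ^ g) ^ 2 * (rk : ℝ) ^ (g * L + 1)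
      ≤ ((L + 2) * (k : ℝ) ^ g) * ((k : ℝ) ^ g) ^ 2 * (rk : ℝ) ^ (g * L + 1) := by gcongr
    _ = (L + 2) * rk * (((k : ℝ) ^ g) ^ 3 * (rk : ℝ) ^ (g * L)) := by ring
    _ ≤ _ := by gcongr

theorem t2 (y : ℕ) : (((y + 2) * (4 * 2 ^ y) : ℕ) : ℝ) ≤ 72 * ((2 : ℝ) ^ y) ^ (9 / 8 : ℝ) := by
  have hp : (0 : ℝ) < (2 : ℝ) ^ y := by positivity
  have h1 : Real.log ((2 : ℝ) ^ y) ≤ ((2 : ℝ) ^ y) ^ (1 / 8 : ℝ) / (1 / 8) :=
    Real.log_le_rpow_div hp.le (by norm_num)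
  rw [Real.log_pow] at h1
  have h2 := Real.log_two_gt_d9
  have h3 : (1 : ℝ) ≤ ((2 : ℝ) ^ y) ^ (1 / 8 : ℝ) :=
    Real.one_le_rpow (one_le_pow₀ (by norm_num)) (by norm_num)
  have hy : (0 : ℝ) ≤ y := Nat.cast_nonneg y
  have h4 : (y : ℝ) + 2 ≤ 18 * ((2 : ℝ) ^ y) ^ (1 / 8 : ℝ) := by nlinarith
  have e : ((2 : ℝ) ^ y) ^ (9 / 8 : ℝ) = ((2 : ℝ) ^ y) ^ (1 / 8 : ℝ) * (2 : ℝ) ^ y := by
    rw [← Real.rpow_add_one hp.ne']
    norm_num
  rw [e]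
  push_cast
  nlinarith

end TimeSAux

open TimeSAux in
theorem p_time : TimeS := by
  intro ε hε k rk D hk hr
  obtain ⟨L, hL⟩ := exists_nat_ge (6 / ε)
  have hL6 : 6 ≤ ε * L := by
    rw [div_le_iff₀ hε] at hL
    linarith
  have hL1 : 1 ≤ L := by
    rcases Nat.eq_zero_or_pos L with h | h
    · subst h
      norm_num at hL6
    · exact h
  refine ⟨L, hL1, (L + 2) * rk * (3 * (k : ℝ) ^ L) ^ (9 / 4 + ε) +
    72 * (2 * (D + 15 : ℝ)) ^ (9 / 8 : ℝ), fun n => ?_⟩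
  have hn : (0 : ℝ) ≤ n := Nat.cast_nonneg n
  have hkL : 1 < k ^ L := Nat.one_lt_pow (by omega) (by omega)
  have q1 : ((k : ℝ) ^ L) ^ gg k L n ≤ 3 * (k : ℝ) ^ L * (n + 2) := by
    have h := pow_clog_le (k ^ L) (3 * n) hkL
    have h' : (k ^ L) ^ gg k L n ≤ 3 * k ^ L * (n + 2) := by
      unfold gg
      nlinarith
    exact_mod_cast h'
  have q2 : (2 : ℝ) ^ lb D n ≤ 2 * (D + 15 : ℝ) * ((n : ℝ) + 2) ^ 2 := by
    have h := pow_clog_le 2 (12 * (n * n) + D + 2) (by norm_num)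
    have h' : 2 ^ lb D n ≤ 2 * (D + 15) * (n + 2) ^ 2 := by
      unfold lb
      nlinarith [Nat.zero_le (D * n), Nat.zero_le (D * n * n)]
    exact_mod_cast h'
  have a1 := t1 ε k rk L (gg k L n) hk hL6 hr
  have a2 := t2 (lb D n)
  have b1 : (((k : ℝ) ^ L) ^ gg k L n) ^ (9 / 4 + ε) ≤
      (3 * (k : ℝ) ^ L) ^ (9 / 4 + ε) * ((n : ℝ) + 2) ^ (9 / 4 + ε) := by
    rw [← Real.mul_rpow (by positivity) (by positivity)]
    exact Real.rpow_le_rpow (by positivity) q1 (by positivity)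
  have b2 : ((2 : ℝ) ^ lb D n) ^ (9 / 8 : ℝ) ≤
      (2 * (D + 15 : ℝ)) ^ (9 / 8 : ℝ) * ((n : ℝ) + 2) ^ (9 / 4 + ε) := by
    calc ((2 : ℝ) ^ lb D n) ^ (9 / 8 : ℝ) ≤ (2 * (D + 15 : ℝ) * ((n : ℝ) + 2) ^ 2) ^ (9 / 8 : ℝ) :=
          Real.rpow_le_rpow (by positivity) q2 (by positivity)
      _ = (2 * (D + 15 : ℝ)) ^ (9 / 8 : ℝ) * ((n : ℝ) + 2) ^ (9 / 4 : ℝ) := by
          rw [Real.mul_rpow (by positivity) (by positivity), ← Real.rpow_natCast,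
            ← Real.rpow_mul (by positivity)]
          norm_num
      _ ≤ _ := by
          apply mul_le_mul_of_nonneg_left _ (by positivity)
          exact Real.rpow_le_rpow_of_exponent_le (by linarith) (by linarith)
  unfold tt
  rw [Nat.cast_add, add_mul (((L : ℝ) + 2) * rk * _)]
  apply add_le_add
  · refine a1.trans ?_
    rw [mul_assoc ((L + 2 : ℝ) * rk)]
    exact mul_le_mul_of_nonneg_left b1 (by positivity)
  · refine a2.trans ?_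
    rw [mul_assoc]
    exact mul_le_mul_of_nonneg_left b2 (by norm_num)

end Vale.Agent.P305
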