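import Vale.Agent.P305.Spec

open Finset

namespace Vale.Agent.P305

open Vale.Agent.P315

namespace UpdProgAux

theorem cx_em {s q j i : Env → Mem → ℕ} (hs : Cx s) (hq : Cx q) (hj : Cx j) (hi : Cx i) :
    Cx fun e m => em (s e m) (q e m) (j e m) (i e m) :=
  (Cx.ite (CxP.lt hi hs) (((hj.div hq).mul hs).add hi)
    ((hq.mul hs).add (((hj.mod hq).mul hs).add (hi.sub hs)))).congr fun _ _ => rfl

theorem em_lt {s q j i : ℕ} (hj : j < q * q) (hi : i < 2 * s) : em s q j i < 2 * (q * s) := by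
  have hq : 0 < q := Nat.pos_of_ne_zero fun h => by simp [h] at hj
  have h1 : j / q + 1 ≤ q := Nat.div_lt_of_lt_mul hj
  have h2 : j % q + 1 ≤ q := Nat.mod_lt _ hq
  have h3 := Nat.mul_le_mul_right s h1
  have h4 := Nat.mul_le_mul_right s h2
  rw [add_mul, one_mul] at h3 h4
  unfold em
  split_ifs <;> omega

theorem fillR (a : ℕ) (ha : a ≠ 5) {t f : Env → Mem → ℕ} (ht : Cx t) (hf : Cx f) :
    ∃ c : Cmd, ∀ (V : ℕ) (e : Env) (m : Mem) (p T : ℕ) (A : Mx (ZMod p)) (tb : ℕ → ℕ → ℕ),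
      (∀ m', Same [a] m m' → t e m' = T) → T * T ≤ V → p ≤ V →
      (∀ i < T, ∀ j < T, tb i j < p ∧ (tb i j : ZMod p) = A i j) →
      (∀ i < T, ∀ j < T, ∀ m', Same [a] m m' → (∀ z, i * T + j ≤ z → m' a z = m a z) →
        f (cons i (cons j e)) m' = tb i j) →
      Tri V 0 c e m (1 + 2 * (T * T)) fun m' => Same [a] m m' ∧ Rep p m' a T A := by
  obtain ⟨c, hc⟩ := fill2 a ha ht hf
  refine ⟨c, fun V e m p T A tb h1 h2 h3 h4 h5 => ?_⟩
  refine (hc V 0 e m T tb h1 h2 (fun i hi j hj => ((h4 i hi j hj).1.le.trans h3)) h5).mono le_rfl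
    fun m' hm' => ⟨hm'.1, fun i hi j hj => ?_⟩
  rw [hm'.2 i hi j hj]
  exact h4 i hi j hj

theorem rep_same {p : ℕ} {m m' : Mem} {a t : ℕ} {A : Mx (ZMod p)} (h : Rep p m a t A)
    (hs : m' a = m a) : Rep p m' a t A := fun i hi j hj => by rw [hs]; exact h i hi j hj

theorem sum_cut {R : Type} [CommRing R] {n t : ℕ} (h : n ≤ t) (f : ℕ → R) :
    ∑ a ∈ range t, (if a < n then f a else 0) = ∑ a ∈ range n, f a := by
  rw [← sum_filter]
  refine sum_congr ?_ fun _ _ => rfl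
  ext a
  simp only [mem_filter, mem_range]
  omega

theorem alg {R : Type} [CommRing R] {n t : ℕ} (h : n ≤ t) (u : ℕ → R) (X : ℕ → ℕ → R) (v : ℕ → R) :
    ∑ b ∈ range t, (∑ a ∈ range t, (if a < n then u a else 0) *
      (if a < n ∧ b < n then X a b else 0)) * (if b < n then v b else 0) =
    ∑ a ∈ range n, ∑ b ∈ range n, u a * X a b * v b := by
  rw [sum_comm, ← sum_cut h]
  refine sum_congr rfl fun b _ => ?_
  by_cases hb : b < n
  · rw [if_pos hb, if_pos hb, ← sum_cut h, sum_mul]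
    refine sum_congr rfl fun a _ => ?_
    by_cases ha : a < n <;> simp [ha, hb]
  · simp [hb]

theorem sub_cast {p x y : ℕ} [Fact p.Prime] (hy : y < p) :
    (x + p - y) % p < p ∧ (((x + p - y) % p : ℕ) : ZMod p) = (x : ZMod p) - y := by
  refine ⟨Nat.mod_lt _ (by omega), ?_⟩
  rw [ZMod.natCast_mod, Nat.cast_sub (by omega), Nat.cast_add, ZMod.natCast_self, add_zero]

end UpdProgAux

open UpdProgAux in
theorem p_updProg : UpdProg := by
  intro b hb cM CM hM d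
  have hj : Cx fun (_ : Env) (m : Mem) => m 6 5 * (d + 1) + 1 :=
    ((Cx.cell 6 5).mul (Cx.const _)).add (Cx.const 1)
  have ht : Cx fun (_ : Env) (m : Mem) => m 9 (m 6 5 * (d + 1) + 1) := Cx.get 9 hj
  have hs : Cx fun (_ : Env) (m : Mem) => m 9 (m 6 5 * d) :=
    Cx.get 9 ((Cx.cell 6 5).mul (Cx.const _))
  have hs2 : Cx fun (_ : Env) (m : Mem) => 2 * m 9 (m 6 5 * d) := (Cx.const 2).mul hs
  have hix : Cx fun (e : Env) (m : Mem) => e 0 * m 9 (m 6 5 * (d + 1) + 1) + e 1 :=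
    ((Cx.var 0).mul ht).add (Cx.var 1)
  obtain ⟨c0, h0⟩ := put 7 (Cx.const 0) hj
  obtain ⟨c1, h1⟩ := fillR 20 (by omega) ht (Cx.ite (CxP.lt (Cx.var 1) hs2)
    (Cx.get (35 + 3 * d) (((Cx.var 0).mul ht).add (cx_em hs (Cx.cell 6 2) (Cx.var 2) (Cx.var 1))))
    (Cx.const 0))
  obtain ⟨c2, h2⟩ := fillR 21 (by omega) ht (Cx.ite ((CxP.lt (Cx.var 0) hs2).and
    (CxP.lt (Cx.var 1) hs2)) (Cx.get (31 + 3 * d) (((Cx.var 0).mul hs2).add (Cx.var 1)))
    (Cx.const 0))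
  obtain ⟨c3, h3⟩ := fillR 20 (by omega) ht (Cx.get 22 hix)
  obtain ⟨c4, h4⟩ := fillR 21 (by omega) ht (Cx.ite (CxP.lt (Cx.var 0) hs2)
    (Cx.get (35 + 3 * d) (((cx_em hs (Cx.cell 6 2) (Cx.var 2) (Cx.var 0)).mul ht).add (Cx.var 1)))
    (Cx.const 0))
  obtain ⟨c5, h5⟩ := fillR (35 + 3 * d) (by omega) ht
    ((((Cx.get (35 + 3 * d) hix).add (Cx.cell 6 1)).sub (Cx.get 22 hix)).mod (Cx.cell 6 1))
  refine ⟨.seq c0 (.seq c1 (.seq c2 (.seq cM (.seq c3 (.seq c4 (.seq cM c5)))))), 16 + 2 * CM, ?_⟩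
  intro V e m p _ g J A X hT hD hq hg hJ hp hV he hA hX
  have hk := hb.k4
  have hkk := hb.kk
  have hrk : 16 ≤ b.rk := le_trans (Nat.mul_le_mul hk hk) hkk
  have hp0 : 0 < p := (Fact.out : p.Prime).pos
  have e9t : m 9 (g * (d + 1) + 1) = b.k ^ (g * (d + 1) + 1) := hT.pk _ hJ
  have e9s : m 9 (g * d) = (b.k ^ g) ^ d := by
    rw [hT.pk _ (by nlinarith), pow_mul]
  have hTT : b.k ^ (g * (d + 1) + 1) * b.k ^ (g * (d + 1) + 1) ≤ b.rk ^ (g * (d + 1) + 1) := by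
    rw [← mul_pow]
    exact Nat.pow_le_pow_left hkk _
  have hR : b.rk ^ (g * (d + 1) + 1) ≤ V := (Nat.pow_le_pow_right (by omega) hJ).trans hV
  have hjV : g * (d + 1) + 1 ≤ V := (Nat.lt_pow_self (by omega)).le.trans hR
  have hqs : 2 * (b.k ^ g * (b.k ^ g) ^ d) ≤ b.k ^ (g * (d + 1) + 1) := by
    rw [pow_succ, pow_mul, pow_succ]
    nlinarith [Nat.zero_le ((b.k ^ g) ^ d * b.k ^ g)]
  have hq1 : 1 ≤ b.k ^ g := Nat.one_le_pow _ _ (by omega)
  have hst : 2 * (b.k ^ g) ^ d ≤ b.k ^ (g * (d + 1) + 1) :=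
    le_trans (Nat.mul_le_mul_left 2 (Nat.le_mul_of_pos_left _ hq1)) hqs
  have hem : ∀ i < 2 * (b.k ^ g) ^ d, em ((b.k ^ g) ^ d) (b.k ^ g) (e 0) i <
      b.k ^ (g * (d + 1) + 1) := fun i hi => (em_lt he hi).trans_le hqs
  have hR1 : 1 ≤ b.rk ^ (g * (d + 1) + 1) := Nat.one_le_pow _ _ (by omega)
  have htime : 1 + ((1 + 2 * (b.k ^ (g * (d + 1) + 1) * b.k ^ (g * (d + 1) + 1))) +
      ((1 + 2 * (b.k ^ (g * (d + 1) + 1) * b.k ^ (g * (d + 1) + 1))) +
      (CM * (g * (d + 1) + 1 + 1) * b.rk ^ (g * (d + 1) + 1) +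
      ((1 + 2 * (b.k ^ (g * (d + 1) + 1) * b.k ^ (g * (d + 1) + 1))) +
      ((1 + 2 * (b.k ^ (g * (d + 1) + 1) * b.k ^ (g * (d + 1) + 1))) +
      (CM * (g * (d + 1) + 1 + 1) * b.rk ^ (g * (d + 1) + 1) +
      (1 + 2 * (b.k ^ (g * (d + 1) + 1) * b.k ^ (g * (d + 1) + 1))))))))) ≤
      (16 + 2 * CM) * (J + 1) * b.rk ^ (g * (d + 1) + 1) := by
    have a1 : CM * (g * (d + 1) + 1 + 1) * b.rk ^ (g * (d + 1) + 1) ≤
        CM * (J + 1) * b.rk ^ (g * (d + 1) + 1) :=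
      Nat.mul_le_mul_right _ (Nat.mul_le_mul_left _ (by omega))
    have a2 : b.rk ^ (g * (d + 1) + 1) ≤ (J + 1) * b.rk ^ (g * (d + 1) + 1) :=
      Nat.le_mul_of_pos_left _ (by omega)
    have a3 : (16 + 2 * CM) * (J + 1) * b.rk ^ (g * (d + 1) + 1) =
        16 * ((J + 1) * b.rk ^ (g * (d + 1) + 1)) +
          2 * (CM * (J + 1) * b.rk ^ (g * (d + 1) + 1)) := by ring
    omega
  generalize hjd : g * (d + 1) + 1 = j at *
  generalize hsd : (b.k ^ g) ^ d = s at *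
  generalize hqd : b.k ^ g = q at *
  have key : ∀ m' : Mem, Same [7, 20, 21, 22, 23, 24, 25] m m' → m' 6 = m 6 ∧ m' 9 = m 9 ∧
      m' (35 + 3 * d) = m (35 + 3 * d) ∧ m' (31 + 3 * d) = m (31 + 3 * d) ∧
      Tab b.k b.rk p J m' := fun m' h =>
    ⟨h _ (by simp), h _ (by simp), h _ (by simp; omega), h _ (by simp; omega),
      hT.same fun a ha => h _ (by simp; omega)⟩
  have step : ∀ {m1 m2 : Mem} {l : List ℕ}, Same [7, 20, 21, 22, 23, 24, 25] m m1 →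
      Same l m1 m2 → (∀ a ∈ l, a ∈ [7, 20, 21, 22, 23, 24, 25]) →
      Same [7, 20, 21, 22, 23, 24, 25] m m2 := fun h h' hl => h.trans (h'.mono hl)
  have tv : ∀ m' : Mem, Same [7, 20, 21, 22, 23, 24, 25] m m' →
      m' 9 (m' 6 5 * (d + 1) + 1) = b.k ^ j := fun m' h => by
    rw [(key m' h).1, (key m' h).2.1, hg, hjd, e9t]
  have sv : ∀ m' : Mem, Same [7, 20, 21, 22, 23, 24, 25] m m' → m' 9 (m' 6 5 * d) = s :=
    fun m' h => by rw [(key m' h).1, (key m' h).2.1, hg, e9s]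
  have qv : ∀ m' : Mem, Same [7, 20, 21, 22, 23, 24, 25] m m' → m' 6 2 = q :=
    fun m' h => by rw [(key m' h).1, hq]
  refine Tri.mono (Q := fun m' => Same [7, 20, 21, 22, 23, 24, 25, 35 + 3 * d] m m' ∧
      Rep p m' (35 + 3 * d) (b.k ^ j) (kupd A (em s q (e 0)) (2 * s) X)) ?_ htime fun _ h => h
  refine Tri.seq ((h0 V 0 e m (by rw [hg, hjd]; exact hjV) (by omega)).mono le_rfl fun m0 hm0 => ?_)
  have s0 : Same [7, 20, 21, 22, 23, 24, 25] m m0 := by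
    rw [hm0]
    exact (Same.write _ _ _ _).mono (by simp)
  have j0 : m0 7 0 = j := by rw [hm0, write_same, hg, hjd]
  refine Tri.seq ((h1 V e m0 p (b.k ^ j) (fun i a => if a < 2 * s then A i (em s q (e 0) a) else 0)
    (fun i a => if a < 2 * s then m (35 + 3 * d) (i * b.k ^ j + em s q (e 0) a) else 0)
    (fun m' h => tv m' (step s0 h (by simp))) (hTT.trans hR) hp (fun i hi a _ => ?_)
    (fun i _ a _ m' h _ => ?_)).mono le_rfl fun m1 hm1 => ?_)
  · by_cases ha : a < 2 * s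
    · simp only [if_pos ha]
      exact hA i hi _ (hem a ha)
    · simp [if_neg ha, hp0]
  · have h' := step s0 h (by simp)
    simp only [P315.cons, tv m' h', sv m' h', qv m' h', (key m' h').2.2.1]
  have s1 := step s0 hm1.1 (by simp)
  have j1 : m1 7 0 = j := by rw [hm1.1 7 (by simp), j0]
  refine Tri.seq ((h2 V e m1 p (b.k ^ j) (fun a c => if a < 2 * s ∧ c < 2 * s then X a c else 0)
    (fun a c => if a < 2 * s ∧ c < 2 * s then m (31 + 3 * d) (a * (2 * s) + c) else 0)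
    (fun m' h => tv m' (step s1 h (by simp))) (hTT.trans hR) hp (fun a _ c _ => ?_)
    (fun i _ a _ m' h _ => ?_)).mono le_rfl fun m2 hm2 => ?_)
  · by_cases ha : a < 2 * s ∧ c < 2 * s
    · simp only [if_pos ha]
      exact hX a ha.1 c ha.2
    · simp only [if_neg ha]
      simp [hp0]
  · have h' := step s1 h (by simp)
    simp only [P315.cons, sv m' h', (key m' h').2.2.2.1]
  have s2 := step s1 hm2.1 (by simp)
  have j2 : m2 7 0 = j := by rw [hm2.1 7 (by simp), j1]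
  refine Tri.seq ((hM V e m2 p J j _ _ (key m2 s2).2.2.2.2 hD hJ j2 hp hV
    (rep_same hm1.2 (hm2.1 20 (by simp))) hm2.2).mono le_rfl fun m3 hm3 => ?_)
  have s3 := step s2 hm3.1 (by simp)
  refine Tri.seq ((h3 V e m3 p (b.k ^ j) _ (fun i l => m3 22 (i * b.k ^ j + l))
    (fun m' h => tv m' (step s3 h (by simp))) (hTT.trans hR) hp hm3.2.2
    (fun i _ a _ m' h _ => ?_)).mono le_rfl fun m4 hm4 => ?_)
  · have h' := step s3 h (by simp)
    simp only [P315.cons, tv m' h', h 22 (by simp)]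
  have s4 := step s3 hm4.1 (by simp)
  have j4 : m4 7 0 = j := by rw [hm4.1 7 (by simp), hm3.2.1]
  refine Tri.seq ((h4 V e m4 p (b.k ^ j) (fun a l => if a < 2 * s then A (em s q (e 0) a) l else 0)
    (fun a l => if a < 2 * s then m (35 + 3 * d) (em s q (e 0) a * b.k ^ j + l) else 0)
    (fun m' h => tv m' (step s4 h (by simp))) (hTT.trans hR) hp (fun a _ l hl => ?_)
    (fun i _ a _ m' h _ => ?_)).mono le_rfl fun m5 hm5 => ?_)
  · by_cases ha : a < 2 * s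
    · simp only [if_pos ha]
      exact hA _ (hem a ha) l hl
    · simp [if_neg ha, hp0]
  · have h' := step s4 h (by simp)
    simp only [P315.cons, tv m' h', sv m' h', qv m' h', (key m' h').2.2.1]
  have s5 := step s4 hm5.1 (by simp)
  have j5 : m5 7 0 = j := by rw [hm5.1 7 (by simp), j4]
  refine Tri.seq ((hM V e m5 p J j _ _ (key m5 s5).2.2.2.2 hD hJ j5 hp hV
    (rep_same hm4.2 (hm5.1 20 (by simp))) hm5.2).mono le_rfl fun m6 hm6 => ?_)
  have s6 := step s5 hm6.1 (by simp)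
  have k6 := key m6 s6
  have fr : ∀ m' : Mem, Same [35 + 3 * d] m6 m' → m' 6 = m6 6 ∧ m' 9 = m6 9 ∧ m' 22 = m6 22 :=
    fun m' h => ⟨h _ (by simp; omega), h _ (by simp; omega), h _ (by simp; omega)⟩
  refine (h5 V e m6 p (b.k ^ j) (kupd A (em s q (e 0)) (2 * s) X)
    (fun i l => (m (35 + 3 * d) (i * b.k ^ j + l) + p - m6 22 (i * b.k ^ j + l)) % p)
    (fun m' h => ?_) (hTT.trans hR) hp (fun i hi l hl => ?_)
    (fun i _ l _ m' h hz => ?_)).mono le_rfl fun m7 hm7 => ⟨?_, hm7.2⟩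
  · rw [(fr m' h).1, (fr m' h).2.1]
    exact tv m6 s6
  · obtain ⟨b1, b2⟩ := hm6.2.2 i hi l hl
    refine ⟨(sub_cast b1).1, ?_⟩
    rw [(sub_cast b1).2, b2, (hA i hi l hl).2]
    exact congrArg (fun z => A i l - z) (alg hst _ X _)
  · simp only [P315.cons]
    rw [(fr m' h).1, (fr m' h).2.1, (fr m' h).2.2, tv m6 s6, hz _ le_rfl, k6.2.2.1, k6.2.2.2.2.hp]
  · exact (s6.mono (by simp)).trans (hm7.1.mono (by simp))

end Vale.Agent.P305
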