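import Vale.Agent.P305.Spec

open Finset

namespace Vale.Agent.P305

open Vale.Agent.P315

namespace YMathAux

theorem lin {R : Type} [CommRing R] (Pi Po : ℕ) (co : ℕ → ℕ → R) (S : Finset ℕ) (c : ℕ → R)
    (j : ℕ) : ∀ (x : ℕ → ℕ → R) (z : ℕ),
    yat Pi Po co j (fun l => ∑ s ∈ S, c s * x s l) z = ∑ s ∈ S, c s * yat Pi Po co j (x s) z := by
  induction j with
  | zero => intro x z; rfl
  | succ j ih =>
    intro x z
    have e : (fun l => ∑ τ ∈ range Pi, co (z / Po ^ j) τ * ∑ s ∈ S, c s * x s (τ * Pi ^ j + l)) =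
        fun l => ∑ s ∈ S, c s * ∑ τ ∈ range Pi, co (z / Po ^ j) τ * x s (τ * Pi ^ j + l) := by
      funext l
      simp only [mul_sum]
      rw [sum_comm]
      exact sum_congr rfl fun s _ => sum_congr rfl fun τ _ => by ring
    show yat Pi Po co j
      (fun l => ∑ τ ∈ range Pi, co (z / Po ^ j) τ * ∑ s ∈ S, c s * x s (τ * Pi ^ j + l))
      (z % Po ^ j) = _
    rw [e, ih (fun s l => ∑ τ ∈ range Pi, co (z / Po ^ j) τ * x s (τ * Pi ^ j + l))]
    rfl

theorem dm {n a c : ℕ} (h : c < n) : (a * n + c) / n = a ∧ (a * n + c) % n = c := by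
  have hn : 0 < n := by omega
  constructor
  · rw [add_comm, Nat.add_mul_div_right _ _ hn, Nat.div_eq_of_lt h, zero_add]
  · rw [add_comm, Nat.add_mul_mod_self_right, Nat.mod_eq_of_lt h]

theorem step {R : Type} [CommRing R] (Pi Po : ℕ) (co : ℕ → ℕ → R) (j : ℕ) (x : ℕ → R)
    (s l : ℕ) (hl : l < Po ^ j) :
    yat Pi Po co (j + 1) x (s * Po ^ j + l) =
      yat Pi Po co j (fun y => ∑ τ ∈ range Pi, co s τ * x (τ * Pi ^ j + y)) l := by
  show yat Pi Po co j
    (fun y => ∑ τ ∈ range Pi, co ((s * Po ^ j + l) / Po ^ j) τ * x (τ * Pi ^ j + y))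
    ((s * Po ^ j + l) % Po ^ j) = _
  rw [(dm hl).1, (dm hl).2]

theorem srm {R : Type} [CommRing R] (f : ℕ → R) (n m : ℕ) :
    ∑ τ ∈ range (m * n), f τ = ∑ a ∈ range m, ∑ c ∈ range n, f (a * n + c) := by
  induction m with
  | zero => simp
  | succ m ih => rw [Nat.succ_mul, sum_range_add, ih, sum_range_succ]

theorem coll {R : Type} [CommRing R] (k s0 s1 : ℕ) (h0 : s0 < k) (h1 : s1 < k)
    (f : ℕ → ℕ → ℕ → ℕ → R) :
    ∑ τ ∈ range (k * k), ∑ υ ∈ range (k * k),
      (if τ / k = s0 ∧ υ % k = s1 ∧ τ % k = υ / k then f (τ / k) (τ % k) (υ / k) (υ % k) else 0) =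
      ∑ c ∈ range k, f s0 c c s1 := by
  rw [srm, sum_eq_single s0]
  · refine sum_congr rfl fun c hc => ?_
    have hc' := mem_range.1 hc
    rw [(dm hc').1, (dm hc').2, srm, sum_eq_single c]
    · rw [sum_eq_single s1]
      · rw [(dm h1).1, (dm h1).2, if_pos ⟨rfl, rfl, rfl⟩]
      · intro d hd hne
        have hd' := mem_range.1 hd
        rw [(dm hd').2, if_neg fun h => hne h.2.1]
      · intro h
        exact absurd (mem_range.2 h1) h
    · intro a _ hne
      refine sum_eq_zero fun d hd => ?_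
      have hd' := mem_range.1 hd
      rw [(dm hd').1, if_neg fun h => hne h.2.2.symm]
    · intro h
      exact absurd hc h
  · intro a _ hne
    refine sum_eq_zero fun c hc => sum_eq_zero fun υ _ => ?_
    have hc' := mem_range.1 hc
    rw [(dm hc').1, if_neg fun h => hne h.1]
  · intro h
    exact absurd (mem_range.2 h0) h

theorem bil (b : Bil) (hb : b.Ok) {F : Type} [Field F] (μ : F) (hμ : μ * b.D = 1) (σ : ℕ)
    (hσ : σ < b.k * b.k) (P Q : ℕ → ℕ → F) :
    ∑ s ∈ range b.rk, μ * b.γ σ s *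
      ((∑ τ ∈ range (b.k * b.k), (b.α s τ : F) * P (τ / b.k) (τ % b.k)) *
        ∑ υ ∈ range (b.k * b.k), (b.β s υ : F) * Q (υ / b.k) (υ % b.k)) =
      ∑ c ∈ range b.k, P (σ / b.k) c * Q c (σ % b.k) := by
  have hk : 0 < b.k := by have := hb.k4; omega
  rw [← coll b.k (σ / b.k) (σ % b.k) (Nat.div_lt_of_lt_mul hσ) (Nat.mod_lt _ hk)
    (fun a c a' c' => P a c * Q a' c')]
  simp only [sum_mul_sum]
  simp only [mul_sum]
  rw [sum_comm]
  refine sum_congr rfl fun τ hτ => ?_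
  rw [sum_comm]
  refine sum_congr rfl fun υ hυ => ?_
  have e := congrArg (fun t : ℤ => (t : F)) (hb.eq σ hσ τ (mem_range.1 hτ) υ (mem_range.1 hυ))
  simp only [Int.cast_sum, Int.cast_mul] at e
  have e2 : ∑ s ∈ range b.rk, μ * b.γ σ s *
      ((b.α s τ : F) * P (τ / b.k) (τ % b.k) * ((b.β s υ : F) * Q (υ / b.k) (υ % b.k))) =
      μ * (∑ s ∈ range b.rk, (b.γ σ s : F) * b.α s τ * b.β s υ) *
        (P (τ / b.k) (τ % b.k) * Q (υ / b.k) (υ % b.k)) := by
    rw [mul_sum, sum_mul]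
    exact sum_congr rfl fun s _ => by ring
  rw [e2, e]
  split_ifs
  · rw [Int.cast_natCast, hμ, one_mul]
  · simp

end YMathAux

open YMathAux in
theorem p_yMath (h1 : ZS) (h2 : YCongr) : YMath := by
  intro b hb F _ μ hμ j
  have hk : 2 ≤ b.k := by have := hb.k4; omega
  induction j with
  | zero =>
    intro A B z hz
    have hz0 : z = 0 := by simpa using hz
    subst hz0
    simp [yat, row_zero, col_zero]
  | succ j ih =>
    intro A B z hz
    have hK : 0 < (b.k * b.k) ^ j := by positivity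
    obtain ⟨σ, z', hz', rfl⟩ : ∃ σ z', z' < (b.k * b.k) ^ j ∧ z = σ * (b.k * b.k) ^ j + z' :=
      ⟨z / (b.k * b.k) ^ j, z % (b.k * b.k) ^ j, Nat.mod_lt _ hK, (Nat.div_add_mod' _ _).symm⟩
    have hσ : σ < b.k * b.k := by
      by_contra hc
      have h3 : b.k * b.k * (b.k * b.k) ^ j ≤ σ * (b.k * b.k) ^ j :=
        Nat.mul_le_mul_right _ (not_lt.1 hc)
      rw [pow_succ'] at hz
      omega
    have hZ := (h1 b.k hk j).1
    rw [step _ _ _ _ _ _ _ hz']
    let As : ℕ → Mx F := fun s i a => ∑ τ ∈ range (b.k * b.k),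
      (b.α s τ : F) * A (τ / b.k * b.k ^ j + i) (τ % b.k * b.k ^ j + a)
    let Bs : ℕ → Mx F := fun s i a => ∑ τ ∈ range (b.k * b.k),
      (b.β s τ : F) * B (τ / b.k * b.k ^ j + i) (τ % b.k * b.k ^ j + a)
    rw [h2 F _ _ _ j _ (fun l => ∑ s ∈ range b.rk, μ * b.γ σ s *
      (yat (b.k * b.k) b.rk (fun s τ => (b.α s τ : F)) j
          (fun y => As s (row b.k y) (col b.k y)) l *
        yat (b.k * b.k) b.rk (fun s τ => (b.β s τ : F)) j
          (fun y => Bs s (row b.k y) (col b.k y)) l)) z' ?_]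
    · rw [lin _ _ _ _ _ j (fun s l => yat (b.k * b.k) b.rk (fun s τ => (b.α s τ : F)) j
          (fun y => As s (row b.k y) (col b.k y)) l *
        yat (b.k * b.k) b.rk (fun s τ => (b.β s τ : F)) j
          (fun y => Bs s (row b.k y) (col b.k y)) l)]
      rw [sum_congr rfl fun s _ => congrArg _ (ih (As s) (Bs s) z' hz')]
      rw [((hZ z' hz').2.2 σ hσ).1, ((hZ z' hz').2.2 σ hσ).2, pow_succ' b.k j, srm,
        sum_comm (s := range b.k)]
      simp only [mul_sum (range (b.k ^ j))]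
      rw [sum_comm]
      refine sum_congr rfl fun a _ => ?_
      exact bil b hb μ hμ σ hσ
        (fun u c => A (u * b.k ^ j + row b.k z') (c * b.k ^ j + a))
        (fun u c => B (u * b.k ^ j + a) (c * b.k ^ j + col b.k z'))
    · intro l hl
      refine sum_congr rfl fun s _ => ?_
      rw [step _ _ _ _ _ _ _ hl, step _ _ _ _ _ _ _ hl]
      congr 2
      · refine h2 F _ _ _ j _ _ l fun y hy => sum_congr rfl fun τ hτ => ?_
        rw [((hZ y hy).2.2 τ (mem_range.1 hτ)).1, ((hZ y hy).2.2 τ (mem_range.1 hτ)).2]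
      · refine h2 F _ _ _ j _ _ l fun y hy => sum_congr rfl fun τ hτ => ?_
        rw [((hZ y hy).2.2 τ (mem_range.1 hτ)).1, ((hZ y hy).2.2 τ (mem_range.1 hτ)).2]

end Vale.Agent.P305
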