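import Vale.Agent.P305.Spec

open Finset

namespace Vale.Agent.P305

open Vale.Agent.P315

namespace YProgAux

theorem lt_mul {t T l L : ℕ} (ht : t < T) (hl : l < L) : t * L + l < T * L := by nlinarith

theorem ycongr {R : Type} [CommRing R] (Pi Po : ℕ) (co : ℕ → ℕ → R) (j : ℕ) :
    ∀ (x y : ℕ → R) (z : ℕ), (∀ l < Pi ^ j, x l = y l) →
      yat Pi Po co j x z = yat Pi Po co j y z := by
  induction j with
  | zero => exact fun x y z h => h 0 (by simp)
  | succ j ih =>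
    intro x y z h
    refine ih _ _ _ fun l hl => sum_congr rfl fun τ hτ => ?_
    rw [h _ (by rw [pow_succ']; exact lt_mul (mem_range.1 hτ) hl)]

/-- A natural number congruent to the coefficient. -/
def cn (Po : ℕ) (co : ℕ → ℕ → ℤ) (p s τ : ℕ) : ℕ :=
  (if s < Po then (co s τ).toNat else 0) + (p - 1) * (if s < Po then (-co s τ).toNat else 0)

theorem cn_cast {Po : ℕ} (co : ℕ → ℕ → ℤ) {p s : ℕ} (hp : 1 ≤ p) (hs : s < Po) (τ : ℕ) :
    (cn Po co p s τ : ZMod p) = (co s τ : ZMod p) := by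
  have h := congrArg (Int.cast : ℤ → ZMod p) (Int.toNat_sub_toNat_neg (co s τ))
  rw [Int.cast_sub, Int.cast_natCast, Int.cast_natCast] at h
  rw [cn, if_pos hs, if_pos hs, Nat.cast_add, Nat.cast_mul, Nat.cast_sub hp, ZMod.natCast_self, ← h]
  ring

/-- The value written in one round. -/
def val (Pi Po : ℕ) (co : ℕ → ℕ → ℤ) (p μ Z lo i z : ℕ) (arr : ℕ → ℕ) : ℕ :=
  (μ * ∑ τ ∈ range Pi, cn Po co p (z / lo % Po) τ *
    arr (i * Z + ((z / lo / Po * Pi + τ) * lo + z % lo))) % p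

theorem cx_val (a ai Pi Po : ℕ) (co : ℕ → ℕ → ℤ) : Cx fun e m => val Pi Po co (m 6 1) (m 7 1)
    (m 11 (m 7 0)) (m ai (m 7 0 - e 1 - 1)) (e 1) (e 0) (m a) := by
  have hlo : Cx fun e m => m ai (m 7 0 - e 1 - 1) :=
    Cx.get ai (((Cx.cell 7 0).sub (Cx.var 1)).sub (Cx.const 1))
  have hq := (Cx.var 0).div hlo
  have hs := hq.mod (Cx.const Po)
  refine ((Cx.cell 7 1).mul (cx_sum Pi fun τ _ => Cx.mul ?_ (Cx.get a ?_))).mod (Cx.cell 6 1)
  · exact (cx_table Po (fun s => (co s τ).toNat) hs).add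
      (((Cx.cell 6 1).sub (Cx.const 1)).mul (cx_table Po (fun s => (-co s τ).toNat) hs))
  · exact ((Cx.var 1).mul (Cx.get 11 (Cx.cell 7 0))).add
      (((((hq.div (Cx.const Po)).mul (Cx.const Pi)).add (Cx.const τ)).mul hlo).add
        ((Cx.var 0).mod hlo))

theorem pw_le {Pi Po rk i r : ℕ} (h1 : Pi ≤ rk) (h2 : Po ≤ rk) : Po ^ i * Pi ^ r ≤ rk ^ (i + r) := by
  rw [pow_add]
  exact Nat.mul_le_mul (Nat.pow_le_pow_left h2 _) (Nat.pow_le_pow_left h1 _)

theorem val_congr {Pi Po : ℕ} (co : ℕ → ℕ → ℤ) (p μ : ℕ) {Z i r z : ℕ} {arr arr' : ℕ → ℕ}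
    (h1 : 1 ≤ Pi) (hz : z < Po ^ (i + 1) * Pi ^ r) (hZ : Po ^ i * Pi ^ (r + 1) ≤ Z)
    (h : ∀ y < (i + 1) * Z, arr' y = arr y) :
    val Pi Po co p μ Z (Pi ^ r) i z arr' = val Pi Po co p μ Z (Pi ^ r) i z arr := by
  unfold val
  refine congrArg (fun t => (μ * t) % p) (sum_congr rfl fun τ hτ => ?_)
  have a1 : z / Pi ^ r / Po < Po ^ i :=
    Nat.div_lt_of_lt_mul (by rw [← pow_succ']; exact Nat.div_lt_of_lt_mul (by rwa [mul_comm]))
  have a2 := lt_mul (lt_mul a1 (mem_range.1 hτ)) (Nat.mod_lt z (Nat.pow_pos (n := r) h1))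
  rw [mul_assoc, ← pow_succ'] at a2
  rw [h _ (by rw [add_mul i, one_mul]; omega)]

theorem step {Pi Po : ℕ} (co : ℕ → ℕ → ℤ) {p : ℕ} (hp : 1 ≤ p) (μ : ℕ) {Z i r : ℕ}
    {arr arr' : ℕ → ℕ} {Y : ℕ → ZMod p} (h2 : 1 ≤ Po)
    (h : ∀ z < Po ^ (i + 1) * Pi ^ r,
      arr' ((i + 1) * Z + z) = val Pi Po co p μ Z (Pi ^ r) i z arr)
    (ih : ∀ u < Po ^ i, ∀ s < Po ^ (r + 1),
      yat Pi Po (fun s τ => (μ : ZMod p) * (co s τ : ZMod p)) (r + 1)
        (fun l => (arr (i * Z + (u * Pi ^ (r + 1) + l)) : ZMod p)) s = Y (u * Po ^ (r + 1) + s)) :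
    ∀ u < Po ^ (i + 1), ∀ s < Po ^ r,
      yat Pi Po (fun s τ => (μ : ZMod p) * (co s τ : ZMod p)) r
        (fun l => (arr' ((i + 1) * Z + (u * Pi ^ r + l)) : ZMod p)) s = Y (u * Po ^ r + s) := by
  intro u hu s hs
  have b1 : u % Po < Po := Nat.mod_lt _ h2
  have := ih (u / Po) (Nat.div_lt_of_lt_mul (by rwa [← pow_succ'])) (u % Po * Po ^ r + s)
    (by rw [pow_succ']; exact lt_mul b1 hs)
  have e : u / Po * Po ^ (r + 1) + (u % Po * Po ^ r + s) = u * Po ^ r + s := by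
    conv_rhs => rw [← Nat.div_add_mod' u Po]
    ring
  rw [e, yat, idx_div hs, idx_mod hs] at this
  rw [← this]
  refine ycongr _ _ _ _ _ _ _ fun l hl => ?_
  rw [h _ (lt_mul hu hl), val, ZMod.natCast_mod, idx_div hl, idx_mod hl, Nat.cast_mul,
    Nat.cast_sum, mul_sum]
  refine sum_congr rfl fun τ _ => ?_
  have e' : (u / Po * Pi + τ) * Pi ^ r + l = u / Po * Pi ^ (r + 1) + (τ * Pi ^ r + l) := by ring
  rw [Nat.cast_mul, cn_cast co hp b1, e', mul_assoc]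

end YProgAux

open YProgAux in
theorem p_yProg : YProg := by
  intro a ai ao Pi Po rk co ha hai hao h1 h1' h2 h2'
  obtain ⟨c, hc⟩ := fill a (by omega)
    (n := fun e m => m ao (e 0 + 1) * m ai (m 7 0 - e 0 - 1))
    (o := fun e m => (e 0 + 1) * m 11 (m 7 0))
    ((Cx.get ao ((Cx.var 0).add (Cx.const 1))).mul
      (Cx.get ai (((Cx.cell 7 0).sub (Cx.var 0)).sub (Cx.const 1))))
    (((Cx.var 0).add (Cx.const 1)).mul (Cx.get 11 (Cx.cell 7 0))) (cx_val a ai Pi Po co)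
  refine ⟨.rep (.get 7 (.const 0)) c, 4, ?_⟩
  intro V e m p _ j x hp hj ht h11 hpV hV hjV hx
  have p1 : 1 ≤ p := (Fact.out : p.Prime).one_le
  have hn : (Term.get 7 (.const 0)).eval m e = j := hj
  have hZ : 1 ≤ rk ^ j := Nat.pow_pos (by omega)
  have key := Tri.rep (V := V) (S := 0) (e := e) (m := m) (n := .get 7 (.const 0)) (p := c)
    (fun i m' => Same [a] m m' ∧ ∀ r, i + r = j → ∀ u < Po ^ i, ∀ s < Po ^ r,
      yat Pi Po (fun s τ => (m 7 1 : ZMod p) * (co s τ : ZMod p)) r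
        (fun l => (m' a (i * rk ^ j + (u * Pi ^ r + l)) : ZMod p)) s
      = yat Pi Po (fun s τ => (m 7 1 : ZMod p) * (co s τ : ZMod p)) j x (u * Po ^ r + s))
    (fun _ => 1 + 2 * rk ^ j) (by rwa [hn]) ⟨Same.refl _ _, fun r hr u hu s _ => by
      obtain rfl : r = j := by omega
      obtain rfl : u = 0 := by simpa using hu
      simp only [zero_mul, zero_add]
      exact ycongr _ _ _ _ _ _ _ hx⟩ (by
      intro i hi m1 hm
      rw [hn] at hi
      obtain ⟨r, hr⟩ : ∃ r, j = i + 1 + r := ⟨j - i - 1, by omega⟩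
      have hs : ∀ m2, Same [a] m m2 → m2 6 1 = p ∧ m2 7 1 = m 7 1 ∧ m2 11 (m2 7 0) = rk ^ j ∧
          m2 ai (m2 7 0 - i - 1) = Pi ^ r ∧ m2 ao (i + 1) = Po ^ (i + 1) := by
        intro m2 h
        rw [h 6 (by simp; omega), h 7 (by simp; omega), h 11 (by simp; omega),
          h ai (by simp; omega), h ao (by simp; omega), hj, show j - i - 1 = r by omega]
        exact ⟨hp, rfl, h11, (ht r (by omega)).1, (ht _ (by omega)).2⟩
      obtain ⟨s1, s2, s3, s4, s5⟩ := hs m1 hm.1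
      have en : m1 ao (i + 1) * m1 ai (m1 7 0 - i - 1) = Po ^ (i + 1) * Pi ^ r := by rw [s4, s5]
      have eo : (i + 1) * m1 11 (m1 7 0) = (i + 1) * rk ^ j := by rw [s3]
      have l1 : Po ^ (i + 1) * Pi ^ r ≤ rk ^ j := hr ▸ pw_le h1' h2'
      have l2 : Po ^ i * Pi ^ (r + 1) ≤ rk ^ j := by
        rw [show j = i + (r + 1) by omega]
        exact pw_le h1' h2'
      have := hc V 0 (cons i e) m1
        (fun z => val Pi Po co p (m 7 1) (rk ^ j) (Pi ^ r) i z (m1 a)) (en.le.trans (l1.trans hV))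
        (fun z _ => (Nat.mod_lt _ p1).le.trans hpV) (by
          intro z hz m2 hf
          obtain ⟨t1, t2, t3, t4, -⟩ := hs m2 (hm.1.trans hf.1)
          refine ⟨show (i + 1) * m2 11 (m2 7 0) = (i + 1) * m1 11 (m1 7 0) by rw [s3, t3], ?_⟩
          show val Pi Po co (m2 6 1) (m2 7 1) (m2 11 (m2 7 0)) (m2 ai (m2 7 0 - i - 1)) i z (m2 a)
            = _
          rw [t1, t2, t3, t4]
          exact val_congr co p _ h1 (hz.trans_eq en) l2 fun y hy =>
            hf.2.2 y (Or.inl (hy.trans_eq eo.symm)))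
      refine this.mono (Nat.add_le_add_left (Nat.mul_le_mul_left 2 (en.le.trans l1)) 1)
        fun m2 hf => ⟨hm.1.trans hf.1, fun r' hr' => ?_⟩
      obtain rfl : r = r' := by omega
      refine step co p1 (m 7 1) h2 (fun z hz => ?_) (hm.2 (r + 1) (by omega))
      rw [← eo]
      exact hf.2.1 z (hz.trans_eq en.symm))
  rw [hn] at key
  refine key.mono ?_ fun m' hm => ⟨hm.1, fun z hz => ?_⟩
  · rw [sum_const, card_range, smul_eq_mul]
    nlinarith
  · have := hm.2 0 rfl z hz 0 (by simp)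
    simpa [yat] using this

end Vale.Agent.P305
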