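import Vale.Agent.P305.Spec

open Finset

namespace Vale.Agent.P305

open Vale.Agent.P315

namespace ZsAux

theorem md {K a b : ℕ} (h : a < K) : (a + K * b) % K = a ∧ (a + K * b) / K = b := by
  have hK : 0 < K := by omega
  exact ⟨by rw [Nat.add_mul_mod_self_left, Nat.mod_eq_of_lt h],
    by rw [Nat.add_mul_div_left _ _ hK, Nat.div_eq_of_lt h, zero_add]⟩

theorem lt_step {K a b P : ℕ} (ha : a < K) (hb : b < P) : a + K * b < P * K := by
  have : K * (b + 1) ≤ K * P := Nat.mul_le_mul_left _ hb
  nlinarith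

theorem div_lt {K z j : ℕ} (hK : 0 < K) (hz : z < K ^ (j + 1)) : z / K < K ^ j := by
  rw [Nat.div_lt_iff_lt_mul hK, ← pow_succ]; exact hz

theorem one {k : ℕ} (hk : 2 ≤ k) (j : ℕ) : ∀ z < (k * k) ^ j, row k z < k ^ j ∧ col k z < k ^ j ∧
    ∀ τ < k * k, row k (τ * (k * k) ^ j + z) = τ / k * k ^ j + row k z ∧
      col k (τ * (k * k) ^ j + z) = τ % k * k ^ j + col k z := by
  have h0 : 0 < k := by omega
  have hK : 0 < k * k := by positivity
  induction j with
  | zero =>
    intro z hz
    obtain rfl : z = 0 := by simpa using hz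
    refine ⟨by simp [row_zero], by simp [col_zero], fun τ hτ => ?_⟩
    simp only [pow_zero, mul_one, add_zero, row_zero, col_zero]
    rw [row_eq hk, col_eq hk, Nat.mod_eq_of_lt hτ, Nat.div_eq_of_lt hτ, row_zero, col_zero]
    simp
  | succ j ih =>
    intro z hz
    obtain ⟨h1, h2, h3⟩ := ih _ (div_lt hK hz)
    have hm : z % (k * k) < k * k := Nat.mod_lt _ hK
    refine ⟨?_, ?_, fun τ hτ => ?_⟩
    · rw [row_eq hk, pow_succ]
      exact lt_step ((Nat.div_lt_iff_lt_mul h0).2 hm) h1
    · rw [col_eq hk, pow_succ]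
      exact lt_step (Nat.mod_lt _ h0) h2
    · have e : τ * (k * k) ^ (j + 1) + z =
          z % (k * k) + k * k * (τ * (k * k) ^ j + z / (k * k)) := by
        have := Nat.mod_add_div z (k * k)
        rw [pow_succ, mul_add]
        nlinarith
      obtain ⟨h4, h5⟩ := h3 τ hτ
      rw [row_eq hk (τ * (k * k) ^ (j + 1) + z), col_eq hk (τ * (k * k) ^ (j + 1) + z), e,
        (md hm).1, (md hm).2, h4, h5, row_eq hk z, col_eq hk z]
      constructor <;> ring

theorem two {k : ℕ} (hk : 2 ≤ k) (j : ℕ) : ∀ i < k ^ j, ∀ l < k ^ j,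
    zi k i * k + zi k l < (k * k) ^ j ∧
      row k (zi k i * k + zi k l) = i ∧ col k (zi k i * k + zi k l) = l := by
  have h0 : 0 < k := by omega
  induction j with
  | zero =>
    intro i hi l hl
    obtain rfl : i = 0 := by simpa using hi
    obtain rfl : l = 0 := by simpa using hl
    simp [zi_zero, row_zero, col_zero]
  | succ j ih =>
    intro i hi l hl
    obtain ⟨h1, h2, h3⟩ := ih _ (div_lt h0 hi) _ (div_lt h0 hl)
    have hi' : i % k < k := Nat.mod_lt _ h0
    have hl' : l % k < k := Nat.mod_lt _ h0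
    have hm : l % k + k * (i % k) < k * k := lt_step hl' hi'
    have e : zi k i * k + zi k l =
        (l % k + k * (i % k)) + k * k * (zi k (i / k) * k + zi k (l / k)) := by
      rw [zi_eq hk i, zi_eq hk l]; ring
    refine ⟨?_, ?_, ?_⟩
    · rw [e, pow_succ]
      exact lt_step hm h1
    · rw [row_eq hk, e, (md hm).1, (md hm).2, h2, (md hl').2, Nat.mod_add_div]
    · rw [col_eq hk, e, (md hm).1, (md hm).2, h3, (md hl').1, Nat.mod_add_div]

end ZsAux

theorem p_zs : ZS := fun _ hk j => ⟨ZsAux.one hk j, ZsAux.two hk j⟩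

theorem p_yCongr : YCongr := by
  intro R _ Pi Po co j
  induction j with
  | zero =>
    intro x y z h
    exact h 0 (by simp)
  | succ j ih =>
    intro x y z h
    simp only [yat]
    refine ih _ _ _ fun l hl => sum_congr rfl fun τ hτ => ?_
    rw [h]
    have := ZsAux.lt_step hl (mem_range.1 hτ)
    rw [pow_succ]
    nlinarith

end Vale.Agent.P305
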